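import Vale.Agent.Lib.P171.SupConv

/-!
# P171, layer 4: stability of corners under uniform perturbations
-/

namespace Vale.Agent.Lib.P171

open Set Filter Topology

/-- slopes of a convex function are monotone -/
theorem close_slope_le {g : ℝ → ℝ} (hg : ConvexOn ℝ univ g) {a b x y : ℝ} (hab : a < b)
    (hbx : b ≤ x) (hxy : x < y) : (g b - g a) / (b - a) ≤ (g y - g x) / (y - x) := by
  have hby : b < y := lt_of_le_of_lt hbx hxy
  have h1 := hg.slope_mono_adjacent (mem_univ a) (mem_univ y) hab hby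
  have h2 := hg.secant_mono (mem_univ y) (mem_univ b) (mem_univ x) hby.ne hxy.ne hbx
  have e1 : (g y - g b) / (y - b) = (g b - g y) / (b - y) := by
    rw [← neg_sub (g b), ← neg_sub b, neg_div_neg_eq]
  have e2 : (g y - g x) / (y - x) = (g x - g y) / (x - y) := by
    rw [← neg_sub (g x), ← neg_sub x, neg_div_neg_eq]
  rw [e2]
  rw [e1] at h1
  exact h1.trans h2

/-- a convex function close (at three points) to a function with a corner is steep -/
theorem steep_of_close {g G : ℝ → ℝ} (hg : ConvexOn ℝ univ g) {m s₁ s₂ η w : ℝ}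
    (hK : Kink G m s₁ s₂) (hw : 0 < w)
    (h0 : |g m - G m| ≤ η) (h1 : |g (m + w) - G (m + w)| ≤ η) (h2 : |g (m - w) - G (m - w)| ≤ η) :
    Steep g (m - w) (m + w) (s₁ + 2 * η / w) (s₂ - 2 * η / w) := by
  obtain ⟨hKr, hKl⟩ := hK w hw.le
  have h0' := abs_le.1 h0
  have h1' := abs_le.1 h1
  have h2' := abs_le.1 h2
  constructor
  · intro x y hxy hy
    rcases eq_or_lt_of_le hxy with rfl | hlt
    · simp
    have hs := close_slope_le hg hlt hy (show m - w < m by linarith)
    have hS : (g m - g (m - w)) / (m - (m - w)) ≤ s₁ + 2 * η / w := by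
      have : m - (m - w) = w := by ring
      rw [this, div_le_iff₀ hw]
      have : (s₁ + 2 * η / w) * w = s₁ * w + 2 * η := by field_simp
      rw [this]
      linarith
    have hpos : 0 < y - x := by linarith
    have := hs.trans hS
    rwa [div_le_iff₀ hpos] at this
  · intro x y hx hxy
    rcases eq_or_lt_of_le hxy with rfl | hlt
    · simp
    have hs := close_slope_le hg (show m < m + w by linarith) hx hlt
    have hS : s₂ - 2 * η / w ≤ (g (m + w) - g m) / (m + w - m) := by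
      have : m + w - m = w := by ring
      rw [this, le_div_iff₀ hw]
      have : (s₂ - 2 * η / w) * w = s₂ * w - 2 * η := by field_simp
      rw [this]
      linarith
    have hpos : 0 < y - x := by linarith
    have := hS.trans hs
    rwa [le_div_iff₀ hpos] at this

/-- weakening of the slopes in a corner -/
theorem Kink.mono {G : ℝ → ℝ} {m s₁ s₂ t₁ t₂ : ℝ} (hK : Kink G m s₁ s₂) (h1 : s₁ ≤ t₁)
    (h2 : t₂ ≤ s₂) : Kink G m t₁ t₂ := by
  intro h hh
  obtain ⟨a, b⟩ := hK h hh
  have e1 : s₁ * h ≤ t₁ * h := mul_le_mul_of_nonneg_right h1 hh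
  have e2 : t₂ * h ≤ s₂ * h := mul_le_mul_of_nonneg_right h2 hh
  constructor <;> linarith

/-- local corners also contradict differentiability -/
theorem not_differentiableAt_of_local_kink {P : ℝ → ℝ} {μ s₁ s₂ : ℝ} (hs : s₁ < s₂)
    (h : ∀ h, 0 ≤ h → h ≤ 1 → P μ + s₂ * h ≤ P (μ + h) ∧ P μ - s₁ * h ≤ P (μ - h)) :
    ¬ DifferentiableAt ℝ P μ := by
  intro hd
  have hD := hd.hasDerivAt
  have hr := hD.tendsto_slope_zero_right
  have hl := hD.tendsto_slope_zero_left
  have h1 : s₂ ≤ deriv P μ := by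
    apply ge_of_tendsto hr
    filter_upwards [Ioo_mem_nhdsGT (show (0:ℝ) < 1 by norm_num)] with t ht
    have := (h t ht.1.le ht.2.le).1
    rw [smul_eq_mul, ← div_eq_inv_mul, le_div_iff₀ ht.1]
    linarith
  have h2 : deriv P μ ≤ s₁ := by
    apply le_of_tendsto hl
    filter_upwards [Ioo_mem_nhdsLT (show (-1:ℝ) < 0 by norm_num)] with t ht
    have := (h (-t) (by linarith [ht.2]) (by linarith [ht.1])).2
    rw [sub_neg_eq_add] at this
    rw [smul_eq_mul, ← div_eq_inv_mul, div_le_iff_of_neg ht.2]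
    linarith
  linarith

/-- a function with a genuine corner is not differentiable there -/
theorem not_differentiableAt_of_kink {G : ℝ → ℝ} {m s₁ s₂ : ℝ} (hK : Kink G m s₁ s₂)
    (hs : s₁ < s₂) : ¬ DifferentiableAt ℝ G m :=
  not_differentiableAt_of_local_kink hs fun h h0 _ => hK h h0

/-- a uniform limit (on a compact interval) of functions with corners of a fixed size, located in
a compact interval, has a corner -/
theorem exists_kink_of_tendsto {P : ℝ → ℝ} (hP : ConvexOn ℝ univ P) {G : ℕ → ℝ → ℝ} {m ζ : ℕ → ℝ}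
    {a b s₁ s₂ : ℝ} (hm : ∀ k, m k ∈ Icc a b) (hK : ∀ k, Kink (G k) (m k) s₁ s₂)
    (hclose : ∀ k, ∀ μ ∈ Icc (a - 1) (b + 1), |P μ - G k μ| ≤ ζ k)
    (hζ : Tendsto ζ atTop (𝓝 0)) :
    ∃ μ ∈ Icc a b, ∀ h, 0 ≤ h → h ≤ 1 → P μ + s₂ * h ≤ P (μ + h) ∧ P μ - s₁ * h ≤ P (μ - h) := by
  obtain ⟨μ, hμ, φ, hφ, hlim⟩ := isCompact_Icc.tendsto_subseq hm
  have hc : Continuous P := continuous_of_convexOn hP
  have hζ' : Tendsto (ζ ∘ φ) atTop (𝓝 0) := hζ.comp hφ.tendsto_atTop
  refine ⟨μ, hμ, fun h h0 h1 => ⟨?_, ?_⟩⟩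
  · have l1 : Tendsto (fun k => P ((m ∘ φ) k) + s₂ * h - 2 * (ζ ∘ φ) k) atTop
        (𝓝 (P μ + s₂ * h - 2 * 0)) :=
      (((hc.tendsto μ).comp hlim).add_const _).sub (hζ'.const_mul 2)
    have l2 : Tendsto (fun k => P ((m ∘ φ) k + h)) atTop (𝓝 (P (μ + h))) :=
      (hc.tendsto (μ + h)).comp (hlim.add_const h)
    have := le_of_tendsto_of_tendsto' l1 l2 (fun k => by
      have hk := hm (φ k)
      have c1 := abs_le.1 (hclose (φ k) (m (φ k)) ⟨by linarith [hk.1], by linarith [hk.2]⟩)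
      have c2 := abs_le.1 (hclose (φ k) (m (φ k) + h) ⟨by linarith [hk.1], by linarith [hk.2]⟩)
      have c3 := (hK (φ k) h h0).1
      simp only [Function.comp]
      linarith)
    linarith
  · have l1 : Tendsto (fun k => P ((m ∘ φ) k) - s₁ * h - 2 * (ζ ∘ φ) k) atTop
        (𝓝 (P μ - s₁ * h - 2 * 0)) :=
      (((hc.tendsto μ).comp hlim).sub_const _).sub (hζ'.const_mul 2)
    have l2 : Tendsto (fun k => P ((m ∘ φ) k - h)) atTop (𝓝 (P (μ - h))) :=
      (hc.tendsto (μ - h)).comp (hlim.sub_const h)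
    have := le_of_tendsto_of_tendsto' l1 l2 (fun k => by
      have hk := hm (φ k)
      have c1 := abs_le.1 (hclose (φ k) (m (φ k)) ⟨by linarith [hk.1], by linarith [hk.2]⟩)
      have c2 := abs_le.1 (hclose (φ k) (m (φ k) - h) ⟨by linarith [hk.1], by linarith [hk.2]⟩)
      have c3 := (hK (φ k) h h0).2
      simp only [Function.comp]
      linarith)
    linarith

end Vale.Agent.Lib.P171
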