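import Vale.Agent.Lib.P171.Kink
import Vale.Agent.Lib.P171.Close

/-!
# P171, layer 4: the abstract iteration

A sequence of convex functions `P k`, each close to `T (c k) ν₀ (P k)` of the previous one, keeps an
(approximate) corner of a fixed size; a uniform limit has a genuine corner.
-/

namespace Vale.Agent.Lib.P171

open Set Filter Topology

/-- half-width of the window allowed at stage `k + 1`; `c'` is the strength of the NEXT level -/
noncomputable def wseq (c' S δ : ℝ) : ℝ := min 1 (c' * δ ^ 2 / (32 * (S + δ)))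

/-- the accuracy required at stage `k`; `c'` is the strength of the NEXT level -/
noncomputable def etaseq (c' S δ : ℝ) (k : ℕ) : ℝ := wseq c' S δ * δ / 2 ^ (k + 4)

theorem wseq_pos {c' S δ : ℝ} (hc : 0 < c') (hS : 0 ≤ S) (hδ : 0 < δ) : 0 < wseq c' S δ := by
  unfold wseq
  apply lt_min one_pos
  positivity

theorem etaseq_pos {c' S δ : ℝ} (hc : 0 < c') (hS : 0 ≤ S) (hδ : 0 < δ) (k : ℕ) :
    0 < etaseq c' S δ k := by
  have := wseq_pos hc hS hδ
  unfold etaseq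
  positivity

/-- **Abstract main theorem.**
Proof: put `δ = s₂ - s₁`, `w k = wseq (c (k+1)) S δ`, `η k = etaseq (c (k+1)) S δ k`,
`a k = s₁ + δ/4 * (1 - 2^(-k))`, `b k = s₂ - δ/4 * (1 - 2^(-k))` (so `δ/2 ≤ b k - a k ≤ δ`).
By induction on `k` construct `y₁ k ≤ y₂ k` with `Steep (P k) (y₁ k) (y₂ k) (a k) (b k)`,
`(y₂ k - y₁ k) * (4 * (S + (b k - a k))) ≤ c k * (b k - a k)^2`, and `m k` from `kink_T` with
`y₂ k - 4 c k S ≤ m k ≤ y₁ k`, `Kink (T (c k) ν₀ (P k)) (m k) (a k) (b k)`;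
`y₁ (k+1) = m k - w k`, `y₂ (k+1) = m k + w k` by `steep_of_close` (`2 η k / w k = δ / 2^(k+3)`).
Then `m (k+1) ≤ m k ≤ x₁` and `m k ≥ x₂ - 4 S ∑_{j ≤ k} c j`. Finish with `Kink.mono`,
`exists_kink_of_tendsto` (with `G k = T (c k) ν₀ (P k)`, error `ζ (k+1) + η k`) and
`not_differentiableAt_of_local_kink`. -/
theorem abstract_main {P : ℕ → ℝ → ℝ} {Pinf : ℝ → ℝ} {c ζ : ℕ → ℝ}
    {S ν₀ lo hi x₁ x₂ s₁ s₂ Csum : ℝ}
    (hconv : ∀ k, ConvexOn ℝ univ (P k)) (hmono : ∀ k, Monotone (P k))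
    (hconvInf : ConvexOn ℝ univ Pinf)
    (hc : ∀ k, 0 < c k) (hcsum : ∀ n, ∑ k ∈ Finset.range n, c k ≤ Csum)
    (hS : ∀ k x y, x ≤ y → y ≤ hi + ν₀ → P k y - P k x ≤ S * (y - x))
    (hs1 : 0 ≤ s₁) (hs : s₁ < s₂) (hx : x₁ ≤ x₂)
    (hbase : Steep (P 0) x₁ x₂ s₁ s₂)
    (hW0 : (x₂ - x₁) * (4 * (S + (s₂ - s₁))) ≤ c 0 * (s₂ - s₁) ^ 2)
    (hν : ∀ k, 4 * c k * S ≤ ν₀) (hν0 : 0 < ν₀)
    (hlo : lo ≤ x₂ - 4 * S * Csum - 1) (hhi : x₂ + 1 ≤ hi)
    (hclose : ∀ k, ∀ μ ∈ Icc lo hi,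
      |P (k + 1) μ - T (c k) ν₀ (P k) μ| ≤ etaseq (c (k + 1)) S (s₂ - s₁) k)
    (hinf : ∀ k, ∀ μ ∈ Icc lo hi, |Pinf μ - P k μ| ≤ ζ k) (hζ : Tendsto ζ atTop (𝓝 0)) :
    ∃ μ ∈ Icc lo hi, ¬ DifferentiableAt ℝ Pinf μ := by
  obtain ⟨δ, hδdef⟩ : ∃ δ : ℝ, δ = s₂ - s₁ := ⟨_, rfl⟩
  rw [← hδdef] at hW0 hclose
  have hδ : 0 < δ := by rw [hδdef]; linarith
  have hSs : s₂ ≤ S := by
    have h1 := hbase.2 x₂ (x₂ + 1) le_rfl (by linarith)
    have h2 := hS 0 x₂ (x₂ + 1) (by linarith) (by linarith)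
    have e : x₂ + 1 - x₂ = 1 := by ring
    rw [e] at h1 h2
    linarith
  have hS0 : 0 ≤ S := by linarith
  obtain ⟨p, hp⟩ : ∃ p : ℕ → ℝ, ∀ k, p k = 1 / 2 ^ k := ⟨_, fun _ => rfl⟩
  have hp0 : p 0 = 1 := by rw [hp]; norm_num
  have hps : ∀ k, p (k + 1) = p k / 2 := by
    intro k
    rw [hp, hp, pow_succ]
    field_simp
  have hppos : ∀ k, 0 < p k := by
    intro k
    rw [hp]
    positivity
  have hp1 : ∀ k, p k ≤ 1 := by
    intro k
    induction k with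
    | zero => rw [hp0]
    | succ k ih => rw [hps]; linarith [hppos k]
  obtain ⟨a, ha⟩ : ∃ a : ℕ → ℝ, ∀ k, a k = s₁ + δ / 4 * (1 - p k) := ⟨_, fun _ => rfl⟩
  obtain ⟨b, hb⟩ : ∃ b : ℕ → ℝ, ∀ k, b k = s₂ - δ / 4 * (1 - p k) := ⟨_, fun _ => rfl⟩
  have ha0 : a 0 = s₁ := by rw [ha, hp0]; ring
  have hb0 : b 0 = s₂ := by rw [hb, hp0]; ring
  have hq : ∀ k, 0 ≤ δ / 4 * (1 - p k) ∧ δ / 4 * (1 - p k) ≤ δ / 4 := by
    intro k
    have h1 := hp1 k
    have h2 := hppos k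
    constructor
    · apply mul_nonneg (by linarith) (by linarith)
    · nlinarith
  have hannon : ∀ k, 0 ≤ a k := by
    intro k
    rw [ha]
    linarith [(hq k).1]
  have haup : ∀ k, a k ≤ s₁ + δ / 4 := by
    intro k
    rw [ha]
    linarith [(hq k).2]
  have hblo : ∀ k, s₂ - δ / 4 ≤ b k := by
    intro k
    rw [hb]
    linarith [(hq k).2]
  have hD1 : ∀ k, δ / 2 ≤ b k - a k := by
    intro k
    rw [ha, hb]
    linarith [(hq k).2]
  have hD2 : ∀ k, b k - a k ≤ δ := by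
    intro k
    rw [ha, hb]
    linarith [(hq k).1]
  have hab : ∀ k, a k < b k := by
    intro k
    linarith [hD1 k]
  have has : ∀ k, a (k + 1) = a k + δ / 8 * p k := by
    intro k
    rw [ha, ha, hps]
    ring
  have hbs : ∀ k, b (k + 1) = b k - δ / 8 * p k := by
    intro k
    rw [hb, hb, hps]
    ring
  have hsumb : ∀ k, 4 * S * (∑ j ∈ Finset.range k, c j) ≤ 4 * S * Csum := by
    intro k
    exact mul_le_mul_of_nonneg_left (hcsum k) (by linarith)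
  have heta : ∀ k, 2 * etaseq (c (k + 1)) S δ k / wseq (c (k + 1)) S δ = δ / 8 * p k := by
    intro k
    have hw := wseq_pos (hc (k + 1)) hS0 hδ
    rw [hp]
    unfold etaseq
    rw [pow_add]
    field_simp
    ring
  have key : ∀ k, ∃ y₁ y₂ : ℝ, y₁ ≤ y₂ ∧ y₁ ≤ x₁ ∧ y₂ ≤ x₂ + 1 ∧
      x₂ - 4 * S * (∑ j ∈ Finset.range k, c j) ≤ y₂ ∧ Steep (P k) y₁ y₂ (a k) (b k) ∧
      (y₂ - y₁) * (4 * (S + (b k - a k))) ≤ c k * (b k - a k) ^ 2 := by
    intro k
    induction k with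
    | zero =>
      refine ⟨x₁, x₂, hx, le_rfl, by linarith, by simp, ?_, ?_⟩
      · rw [ha0, hb0]; exact hbase
      · rw [ha0, hb0, ← hδdef]; exact hW0
    | succ k ih =>
      obtain ⟨y₁, y₂, hy, hy1, hy2, hy3, hst, hW⟩ := ih
      obtain ⟨m, hm1, hm2, hK⟩ := kink_T (hconv k) (hmono k) (hc k) (hannon k) (hab k) hy
        (fun x y hxy hy' => hS k x y hxy (by linarith)) hst hW (hν k) hν0
      have hw := wseq_pos (hc (k + 1)) hS0 hδ
      have hw1 : wseq (c (k + 1)) S δ ≤ 1 := min_le_left _ _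
      have hw2 : wseq (c (k + 1)) S δ * (32 * (S + δ)) ≤ c (k + 1) * δ ^ 2 := by
        have h3 : wseq (c (k + 1)) S δ ≤ c (k + 1) * δ ^ 2 / (32 * (S + δ)) := min_le_right _ _
        rwa [le_div_iff₀ (by positivity)] at h3
      obtain ⟨w, hwdef⟩ : ∃ w : ℝ, w = wseq (c (k + 1)) S δ := ⟨_, rfl⟩
      rw [← hwdef] at hw hw1 hw2
      have hmlow : x₂ - 4 * S * (∑ j ∈ Finset.range (k + 1), c j) ≤ m := by
        rw [Finset.sum_range_succ]
        nlinarith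
      have hmlo : lo + 1 ≤ m := by
        linarith [hsumb (k + 1)]
      have hst' := steep_of_close (hconv (k + 1)) hK hw
        (hclose k m ⟨by linarith, by linarith⟩)
        (hclose k (m + w) ⟨by linarith, by linarith⟩)
        (hclose k (m - w) ⟨by linarith, by linarith⟩)
      rw [hwdef, heta k, ← hwdef, ← has, ← hbs] at hst'
      refine ⟨m - w, m + w, by linarith, by linarith, by linarith, by linarith, hst', ?_⟩
      have h1 := hD1 (k + 1)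
      have h2 := hD2 (k + 1)
      have hck := hc (k + 1)
      have e1 : (m + w - (m - w)) * (4 * (S + (b (k + 1) - a (k + 1)))) ≤ 8 * w * (S + δ) := by
        nlinarith
      have e2 : c (k + 1) * (δ / 2) ^ 2 ≤ c (k + 1) * (b (k + 1) - a (k + 1)) ^ 2 := by
        apply mul_le_mul_of_nonneg_left _ hck.le
        apply pow_le_pow_left₀ (by linarith) h1
      nlinarith
  have hm : ∀ k, ∃ m, m ∈ Icc (x₂ - 4 * S * Csum) x₁ ∧
      Kink (T (c k) ν₀ (P k)) m (s₁ + δ / 4) (s₂ - δ / 4) := by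
    intro k
    obtain ⟨y₁, y₂, hy, hy1, hy2, hy3, hst, hW⟩ := key k
    obtain ⟨m, hm1, hm2, hK⟩ := kink_T (hconv k) (hmono k) (hc k) (hannon k) (hab k) hy
      (fun x y hxy hy' => hS k x y hxy (by linarith)) hst hW (hν k) hν0
    have hmlow : x₂ - 4 * S * (∑ j ∈ Finset.range (k + 1), c j) ≤ m := by
      rw [Finset.sum_range_succ]
      nlinarith
    refine ⟨m, ⟨by linarith [hsumb (k + 1)], by linarith⟩, hK.mono (haup k) (hblo k)⟩
  choose m hmI hmK using hm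
  have hcl : ∀ k, ∀ μ ∈ Icc (x₂ - 4 * S * Csum - 1) (x₁ + 1),
      |Pinf μ - (fun k => T (c k) ν₀ (P k)) k μ| ≤
        (fun k => ζ (k + 1) + etaseq (c (k + 1)) S δ k) k := by
    intro k μ hμ
    have hμ' : μ ∈ Icc lo hi := ⟨by linarith [hμ.1], by linarith [hμ.2]⟩
    have h1 := hinf (k + 1) μ hμ'
    have h2 := hclose k μ hμ'
    have h3 : Pinf μ - T (c k) ν₀ (P k) μ
        = (Pinf μ - P (k + 1) μ) + (P (k + 1) μ - T (c k) ν₀ (P k) μ) := by ring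
    show |Pinf μ - T (c k) ν₀ (P k) μ| ≤ ζ (k + 1) + etaseq (c (k + 1)) S δ k
    rw [h3]
    exact (abs_add_le _ _).trans (add_le_add h1 h2)
  have hlim : Tendsto (fun k => ζ (k + 1) + etaseq (c (k + 1)) S δ k) atTop (𝓝 0) := by
    have h1 : Tendsto (fun k => ζ (k + 1)) atTop (𝓝 0) := (tendsto_add_atTop_iff_nat 1).2 hζ
    have h2 : Tendsto (fun k => etaseq (c (k + 1)) S δ k) atTop (𝓝 0) := by
      have h3 : Tendsto (fun k : ℕ => δ / 16 * (1 / 2 : ℝ) ^ k) atTop (𝓝 0) := by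
        have := (tendsto_pow_atTop_nhds_zero_of_lt_one (by norm_num : (0 : ℝ) ≤ 1 / 2)
          (by norm_num : (1 / 2 : ℝ) < 1)).const_mul (δ / 16)
        simpa using this
      refine squeeze_zero (fun k => (etaseq_pos (hc (k + 1)) hS0 hδ k).le) (fun k => ?_) h3
      have hw := wseq_pos (hc (k + 1)) hS0 hδ
      have hw1 : wseq (c (k + 1)) S δ ≤ 1 := min_le_left _ _
      unfold etaseq
      rw [pow_add, one_div, inv_pow, div_le_iff₀ (by positivity)]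
      have hpk : (0 : ℝ) < 2 ^ k := by positivity
      have e : δ / 16 * (2 ^ k : ℝ)⁻¹ * (2 ^ k * 2 ^ 4) = δ := by
        field_simp
        norm_num
      rw [e]
      nlinarith
    simpa using h1.add h2
  obtain ⟨μ, hμ, hloc⟩ := exists_kink_of_tendsto hconvInf hmI hmK hcl hlim
  refine ⟨μ, ⟨by linarith [hμ.1], by linarith [hμ.2]⟩,
    not_differentiableAt_of_local_kink (by linarith) hloc⟩

end Vale.Agent.Lib.P171
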