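import Vale.Agent.Lib.P171.LensUpper

/-!
# P171, layer 5: the multi-scale attraction
-/

namespace Vale.Agent.Lib.P171

open MeasureTheory Set Filter Topology
open scoped ENNReal

/-- strengths of the Kac levels -/
noncomputable def cs (k : ℕ) : ℝ := 210000 / 4 ^ k

/-- the first `n` levels -/
noncomputable def Aseq (R : ℕ → ℝ) (n : ℕ) (x y : E) : ℝ :=
  ∑ j ∈ Finset.range n, kac (cs j) (R j) x y

/-- the levels from `n` on -/
noncomputable def Atail (R : ℕ → ℝ) (n : ℕ) (x y : E) : ℝ :=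
  ∑' j : ℕ, kac (cs (n + j)) (R (n + j)) x y

theorem cs_pos (k : ℕ) : 0 < cs k := by
  unfold cs
  positivity

theorem cs_le (k : ℕ) : cs k ≤ 210000 := by
  unfold cs
  exact div_le_self (by norm_num) (one_le_pow₀ (by norm_num))

theorem cs_zero : cs 0 = 210000 := by
  simp [cs]

theorem sum_cs_eq (n : ℕ) : ∑ k ∈ Finset.range n, cs k = 280000 - 280000 / 4 ^ n := by
  induction n with
  | zero => simp
  | succ n ih =>
    rw [Finset.sum_range_succ, ih]
    unfold cs
    rw [pow_succ]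
    field_simp
    ring

theorem sum_cs_le (n : ℕ) : ∑ k ∈ Finset.range n, cs k ≤ 280000 := by
  rw [sum_cs_eq]
  have : (0 : ℝ) ≤ 280000 / 4 ^ n := by positivity
  linarith

theorem hasSum_cs_tail (n : ℕ) : HasSum (fun j : ℕ => cs (n + j)) (280000 / 4 ^ n) := by
  have h := (hasSum_geometric_of_lt_one (by norm_num : (0 : ℝ) ≤ 1 / 4)
    (by norm_num : (1 / 4 : ℝ) < 1)).mul_left (210000 / 4 ^ n)
  have e1 : (fun j : ℕ => 210000 / 4 ^ n * (1 / 4 : ℝ) ^ j) = fun j : ℕ => cs (n + j) := by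
    funext j
    unfold cs
    rw [pow_add, one_div, inv_pow]
    field_simp
  have e2 : (210000 / 4 ^ n * (1 - 1 / 4 : ℝ)⁻¹) = 280000 / 4 ^ n := by
    field_simp
    norm_num
  rw [e1, e2] at h
  exact h

theorem Aseq_zero (R : ℕ → ℝ) : Aseq R 0 = fun _ _ => 0 := by
  funext x y
  simp [Aseq]

theorem Aseq_succ (R : ℕ → ℝ) (n : ℕ) :
    Aseq R (n + 1) = fun x y => Aseq R n x y + kac (cs n) (R n) x y := by
  funext x y
  unfold Aseq
  rw [Finset.sum_range_succ]

/-- `Aseq R n` only depends on the first `n` radii -/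
theorem Aseq_congr {R R' : ℕ → ℝ} {n : ℕ} (h : ∀ j < n, R j = R' j) : Aseq R n = Aseq R' n := by
  funext x y
  unfold Aseq
  refine Finset.sum_congr rfl fun j hj => ?_
  rw [h j (Finset.mem_range.1 hj)]

theorem isAttr_Aseq {R : ℕ → ℝ} (hR : ∀ j, 8 ≤ R j) (n : ℕ) :
    IsAttr (Aseq R n) (16 * ∑ j ∈ Finset.range n, cs j) := by
  induction n with
  | zero =>
    rw [Aseq_zero, Finset.sum_range_zero, mul_zero]
    exact isAttr_zero
  | succ n ih =>
    rw [Aseq_succ, Finset.sum_range_succ, mul_add]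
    exact ih.add (isAttr_kac (cs_pos n).le (hR n))

theorem hasRange_Aseq (R : ℕ → ℝ) (n : ℕ) : ∃ h : ℝ, 0 < h ∧ HasRange (Aseq R n) h := by
  refine ⟨1 + ∑ j ∈ Finset.range n, |2 * R j|, ?_, ?_⟩
  · have : 0 ≤ ∑ j ∈ Finset.range n, |2 * R j| := Finset.sum_nonneg fun j _ => abs_nonneg _
    linarith
  · intro x y hxy
    unfold Aseq
    refine Finset.sum_eq_zero fun j hj => ?_
    apply hasRange_kac
    have h1 : |2 * R j| ≤ ∑ j ∈ Finset.range n, |2 * R j| :=
      Finset.single_le_sum (f := fun j => |2 * R j|) (fun i _ => abs_nonneg _) hj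
    have h2 := le_abs_self (2 * R j)
    linarith

theorem kac_cs_le {R : ℕ → ℝ} (hR : ∀ j, 8 ≤ R j) (j : ℕ) (x y : E) :
    kac (cs j) (R j) x y ≤ 2 * cs j / vB 1 := by
  have hRj := hR j
  have hR0 : 0 < R j := by linarith
  refine le_trans (kac_le (cs_pos j).le hR0 x y) ?_
  have hv : 0 < vB 1 := vB_pos one_pos
  have h1 : vB 1 ≤ vB (R j) := by
    rw [vB_eq hR0.le]
    have : (1 : ℝ) ≤ R j ^ 3 := one_le_pow₀ (by linarith)
    nlinarith
  have := cs_pos j
  exact div_le_div_of_nonneg_left (by positivity) hv h1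

/-- (`kac_le`, `vB_eq`: `kac (cs j) (R j) x y ≤ 2 cs j / vB 1`) -/
theorem summable_kac {R : ℕ → ℝ} (hR : ∀ j, 8 ≤ R j) (n : ℕ) (x y : E) :
    Summable fun j : ℕ => kac (cs (n + j)) (R (n + j)) x y := by
  refine Summable.of_nonneg_of_le (fun j => kac_nonneg (cs_pos _).le _ x y)
    (fun j => kac_cs_le hR (n + j) x y) ?_
  exact ((hasSum_cs_tail n).summable.mul_left 2).div_const (vB 1)

/-- (measurability: pointwise limit of the measurable finite sums; the bound: write `X = ms x`, exchange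
the finite sums with the series, `isAttr_kac` for each term, `hasSum_cs_tail`) -/
theorem isAttr_Atail {R : ℕ → ℝ} (hR : ∀ j, 8 ≤ R j) (n : ℕ) :
    IsAttr (Atail R n) (16 * (280000 / 4 ^ n)) where
  nonneg := fun x y => tsum_nonneg fun j => kac_nonneg (cs_pos _).le _ x y
  symm := fun x y => by
    unfold Atail
    exact tsum_congr fun j => kac_symm _ _ x y
  meas := by
    have h : Function.uncurry (Atail R n)
        = fun p : E × E => ∑' j : ℕ, Function.uncurry (kac (cs (n + j)) (R (n + j))) p := by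
      funext p
      rfl
    rw [h]
    exact Measurable.tsum fun j => measurable_kac _ _
  transl := fun v x y => by
    unfold Atail
    exact tsum_congr fun j => kac_transl _ _ v x y
  bound := by
    intro X
    obtain ⟨x, hx⟩ := exists_ms X
    rw [← hx, dsum_ms]
    have h1 : HasSum (fun l : ℕ => ∑ i, ∑ j, kac (cs (n + l)) (R (n + l)) (x i) (x j))
        (∑ i, ∑ j, Atail R n (x i) (x j)) :=
      hasSum_sum fun i _ => hasSum_sum fun j _ => (summable_kac hR n (x i) (x j)).hasSum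
    have h2 : HasSum (fun l : ℕ => 2 * (16 * cs (n + l)) * SC (ms x))
        (2 * (16 * (280000 / 4 ^ n)) * SC (ms x)) :=
      (((hasSum_cs_tail n).mul_left 16).mul_left 2).mul_right _
    refine hasSum_le (fun l => ?_) h1 h2
    rw [← dsum_ms]
    exact (isAttr_kac (cs_pos _).le (hR _)).bound (ms x)

theorem Atail_zero_eq {R : ℕ → ℝ} (hR : ∀ j, 8 ≤ R j) (n : ℕ) :
    Atail R 0 = fun x y => Aseq R n x y + Atail R n x y := by
  funext x y
  have hs := summable_kac hR 0 x y
  simp only [zero_add] at hs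
  have h := hs.sum_add_tsum_nat_add n
  unfold Atail Aseq
  simp only [zero_add]
  rw [← h]
  congr 1
  refine tsum_congr fun j => ?_
  rw [add_comm j n]

/-- uniform bound -/
theorem Atail_le {R : ℕ → ℝ} (hR : ∀ j, 8 ≤ R j) (x y : E) :
    Atail R 0 x y ≤ 560000 / vB 1 := by
  have h1 := (summable_kac hR 0 x y).hasSum
  have h2 : HasSum (fun j : ℕ => 2 * cs (0 + j) / vB 1) (2 * (280000 / 4 ^ 0) / vB 1) :=
    ((hasSum_cs_tail 0).mul_left 2).div_const (vB 1)
  have h3 := hasSum_le (fun j => kac_cs_le hR (0 + j) x y) h1 h2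
  have e : (2 * (280000 / 4 ^ 0) / vB 1 : ℝ) = 560000 / vB 1 := by norm_num
  rw [e] at h3
  exact h3

end Vale.Agent.Lib.P171
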