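import Mathlib

/-!
# P171, layer 4 (abstract convex analysis): sup-convolution with a parabola

`T c ν₀ g μ = sup_{0 ≤ ν ≤ ν₀} (g (μ + ν) - ν² / (4c))`.
-/

namespace Vale.Agent.Lib.P171

open Set Filter Topology

/-- sup-convolution of `g` with the parabola `-ν²/(4c)`, shifts restricted to `[0, ν₀]` -/
noncomputable def T (c ν₀ : ℝ) (g : ℝ → ℝ) (μ : ℝ) : ℝ :=
  sSup ((fun ν : ℝ => g (μ + ν) - ν ^ 2 / (4 * c)) '' Icc 0 ν₀)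

/-- slopes of `g` are at most `s₁` to the left of `x₁` and at least `s₂` to the right of `x₂` -/
def Steep (g : ℝ → ℝ) (x₁ x₂ s₁ s₂ : ℝ) : Prop :=
  (∀ x y, x ≤ y → y ≤ x₁ → g y - g x ≤ s₁ * (y - x)) ∧
  (∀ x y, x₂ ≤ x → x ≤ y → s₂ * (y - x) ≤ g y - g x)

/-- `G` has a corner at `m`: right slopes at least `s₂`, left slopes at most `s₁` -/
def Kink (G : ℝ → ℝ) (m s₁ s₂ : ℝ) : Prop :=
  ∀ h, 0 ≤ h → G m + s₂ * h ≤ G (m + h) ∧ G m - s₁ * h ≤ G (m - h)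

/-- a convex function on the line is continuous -/
theorem continuous_of_convexOn {g : ℝ → ℝ} (hg : ConvexOn ℝ univ g) : Continuous g := by
  rw [← continuousOn_univ]
  exact hg.continuousOn isOpen_univ

/-- the function whose supremum defines `T` is continuous -/
theorem continuous_shift {g : ℝ → ℝ} (hg : ConvexOn ℝ univ g) (c μ : ℝ) :
    Continuous (fun ν : ℝ => g (μ + ν) - ν ^ 2 / (4 * c)) := by
  have h := continuous_of_convexOn hg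
  fun_prop

theorem bddAbove_shift {g : ℝ → ℝ} (hg : ConvexOn ℝ univ g) (c ν₀ μ : ℝ) :
    BddAbove ((fun ν : ℝ => g (μ + ν) - ν ^ 2 / (4 * c)) '' Icc 0 ν₀) :=
  (isCompact_Icc.image (continuous_shift hg c μ)).bddAbove

/-- every admissible shift gives a lower bound -/
theorem le_T {g : ℝ → ℝ} (hg : ConvexOn ℝ univ g) {c ν₀ μ ν : ℝ} (h0 : 0 ≤ ν) (h1 : ν ≤ ν₀) :
    g (μ + ν) - ν ^ 2 / (4 * c) ≤ T c ν₀ g μ :=
  le_csSup (bddAbove_shift hg c ν₀ μ) ⟨ν, ⟨h0, h1⟩, rfl⟩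

/-- upper bounds for all shifts bound `T` -/
theorem T_le {g : ℝ → ℝ} {c ν₀ μ M : ℝ} (hν : 0 ≤ ν₀)
    (h : ∀ ν, 0 ≤ ν → ν ≤ ν₀ → g (μ + ν) - ν ^ 2 / (4 * c) ≤ M) : T c ν₀ g μ ≤ M := by
  apply csSup_le
  · exact ⟨_, ⟨0, ⟨le_refl 0, hν⟩, rfl⟩⟩
  · rintro _ ⟨ν, ⟨h0, h1⟩, rfl⟩
    exact h ν h0 h1

/-- the supremum is attained -/
theorem exists_T_eq {g : ℝ → ℝ} (hg : ConvexOn ℝ univ g) {c ν₀ : ℝ} (hν : 0 ≤ ν₀) (μ : ℝ) :
    ∃ ν, 0 ≤ ν ∧ ν ≤ ν₀ ∧ T c ν₀ g μ = g (μ + ν) - ν ^ 2 / (4 * c) := by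
  obtain ⟨ν, ⟨h0, h1⟩, hmax⟩ := isCompact_Icc.exists_isMaxOn (s := Icc (0 : ℝ) ν₀)
    ⟨0, ⟨le_refl 0, hν⟩⟩ (continuous_shift hg c μ).continuousOn
  refine ⟨ν, h0, h1, le_antisymm ?_ (le_T hg h0 h1)⟩
  apply T_le hν
  intro ν' h0' h1'
  exact hmax ⟨h0', h1'⟩

theorem convexOn_T {g : ℝ → ℝ} (hg : ConvexOn ℝ univ g) {c ν₀ : ℝ} (hν : 0 ≤ ν₀) :
    ConvexOn ℝ univ (T c ν₀ g) := by
  refine ⟨convex_univ, ?_⟩
  intro x _ y _ a b ha hb hab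
  obtain ⟨ν, h0, h1, hT⟩ := exists_T_eq hg (c := c) hν (a • x + b • y)
  rw [hT]
  have hx := le_T hg (c := c) (μ := x) h0 h1
  have hy := le_T hg (c := c) (μ := y) h0 h1
  have hconv := hg.2 (mem_univ (x + ν)) (mem_univ (y + ν)) ha hb hab
  have heq : a • x + b • y + ν = a • (x + ν) + b • (y + ν) := by
    simp only [smul_eq_mul]
    have : ν = (a + b) * ν := by rw [hab, one_mul]
    nlinarith [this]
  rw [heq]
  simp only [smul_eq_mul] at hconv ⊢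
  have h1' : a * (g (x + ν) - ν ^ 2 / (4 * c)) ≤ a * T c ν₀ g x :=
    mul_le_mul_of_nonneg_left hx ha
  have h2' : b * (g (y + ν) - ν ^ 2 / (4 * c)) ≤ b * T c ν₀ g y :=
    mul_le_mul_of_nonneg_left hy hb
  have h3 : ν ^ 2 / (4 * c) = (a + b) * (ν ^ 2 / (4 * c)) := by rw [hab, one_mul]
  nlinarith [h1', h2', hconv, h3]

end Vale.Agent.Lib.P171
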