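import Vale.Agent.Lib.P171.Asm1
import Vale.Agent.Lib.P171.SupConv

/-!
# P171, layer 5: inductive choice of the radii
-/

namespace Vale.Agent.Lib.P171

open MeasureTheory Set Filter Topology
open scoped ENNReal

/-- Dependent choice. Define `Rf : ℕ → (ℕ → ℝ)` by recursion: `Rf 0 = fun _ => 8`,
`Rf (n+1) = Function.update (Rf n) n (R₀ chosen by step n (Aseq (Rf n) n))`; all values are `≥ 8`, and
`Rf m j = Rf (j+1) j` for `m > j`. Put `R j = Rf (j+1) j`; then `Aseq R n = Aseq (Rf n) n`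
(`Aseq_congr`) and `Aseq_succ` gives the claim. -/
theorem exists_radii {a ν₀ lo hi : ℝ} {η : ℕ → ℝ}
    (step : ∀ (k : ℕ) (A : E → E → ℝ), IsAttr A (16 * ∑ j ∈ Finset.range k, cs j) →
      (∃ h : ℝ, 0 < h ∧ HasRange A h) →
      ∃ R₀ : ℝ, 8 ≤ R₀ ∧ ∀ R, R₀ ≤ R → ∀ μ ∈ Icc lo hi,
        |press (ker a (fun x y => A x y + kac (cs k) R x y)) μ
          - T (cs k) ν₀ (press (ker a A)) μ| ≤ η k) :
    ∃ R : ℕ → ℝ, (∀ j, 8 ≤ R j) ∧ ∀ k, ∀ μ ∈ Icc lo hi,
      |press (ker a (Aseq R (k + 1))) μ - T (cs k) ν₀ (press (ker a (Aseq R k))) μ| ≤ η k := by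
  classical
  -- the next radius
  let next : (ℕ → ℝ) → ℕ → ℝ := fun Rf n =>
    if h : ∀ j, 8 ≤ Rf j then
      Classical.choose (step n (Aseq Rf n) (isAttr_Aseq h n) (hasRange_Aseq Rf n))
    else 8
  have next_spec : ∀ (Rf : ℕ → ℝ) (n : ℕ), (∀ j, 8 ≤ Rf j) →
      8 ≤ next Rf n ∧ ∀ R, next Rf n ≤ R → ∀ μ ∈ Icc lo hi,
        |press (ker a (fun x y => Aseq Rf n x y + kac (cs n) R x y)) μ
          - T (cs n) ν₀ (press (ker a (Aseq Rf n))) μ| ≤ η n := by
    intro Rf n h
    have h1 : next Rf n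
        = Classical.choose (step n (Aseq Rf n) (isAttr_Aseq h n) (hasRange_Aseq Rf n)) :=
      dif_pos h
    rw [h1]
    exact Classical.choose_spec (step n (Aseq Rf n) (isAttr_Aseq h n) (hasRange_Aseq Rf n))
  let Rf : ℕ → (ℕ → ℝ) := fun n =>
    Nat.rec (fun _ => (8 : ℝ)) (fun n r => Function.update r n (next r n)) n
  have Rf_succ : ∀ n, Rf (n + 1) = Function.update (Rf n) n (next (Rf n) n) := fun n => rfl
  have Rf_ge : ∀ n j, 8 ≤ Rf n j := by
    intro n
    induction n with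
    | zero => intro j; exact le_refl _
    | succ n ih =>
      intro j
      rw [Rf_succ]
      by_cases hj : j = n
      · subst hj
        rw [Function.update_self]
        exact (next_spec (Rf j) j ih).1
      · rw [Function.update_of_ne hj]
        exact ih j
  have Rf_stab : ∀ j m, j + 1 ≤ m → Rf m j = Rf (j + 1) j := by
    intro j m hm
    induction m, hm using Nat.le_induction with
    | base => rfl
    | succ m hm ih =>
      rw [Rf_succ, Function.update_of_ne (by omega), ih]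
  refine ⟨fun j => Rf (j + 1) j, fun j => Rf_ge (j + 1) j, ?_⟩
  intro k μ hμ
  have hA : Aseq (fun j => Rf (j + 1) j) k = Aseq (Rf k) k :=
    Aseq_congr (fun j hj => (Rf_stab j k hj).symm)
  have hR : Rf (k + 1) k = next (Rf k) k := by
    rw [Rf_succ, Function.update_self]
  rw [Aseq_succ, hA]
  have := (next_spec (Rf k) k (Rf_ge k)).2 (Rf (k + 1) k) (le_of_eq hR.symm) μ hμ
  exact this

end Vale.Agent.Lib.P171
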