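import Vale.Agent.Lib.P171.CfgUnion

/-!
# P171, layer 0: sub- and super-multiplicativity over disjoint regions
-/

namespace Vale.Agent.Lib.P171

open MeasureTheory Set
open scoped ENNReal

theorem Xi_prod_eq (D₁ D₂ : Set E) {w₁ w₂ : Multiset E → ℝ≥0∞} (hw₁ : MeasW w₁)
    (hw₂ : MeasW w₂) :
    Xi D₁ (fun X => Xi D₂ (fun Y => w₁ X * w₂ Y)) = Xi D₁ w₁ * Xi D₂ w₂ := by
  have h1 : (fun X => Xi D₂ (fun Y => w₁ X * w₂ Y)) = fun X => w₁ X * Xi D₂ w₂ := by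
    funext X
    exact Xi_const_mul D₂ (w₁ X) hw₂
  rw [h1]
  exact Xi_mul_const D₁ (Xi D₂ w₂) hw₁

theorem Xi_union_le {D₁ D₂ : Set E} (h₁ : MeasurableSet D₁) (h₂ : MeasurableSet D₂)
    (hd : Disjoint D₁ D₂) {w w₁ w₂ : Multiset E → ℝ≥0∞} (hw : MeasW w) (hw₁ : MeasW w₁)
    (hw₂ : MeasW w₂) (h : ∀ X Y, Sub X D₁ → Sub Y D₂ → w (X + Y) ≤ w₁ X * w₂ Y) :
    Xi (D₁ ∪ D₂) w ≤ Xi D₁ w₁ * Xi D₂ w₂ := by
  rw [Xi_union h₁ h₂ hd hw, ← Xi_prod_eq D₁ D₂ hw₁ hw₂]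
  exact Xi_mono_on h₁ fun X hX => Xi_mono_on h₂ fun Y hY => h X Y hX hY

theorem Xi_union_ge {D₁ D₂ : Set E} (h₁ : MeasurableSet D₁) (h₂ : MeasurableSet D₂)
    (hd : Disjoint D₁ D₂) {w w₁ w₂ : Multiset E → ℝ≥0∞} (hw : MeasW w) (hw₁ : MeasW w₁)
    (hw₂ : MeasW w₂) (h : ∀ X Y, Sub X D₁ → Sub Y D₂ → w₁ X * w₂ Y ≤ w (X + Y)) :
    Xi D₁ w₁ * Xi D₂ w₂ ≤ Xi (D₁ ∪ D₂) w := by
  rw [Xi_union h₁ h₂ hd hw, ← Xi_prod_eq D₁ D₂ hw₁ hw₂]
  exact Xi_mono_on h₁ fun X hX => Xi_mono_on h₂ fun Y hY => h X Y hX hY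

lemma sub_mono {X : Multiset E} {D D' : Set E} (h : D ⊆ D') (hX : Sub X D) : Sub X D' :=
  fun x hx => h (hX x hx)

lemma biUnion_erase_subset {ι : Type} [DecidableEq ι] (s : Finset ι) (D : ι → Set E) (a i : ι)
    (_hia : i ≠ a) : (⋃ j ∈ s.erase i, D j) ⊆ ⋃ j ∈ (insert a s).erase i, D j := by
  intro x hx
  simp only [mem_iUnion, Finset.mem_erase, Finset.mem_insert] at hx ⊢
  obtain ⟨j, ⟨hj1, hj2⟩, hxj⟩ := hx
  exact ⟨j, ⟨hj1, Or.inr hj2⟩, hxj⟩

lemma disjoint_biUnion_of_pairwise {ι : Type} [DecidableEq ι] (s : Finset ι) (D : ι → Set E)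
    (a : ι) (ha : a ∉ s) (hdisj : ((insert a s : Finset ι) : Set ι).PairwiseDisjoint D) :
    Disjoint (D a) (⋃ j ∈ s, D j) := by
  rw [Set.disjoint_iUnion₂_right]
  intro j hj
  apply hdisj
  · simp
  · simp [hj]
  · intro h
    exact ha (h ▸ hj)

/-- (induction on the finite set) -/
theorem Xi_biUnion_le {ι : Type} [DecidableEq ι] (s : Finset ι) (D : ι → Set E)
    (hD : ∀ i ∈ s, MeasurableSet (D i)) (hdisj : (s : Set ι).PairwiseDisjoint D)
    {w : Multiset E → ℝ≥0∞} (hw : MeasW w) (hw0 : w 0 = 1)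
    (h : ∀ i ∈ s, ∀ X Y, Sub X (D i) → Sub Y (⋃ j ∈ s.erase i, D j) → w (X + Y) ≤ w X * w Y) :
    Xi (⋃ i ∈ s, D i) w ≤ ∏ i ∈ s, Xi (D i) w := by
  induction s using Finset.induction_on with
  | empty => simp [Xi_empty, hw0]
  | insert a s ha ih =>
    rw [Finset.set_biUnion_insert, Finset.prod_insert ha]
    have hDs : ∀ i ∈ s, MeasurableSet (D i) := fun i hi => hD i (Finset.mem_insert_of_mem hi)
    have hU : MeasurableSet (⋃ j ∈ s, D j) := Finset.measurableSet_biUnion s hDs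
    have hdis := disjoint_biUnion_of_pairwise s D a ha hdisj
    have hdisj' : (s : Set ι).PairwiseDisjoint D :=
      hdisj.subset (by intro x hx; simp only [Finset.coe_insert]; exact Or.inr hx)
    have ih' := ih hDs hdisj' (fun i hi X Y hX hY =>
      h i (Finset.mem_insert_of_mem hi) X Y hX
        (sub_mono (biUnion_erase_subset s D a i (fun e => ha (e ▸ hi))) hY))
    have h1 := Xi_union_le (hD a (Finset.mem_insert_self a s)) hU hdis hw hw hw
      (fun X Y hX hY => h a (Finset.mem_insert_self a s) X Y hX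
        (by rw [Finset.erase_insert ha]; exact hY))
    exact h1.trans (by gcongr)

theorem Xi_biUnion_ge {ι : Type} [DecidableEq ι] (s : Finset ι) (D : ι → Set E)
    (hD : ∀ i ∈ s, MeasurableSet (D i)) (hdisj : (s : Set ι).PairwiseDisjoint D)
    {w : Multiset E → ℝ≥0∞} (hw : MeasW w) (hw0 : w 0 = 1)
    (h : ∀ i ∈ s, ∀ X Y, Sub X (D i) → Sub Y (⋃ j ∈ s.erase i, D j) → w X * w Y ≤ w (X + Y)) :
    ∏ i ∈ s, Xi (D i) w ≤ Xi (⋃ i ∈ s, D i) w := by
  induction s using Finset.induction_on with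
  | empty => simp [Xi_empty, hw0]
  | insert a s ha ih =>
    rw [Finset.set_biUnion_insert, Finset.prod_insert ha]
    have hDs : ∀ i ∈ s, MeasurableSet (D i) := fun i hi => hD i (Finset.mem_insert_of_mem hi)
    have hU : MeasurableSet (⋃ j ∈ s, D j) := Finset.measurableSet_biUnion s hDs
    have hdis := disjoint_biUnion_of_pairwise s D a ha hdisj
    have hdisj' : (s : Set ι).PairwiseDisjoint D :=
      hdisj.subset (by intro x hx; simp only [Finset.coe_insert]; exact Or.inr hx)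
    have ih' := ih hDs hdisj' (fun i hi X Y hX hY =>
      h i (Finset.mem_insert_of_mem hi) X Y hX
        (sub_mono (biUnion_erase_subset s D a i (fun e => ha (e ▸ hi))) hY))
    have h1 := Xi_union_ge (hD a (Finset.mem_insert_self a s)) hU hdis hw hw hw
      (fun X Y hX hY => h a (Finset.mem_insert_self a s) X Y hX
        (by rw [Finset.erase_insert ha]; exact hY))
    exact le_trans (by gcongr) h1

end Vale.Agent.Lib.P171
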