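import Vale.Agent.Lib.P171.CfgBasic

/-!
# P171, layer 0: translation invariance
-/

namespace Vale.Agent.Lib.P171

open MeasureTheory Set
open scoped ENNReal

/-- (induction on `N`; `(measurePreserving_add_right volume v).setLIntegral_comp_emb`) -/
theorem cint_translate (v : E) (D : Set E) (N : ℕ) (w : Multiset E → ℝ≥0∞) :
    cint ((fun x => x + v) '' D) N w = cint D N (fun X => w (X.map fun x => x + v)) := by
  induction N generalizing w with
  | zero => simp [cint_zero]
  | succ N ih =>
    rw [cint_succ, cint_succ]
    simp only [ih]
    rw [← (measurePreserving_add_right (volume : Measure E) v).setLIntegral_comp_emb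
      (measurableEmbedding_addRight v)]
    simp only [Multiset.map_cons]

theorem Xi_translate (v : E) (D : Set E) {w : Multiset E → ℝ≥0∞}
    (hw : ∀ X : Multiset E, w (X.map fun x => x + v) = w X) :
    Xi ((fun x => x + v) '' D) w = Xi D w := by
  unfold Xi
  simp only [cint_translate, hw]

end Vale.Agent.Lib.P171
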