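import Vale.Agent.Lib.P171.Thermo1
import Vale.Agent.Lib.P171.CfgProd
import Vale.Agent.Lib.P171.CfgTrans

/-!
# P171, layer 2: a kernel that only acts inside the cells of a grid factorises
-/

namespace Vale.Agent.Lib.P171

open MeasureTheory Set
open scoped ENNReal

/-- the weight of `k * same` over one cell is bounded by the weight of `k` over the cube -/
theorem Xi_cell_same_le {k : E → E → ℝ}
    (hkt : ∀ v x y, k (x + v) (y + v) = k x y) {ℓ : ℝ} (hℓ : 0 < ℓ) (σ μ : ℝ)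
    (n : Fin 3 → ℤ) :
    Xi (cell ℓ σ n) (Wt (fun x y => k x y * same ℓ σ x y) μ) ≤ Xi (box ℓ) (Wt k μ) := by
  have h1 : Xi (cell ℓ σ n) (Wt (fun x y => k x y * same ℓ σ x y) μ)
      = Xi (cell ℓ σ n) (Wt k μ) := by
    refine Xi_congr_on (measurableSet_cell ℓ σ n) fun X hX => ?_
    unfold Wt
    rw [En_congr (k := fun x y => k x y * same ℓ σ x y) (k' := k)]
    intro x hx y hy
    rw [same_eq_one_of_mem (hX x hx) (hX y hy), mul_one]
  rw [h1]
  refine (Xi_mono_set (cell_subset hℓ σ n) _).trans ?_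
  rw [Xi_translate _ _ fun X => Wt_map_add hkt μ _ X]

/-- `box L ⊆ ⋃_{n ∈ idxSet} cell n` (`box_subset_cells`, `Xi_mono_set`); the weight of the kernel
`k * same` is multiplicative over different cells (`same_eq_zero_of_mem`, `Wt_add_eq`,
`Xi_biUnion_le`); inside one cell it is the weight of `k` (`same_eq_one_of_mem`, `En_congr`,
`Xi_congr_on`); a cell lies in a translate of `box ℓ` (`cell_subset`, `Xi_mono_set`,
`Xi_translate`, `Wt_map_add`); finally `card_idxSet_le` and `one_le_Xi`. -/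
theorem Xi_box_same_le {k : E → E → ℝ} (hk : Measurable (Function.uncurry k))
    (hkt : ∀ v x y, k (x + v) (y + v) = k x y) {ℓ : ℝ} (hℓ : 0 < ℓ) (σ μ : ℝ) {L : ℝ}
    (hL : 0 ≤ L) :
    Xi (box L) (Wt (fun x y => k x y * same ℓ σ x y) μ)
      ≤ Xi (box ℓ) (Wt k μ) ^ ((⌊L / ℓ⌋₊ + 2) ^ 3) := by
  classical
  have hm : Measurable (Function.uncurry fun x y => k x y * same ℓ σ x y) :=
    hk.mul (measurable_same ℓ σ)
  have h1 := Xi_mono_set (box_subset_cells hℓ σ L) (Wt (fun x y => k x y * same ℓ σ x y) μ)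
  have h2 : Xi (⋃ n ∈ idxSet ℓ σ L, cell ℓ σ n) (Wt (fun x y => k x y * same ℓ σ x y) μ)
      ≤ ∏ n ∈ idxSet ℓ σ L, Xi (cell ℓ σ n) (Wt (fun x y => k x y * same ℓ σ x y) μ) := by
    refine Xi_biUnion_le (idxSet ℓ σ L) (cell ℓ σ) (fun n _ => measurableSet_cell ℓ σ n)
      (fun n _ n' _ hne => cell_disjoint ℓ σ hne) (measW_Wt hm μ) (Wt_zero _ _) ?_
    intro n _ X Y hX hY
    refine (Wt_add_eq fun x hx y hy => ?_).le
    have hy' := hY y hy
    simp only [mem_iUnion, Finset.mem_erase] at hy'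
    obtain ⟨n', ⟨hne, _⟩, hyn⟩ := hy'
    constructor
    · rw [same_eq_zero_of_mem (Ne.symm hne) (hX x hx) hyn, mul_zero]
    · rw [same_eq_zero_of_mem hne hyn (hX x hx), mul_zero]
  have h3 : ∏ n ∈ idxSet ℓ σ L, Xi (cell ℓ σ n) (Wt (fun x y => k x y * same ℓ σ x y) μ)
      ≤ ∏ _n ∈ idxSet ℓ σ L, Xi (box ℓ) (Wt k μ) :=
    Finset.prod_le_prod' fun n _ => Xi_cell_same_le hkt hℓ σ μ n
  rw [Finset.prod_const] at h3
  exact h1.trans (h2.trans (h3.trans
    (pow_le_pow_right₀ (one_le_Xi _ _ _) (card_idxSet_le hℓ σ hL))))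

end Vale.Agent.Lib.P171
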