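import Vale.Agent.Lib.P171.Defs

/-!
# P171, layer 1: cubes, cells and balls
-/

namespace Vale.Agent.Lib.P171

open MeasureTheory Set
open scoped ENNReal

/-- the point with given coordinates -/
noncomputable def vec (f : Fin 3 → ℝ) : E := WithLp.toLp 2 f

@[simp] theorem vec_apply (f : Fin 3 → ℝ) (i : Fin 3) : vec f i = f i := rfl

theorem abs_coord_le_norm (x : E) (i : Fin 3) : |x i| ≤ ‖x‖ := by
  have := PiLp.norm_apply_le x i
  rwa [Real.norm_eq_abs] at this

/-- if all coordinates are bounded by `t` then the norm is at most `√3 t` -/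
theorem norm_le_of_coord {x : E} {t : ℝ} (h : ∀ i, |x i| ≤ t) : ‖x‖ ≤ Real.sqrt 3 * t := by
  have ht : 0 ≤ t := (abs_nonneg _).trans (h 0)
  rw [EuclideanSpace.norm_eq]
  have h1 : ∑ i, ‖x i‖ ^ 2 ≤ 3 * t ^ 2 := by
    have : ∀ i ∈ (Finset.univ : Finset (Fin 3)), ‖x i‖ ^ 2 ≤ t ^ 2 := by
      intro i _
      rw [Real.norm_eq_abs]
      exact pow_le_pow_left₀ (abs_nonneg _) (h i) 2
    have := Finset.sum_le_sum this
    simpa using this
  calc Real.sqrt (∑ i, ‖x i‖ ^ 2) ≤ Real.sqrt (3 * t ^ 2) := Real.sqrt_le_sqrt h1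
    _ = Real.sqrt 3 * t := by
      rw [Real.sqrt_mul (by norm_num), Real.sqrt_sq ht]

theorem measurable_coord (i : Fin 3) : Measurable fun x : E => x i := by
  fun_prop

theorem measurableSet_box (L : ℝ) : MeasurableSet (box L) := by
  unfold box
  rw [Set.ofPred_forall]
  refine MeasurableSet.iInter fun i => ?_
  exact (measurableSet_le measurable_const (measurable_coord i)).inter
    (measurableSet_le (measurable_coord i) measurable_const)

/-- (`EuclideanSpace.volume_preserving_symm_measurableEquiv_toLp`, `Real.volume_Icc_pi`) -/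
theorem volume_box {L : ℝ} (hL : 0 ≤ L) : volume (box L) = ENNReal.ofReal (L ^ 3) := by
  have hmp := EuclideanSpace.volume_preserving_symm_measurableEquiv_toLp (Fin 3)
  have hpre : box L = (MeasurableEquiv.toLp 2 (Fin 3 → ℝ)).symm ⁻¹'
      (Icc (fun _ => 0) (fun _ => L)) := by
    ext x
    simp only [box, Set.mem_ofPred_eq, mem_preimage, mem_Icc, Pi.le_def]
    constructor
    · intro h
      exact ⟨fun i => (h i).1, fun i => (h i).2⟩
    · intro h i
      exact ⟨h.1 i, h.2 i⟩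
  rw [hpre, hmp.measure_preimage measurableSet_Icc.nullMeasurableSet, Real.volume_Icc_pi]
  simp [ENNReal.ofReal_pow hL]

theorem box_mono {L L' : ℝ} (h : L ≤ L') : box L ⊆ box L' := by
  intro x hx i
  exact ⟨(hx i).1, (hx i).2.trans h⟩

theorem measurable_cellIdx (ℓ σ : ℝ) : Measurable (cellIdx ℓ σ) := by
  unfold cellIdx
  rw [measurable_pi_iff]
  intro i
  exact Int.measurable_floor.comp (((measurable_coord i).sub_const σ).div_const ℓ)

theorem measurableSet_cell (ℓ σ : ℝ) (n : Fin 3 → ℤ) : MeasurableSet (cell ℓ σ n) :=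
  measurable_cellIdx ℓ σ (measurableSet_singleton n)

theorem measurable_same (ℓ σ : ℝ) : Measurable (Function.uncurry (same ℓ σ)) := by
  unfold Function.uncurry same
  refine Measurable.ite ?_ measurable_const measurable_const
  exact measurableSet_eq_fun ((measurable_cellIdx ℓ σ).comp measurable_fst)
    ((measurable_cellIdx ℓ σ).comp measurable_snd)

theorem measurable_rep : Measurable (Function.uncurry rep) := by
  unfold Function.uncurry rep
  refine Measurable.ite ?_ measurable_const measurable_const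
  exact measurableSet_lt (measurable_fst.sub measurable_snd).norm measurable_const

theorem cell_disjoint (ℓ σ : ℝ) {n n' : Fin 3 → ℤ} (h : n ≠ n') :
    Disjoint (cell ℓ σ n) (cell ℓ σ n') := by
  rw [Set.disjoint_left]
  intro x hx hx'
  exact h (hx.symm.trans hx')

theorem mem_cell_iff {ℓ : ℝ} (hℓ : 0 < ℓ) (σ : ℝ) (n : Fin 3 → ℤ) (x : E) :
    x ∈ cell ℓ σ n ↔ ∀ i, σ + n i * ℓ ≤ x i ∧ x i < σ + (n i + 1) * ℓ := by
  unfold cell cellIdx
  rw [Set.mem_ofPred_eq, funext_iff]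
  refine forall_congr' fun i => ?_
  rw [Int.floor_eq_iff, le_div_iff₀ hℓ, div_lt_iff₀ hℓ]
  constructor
  · rintro ⟨a, b⟩
    constructor <;> linarith
  · rintro ⟨a, b⟩
    constructor <;> linarith

/-- a cell is contained in a translate of the closed cube of the same side -/
theorem cell_subset {ℓ : ℝ} (hℓ : 0 < ℓ) (σ : ℝ) (n : Fin 3 → ℤ) :
    cell ℓ σ n ⊆ (fun x => x + vec (fun i => σ + n i * ℓ)) '' box ℓ := by
  intro x hx
  rw [mem_cell_iff hℓ] at hx
  refine ⟨x - vec (fun i => σ + n i * ℓ), ?_, by simp⟩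
  intro i
  have := hx i
  simp only [PiLp.sub_apply, vec_apply]
  constructor <;> linarith [this.1, this.2]

theorem volume_cell {ℓ : ℝ} (hℓ : 0 < ℓ) (σ : ℝ) (n : Fin 3 → ℤ) :
    volume (cell ℓ σ n) = ENNReal.ofReal (ℓ ^ 3) := by
  have hmp := EuclideanSpace.volume_preserving_symm_measurableEquiv_toLp (Fin 3)
  have hpre : cell ℓ σ n = (MeasurableEquiv.toLp 2 (Fin 3 → ℝ)).symm ⁻¹'
      (Set.pi univ fun i => Ico (σ + n i * ℓ) (σ + (n i + 1) * ℓ)) := by
    ext x
    rw [mem_cell_iff hℓ]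
    simp only [mem_preimage, mem_pi, mem_univ, forall_true_left, mem_Ico]
    rfl
  rw [hpre, hmp.measure_preimage
    (MeasurableSet.univ_pi fun i => measurableSet_Ico).nullMeasurableSet, Real.volume_pi_Ico]
  have : ∀ i : Fin 3, σ + ((n i : ℝ) + 1) * ℓ - (σ + n i * ℓ) = ℓ := fun i => by ring
  simp [this, ENNReal.ofReal_pow hℓ.le]

/-- indices of the cells that can meet the cube of side `L` -/
noncomputable def idxSet (ℓ σ L : ℝ) : Finset (Fin 3 → ℤ) :=
  Fintype.piFinset fun _ => Finset.Icc ⌊(0 - σ) / ℓ⌋ ⌊(L - σ) / ℓ⌋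

theorem box_subset_cells {ℓ : ℝ} (hℓ : 0 < ℓ) (σ L : ℝ) :
    box L ⊆ ⋃ n ∈ idxSet ℓ σ L, cell ℓ σ n := by
  intro x hx
  simp only [mem_iUnion, exists_prop]
  refine ⟨cellIdx ℓ σ x, ?_, rfl⟩
  unfold idxSet
  rw [Fintype.mem_piFinset]
  intro i
  rw [Finset.mem_Icc]
  unfold cellIdx
  constructor
  · apply Int.floor_le_floor
    have := (hx i).1
    gcongr
  · apply Int.floor_le_floor
    have := (hx i).2
    gcongr

theorem card_idxSet_le {ℓ : ℝ} (hℓ : 0 < ℓ) (σ : ℝ) {L : ℝ} (hL : 0 ≤ L) :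
    (idxSet ℓ σ L).card ≤ (⌊L / ℓ⌋₊ + 2) ^ 3 := by
  unfold idxSet
  rw [Fintype.card_piFinset]
  simp only [Finset.prod_const, Finset.card_univ, Fintype.card_fin, Int.card_Icc]
  apply Nat.pow_le_pow_left
  set a := ⌊(0 - σ) / ℓ⌋ with ha
  set b := ⌊(L - σ) / ℓ⌋ with hb
  have h1 : (b : ℝ) ≤ (L - σ) / ℓ := Int.floor_le _
  have h2 : (0 - σ) / ℓ < a + 1 := Int.lt_floor_add_one _
  have h3 : (L - σ) / ℓ = L / ℓ + (0 - σ) / ℓ := by ring
  have h0 : 0 ≤ L / ℓ := by positivity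
  have h4 : ((b - a - 1 : ℤ) : ℝ) < L / ℓ := by
    push_cast
    linarith
  have h5 : b - a - 1 ≤ ⌊L / ℓ⌋ := Int.le_floor.2 h4.le
  have h6 : ((⌊L / ℓ⌋₊ : ℕ) : ℤ) = ⌊L / ℓ⌋ := Int.natCast_floor_eq_floor h0
  omega

/-- two points of the same cell are at distance at most `√3 ℓ` -/
theorem norm_sub_le_of_same {ℓ : ℝ} (hℓ : 0 < ℓ) {σ : ℝ} {x y : E}
    (h : cellIdx ℓ σ x = cellIdx ℓ σ y) : ‖x - y‖ ≤ Real.sqrt 3 * ℓ := by
  apply norm_le_of_coord
  intro i
  have hx : x ∈ cell ℓ σ (cellIdx ℓ σ y) := h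
  have hy : y ∈ cell ℓ σ (cellIdx ℓ σ y) := rfl
  rw [mem_cell_iff hℓ] at hx hy
  have a := hx i
  have b := hy i
  rw [PiLp.sub_apply, abs_le]
  constructor <;> linarith [a.1, a.2, b.1, b.2]

theorem same_self (ℓ σ : ℝ) (x : E) : same ℓ σ x x = 1 := by
  simp [same]

theorem same_nonneg (ℓ σ : ℝ) (x y : E) : 0 ≤ same ℓ σ x y := by
  unfold same
  split_ifs <;> norm_num

theorem same_le_one (ℓ σ : ℝ) (x y : E) : same ℓ σ x y ≤ 1 := by
  unfold same
  split_ifs <;> norm_num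

theorem same_symm (ℓ σ : ℝ) (x y : E) : same ℓ σ x y = same ℓ σ y x := by
  unfold same
  simp only [eq_comm]

theorem same_eq_one_of_mem {ℓ σ : ℝ} {n : Fin 3 → ℤ} {x y : E} (hx : x ∈ cell ℓ σ n)
    (hy : y ∈ cell ℓ σ n) : same ℓ σ x y = 1 := by
  have h : cellIdx ℓ σ x = cellIdx ℓ σ y := Eq.trans hx (Eq.symm hy)
  simp [same, h]

theorem same_eq_zero_of_mem {ℓ σ : ℝ} {n n' : Fin 3 → ℤ} (h : n ≠ n') {x y : E}
    (hx : x ∈ cell ℓ σ n) (hy : y ∈ cell ℓ σ n') : same ℓ σ x y = 0 := by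
  have hx' : cellIdx ℓ σ x = n := hx
  have hy' : cellIdx ℓ σ y = n' := hy
  simp [same, hx', hy', h]

theorem rep_self (x : E) : rep x x = 1 := by
  simp [rep]

theorem rep_nonneg (x y : E) : 0 ≤ rep x y := by
  unfold rep
  split_ifs <;> norm_num

theorem rep_symm (x y : E) : rep x y = rep y x := by
  unfold rep
  rw [norm_sub_rev]

theorem rep_transl (v x y : E) : rep (x + v) (y + v) = rep x y := by
  unfold rep
  rw [add_sub_add_right_eq_sub]

theorem rep_eq_zero {x y : E} (h : 1 ≤ ‖x - y‖) : rep x y = 0 := by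
  unfold rep
  rw [if_neg (not_lt.2 h)]

/-- cells of mesh one half have diameter `√3/2 < 1` -/
theorem same_half_le_rep (x y : E) : same (1 / 2) 0 x y ≤ rep x y := by
  by_cases h : cellIdx (1 / 2) 0 x = cellIdx (1 / 2) 0 y
  · have h1 := norm_sub_le_of_same (by norm_num : (0:ℝ) < 1 / 2) h
    have h2 : Real.sqrt 3 < 2 := by
      rw [Real.sqrt_lt' (by norm_num)]
      norm_num
    have h3 : ‖x - y‖ < 1 := by linarith
    have h4 : rep x y = 1 := by
      unfold rep
      rw [if_pos h3]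
    rw [h4]
    exact same_le_one _ _ _ _
  · have : same (1 / 2) 0 x y = 0 := by
      unfold same
      rw [if_neg h]
    rw [this]
    exact rep_nonneg x y

theorem vB_pos {R : ℝ} (hR : 0 < R) : 0 < vB R := by
  unfold vB
  exact ENNReal.toReal_pos (Metric.measure_ball_pos volume 0 hR).ne' measure_ball_lt_top.ne

/-- (`Measure.addHaar_ball`) -/
theorem vB_eq {R : ℝ} (hR : 0 ≤ R) : vB R = R ^ 3 * vB 1 := by
  unfold vB
  rw [Measure.addHaar_ball volume (0 : E) hR, ENNReal.toReal_mul, finrank_euclideanSpace_fin,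
    ENNReal.toReal_ofReal (by positivity)]

theorem volume_ball_toReal (x : E) (R : ℝ) : (volume (Metric.ball x R)).toReal = vB R := by
  unfold vB
  rw [Measure.addHaar_ball_center]

theorem volume_ball_eq (x : E) (R : ℝ) : volume (Metric.ball x R) = ENNReal.ofReal (vB R) := by
  rw [← volume_ball_toReal x R, ENNReal.ofReal_toReal measure_ball_lt_top.ne]

end Vale.Agent.Lib.P171
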