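import Vale.Agent.Lib.P171.EnBasic
import Vale.Agent.Lib.P171.Geom

/-!
# P171, layer 1: stability of core minus attraction
-/

namespace Vale.Agent.Lib.P171

open MeasureTheory Set
open scoped ENNReal

theorem SC_le_dsum_rep (X : Multiset E) : SC X ≤ dsum rep X :=
  cross_mono fun x _ y _ => same_half_le_rep x y

theorem dsum_rep_eq (X : Multiset E) : dsum rep X = 2 * En rep X + (Multiset.card X : ℝ) := by
  unfold En
  rw [diag_const_of (c := 1) (fun x _ => rep_self x)]
  ring

theorem dsum_same_eq (ℓ σ : ℝ) (X : Multiset E) :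
    dsum (same ℓ σ) X = 2 * En (same ℓ σ) X + (Multiset.card X : ℝ) := by
  unfold En
  rw [diag_const_of (c := 1) (fun x _ => same_self ℓ σ x)]
  ring

/-- (the diagonal terms) -/
theorem card_le_SC (X : Multiset E) : (Multiset.card X : ℝ) ≤ SC X := by
  unfold SC
  rw [dsum_same_eq]
  have h : 0 ≤ En (same (1 / 2) 0) X := En_nonneg fun x _ y _ => same_nonneg _ _ x y
  linarith

theorem SC_nonneg (X : Multiset E) : 0 ≤ SC X :=
  le_trans (Nat.cast_nonneg _) (card_le_SC X)

theorem En_ker (a : ℝ) (A : E → E → ℝ) (X : Multiset E) :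
    En (ker a A) X = a * En rep X - En A X := by
  have h : ker a A = fun x y => (fun x y => a * rep x y) x y - A x y := rfl
  rw [h, En_sub_ker, En_smul_ker]

/-- (test the bound on a one point configuration) -/
theorem IsAttr.kappa_nonneg {A : E → E → ℝ} {κ : ℝ} (hA : IsAttr A κ) : 0 ≤ κ := by
  have h := hA.bound {0}
  have h1 : dsum A {0} = A 0 0 := by simp [dsum, cross]
  have h2 : SC {0} = 1 := by
    have : SC {0} = same (1 / 2) 0 0 0 := by simp [SC, dsum, cross]
    rw [this, same_self]
  rw [h1, h2] at h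
  have h3 := hA.nonneg 0 0
  linarith

theorem IsAttr.mono {A : E → E → ℝ} {κ κ' : ℝ} (hA : IsAttr A κ) (h : κ ≤ κ') : IsAttr A κ' where
  nonneg := hA.nonneg
  symm := hA.symm
  meas := hA.meas
  transl := hA.transl
  bound := by
    intro X
    refine le_trans (hA.bound X) ?_
    have := SC_nonneg X
    nlinarith

theorem isAttr_zero : IsAttr (fun _ _ => 0) 0 where
  nonneg := fun _ _ => le_refl _
  symm := fun _ _ => rfl
  meas := measurable_const
  transl := fun _ _ _ => rfl
  bound := by
    intro X
    have h : dsum (fun _ _ => 0) X = 0 := cross_zero_ker X X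
    rw [h]
    simp

theorem IsAttr.add {A A' : E → E → ℝ} {κ κ' : ℝ} (hA : IsAttr A κ) (hA' : IsAttr A' κ') :
    IsAttr (fun x y => A x y + A' x y) (κ + κ') where
  nonneg := fun x y => add_nonneg (hA.nonneg x y) (hA'.nonneg x y)
  symm := fun x y => by rw [hA.symm x y, hA'.symm x y]
  meas := hA.meas.add hA'.meas
  transl := fun v x y => by rw [hA.transl, hA'.transl]
  bound := by
    intro X
    have h : dsum (fun x y => A x y + A' x y) X = dsum A X + dsum A' X := cross_add_ker A A' X X
    rw [h]
    have h1 := hA.bound X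
    have h2 := hA'.bound X
    linarith

/-- `En A X ≤ dsum A X / 2 ≤ κ SC X` -/
theorem IsAttr.En_le {A : E → E → ℝ} {κ : ℝ} (hA : IsAttr A κ) (X : Multiset E) :
    En A X ≤ κ * SC X := by
  have h1 : 0 ≤ diag A X := by
    apply Multiset.sum_nonneg
    intro z hz
    obtain ⟨y, _, rfl⟩ := Multiset.mem_map.1 hz
    exact hA.nonneg y y
  have h2 := hA.bound X
  unfold En
  linarith

/-- `En (ker a A) X ≥ (a/2)(SC - N) - κ SC` -/
theorem En_ker_ge {A : E → E → ℝ} {κ a : ℝ} (hA : IsAttr A κ) (ha : 0 ≤ a) (X : Multiset E) :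
    (a / 2 - κ) * SC X - a / 2 * (Multiset.card X : ℝ) ≤ En (ker a A) X := by
  rw [En_ker]
  have h1 := hA.En_le X
  have h2 := SC_le_dsum_rep X
  rw [dsum_rep_eq] at h2
  nlinarith

theorem measurable_ker {A : E → E → ℝ} (hA : Measurable (Function.uncurry A)) (a : ℝ) :
    Measurable (Function.uncurry (ker a A)) :=
  (measurable_rep.const_mul a).sub hA

/-- stability, temperedness (nonpositive beyond distance one), invariance -/
theorem adm_ker {A : E → E → ℝ} {κ a : ℝ} (hA : IsAttr A κ) (ha : 2 * κ ≤ a) :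
    Adm (ker a A) κ where
  meas := measurable_ker hA.meas a
  transl := fun v x y => by
    unfold ker
    rw [rep_transl, hA.transl]
  far := fun x y h => by
    unfold ker
    rw [rep_eq_zero h]
    have := hA.nonneg x y
    linarith
  stab := by
    intro X
    have hκ := hA.kappa_nonneg
    have h1 := En_ker_ge hA (by linarith : 0 ≤ a) X
    have h2 := card_le_SC X
    nlinarith

/-- an extra attraction `t` costs a bit of the core and of the chemical potential:
`En t X ≤ κt SC X ≤ κt (2 En rep X + N)` -/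
theorem En_ker_add_ge {t : E → E → ℝ} {κt : ℝ} (ht : IsAttr t κt) (a : ℝ) (A : E → E → ℝ)
    (X : Multiset E) :
    En (ker (a - 2 * κt) A) X - κt * (Multiset.card X : ℝ)
      ≤ En (ker a (fun x y => A x y + t x y)) X := by
  rw [En_ker, En_ker, En_add_ker]
  have h1 := ht.En_le X
  have h2 := SC_le_dsum_rep X
  rw [dsum_rep_eq] at h2
  have hκ := ht.kappa_nonneg
  nlinarith

end Vale.Agent.Lib.P171
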