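import Vale.Agent.Lib.P171.Thermo3
import Vale.Agent.Lib.P171.Cells
import Vale.Agent.Lib.P171.Stab

/-!
# P171, layer 2: a priori bounds on the pressure of core minus attraction
-/

namespace Vale.Agent.Lib.P171

open MeasureTheory Set Filter Topology
open scoped ENNReal

/-- one cell of mesh one half: with `n = card X`, `t n - b (n² - n) ≤ t + t²/(4b)` for all `n`
(for `n ≥ 1`: `t n - b n (n-1) ≤ t + (n-1) t - b (n-1)²`), so the weight is at most `exp (t + t²/(4b))`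
times the weight of the ideal gas at activity one (`Xi_exp_card` with `t = 0`, volume `1/8`) -/
theorem Xi_half_le {b t : ℝ} (hb : 0 < b) (ht : 0 ≤ t) :
    Xi (box (1 / 2)) (Wt (fun _ _ => 2 * b) t)
      ≤ ENNReal.ofReal (Real.exp (t + t ^ 2 / (4 * b) + 1 / 8)) := by
  have key : ∀ X : Multiset E, Wt (fun _ _ => 2 * b) t X
      ≤ ENNReal.ofReal (Real.exp (t + t ^ 2 / (4 * b)))
        * ENNReal.ofReal (Real.exp ((0 : ℝ) * (Multiset.card X : ℝ))) := by
    intro X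
    unfold Wt
    rw [En_const, zero_mul, Real.exp_zero, ENNReal.ofReal_one, mul_one]
    refine ENNReal.ofReal_le_ofReal (Real.exp_le_exp.2 ?_)
    rcases Nat.eq_zero_or_pos (Multiset.card X) with h | h
    · rw [h]
      have : 0 ≤ t ^ 2 / (4 * b) := by positivity
      simp only [Nat.cast_zero]
      nlinarith
    · have hn : (1 : ℝ) ≤ (Multiset.card X : ℝ) := by exact_mod_cast h
      set n : ℝ := (Multiset.card X : ℝ) with hndef
      have h1 : 0 ≤ (t - 2 * b * (n - 1)) ^ 2 / (4 * b) := by positivity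
      have h4 : t ^ 2 / (4 * b)
          = (t - 2 * b * (n - 1)) ^ 2 / (4 * b) + t * (n - 1) - b * (n - 1) ^ 2 := by
        field_simp
        ring
      rw [h4]
      nlinarith
  have hm : MeasW (fun X : Multiset E =>
      ENNReal.ofReal (Real.exp ((0 : ℝ) * (Multiset.card X : ℝ)))) := by
    intro N
    simp only [card_ms]
    exact measurable_const
  have hv : volume (box (1 / 2)) = ENNReal.ofReal ((1 / 2 : ℝ) ^ 3) :=
    volume_box (by norm_num)
  calc Xi (box (1 / 2)) (Wt (fun _ _ => 2 * b) t)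
      ≤ Xi (box (1 / 2)) (fun X => ENNReal.ofReal (Real.exp (t + t ^ 2 / (4 * b)))
        * ENNReal.ofReal (Real.exp ((0 : ℝ) * (Multiset.card X : ℝ)))) :=
        Xi_mono_on (measurableSet_box _) (fun X _ => key X)
    _ = ENNReal.ofReal (Real.exp (t + t ^ 2 / (4 * b)))
        * Xi (box (1 / 2)) (fun X =>
          ENNReal.ofReal (Real.exp ((0 : ℝ) * (Multiset.card X : ℝ)))) :=
        Xi_const_mul _ _ hm
    _ = ENNReal.ofReal (Real.exp (t + t ^ 2 / (4 * b) + 1 / 8)) := by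
        rw [Xi_exp_card _ (by rw [hv]; exact ENNReal.ofReal_ne_top), hv,
          ENNReal.toReal_ofReal (by norm_num), ← ENNReal.ofReal_mul (Real.exp_pos _).le,
          ← Real.exp_add, Real.exp_zero]
        norm_num

/-- By `En_ker_ge`: `Wt (ker a A) μ X ≤ Wt (fun x y => 2 b * same (1/2) 0 x y) (μ + κ) X` with
`b = a/2 - κ` (`dsum_same_eq`). Then `Xi_box_same_le` with `ℓ = 1/2`, `(⌊2L⌋₊ + 2)³ ≤ 8 (L+1)³`,
`Xi_half_le`, `press_le_of_forall`. -/
theorem press_ker_le {A : E → E → ℝ} {κ a : ℝ} (hA : IsAttr A κ) (ha : 2 * κ < a) {μ : ℝ}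
    (hμ : 0 ≤ μ + κ) :
    press (ker a A) μ ≤ 1 + 8 * (μ + κ) + 2 * (μ + κ) ^ 2 / (a / 2 - κ) := by
  have hκ := hA.kappa_nonneg
  set b : ℝ := a / 2 - κ with hb
  have hb0 : 0 < b := by rw [hb]; linarith
  set t : ℝ := μ + κ with ht
  set T : ℝ := t + t ^ 2 / (4 * b) + 1 / 8 with hT
  have hT0 : 0 ≤ T := by
    have : 0 ≤ t ^ 2 / (4 * b) := by positivity
    rw [hT]
    linarith
  have hW : ∀ X : Multiset E, Wt (ker a A) μ X
      ≤ Wt (fun x y => (fun _ _ => 2 * b) x y * same (1 / 2) 0 x y) t X := by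
    intro X
    apply Wt_le_Wt
    have h1 := En_ker_ge hA (by linarith : 0 ≤ a) X
    have h2 : En (fun x y => (fun _ _ => 2 * b) x y * same (1 / 2) 0 x y) X
        = 2 * b * En (same (1 / 2) 0) X := En_smul_ker (2 * b) (same (1 / 2) 0) X
    have h3 : SC X = 2 * En (same (1 / 2) 0) X + (Multiset.card X : ℝ) := dsum_same_eq _ _ X
    rw [h2]
    rw [h3] at h1
    rw [ht]
    rw [← hb] at h1
    have h5 : a / 2 = b + κ := by rw [hb]; ring
    rw [h5] at h1
    nlinarith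
  apply press_le_of_forall
  intro L hL
  have h1 : Xi (box L) (Wt (ker a A) μ)
      ≤ Xi (box (1 / 2)) (Wt (fun _ _ => 2 * b) t) ^ ((⌊L / (1 / 2)⌋₊ + 2) ^ 3) :=
    le_trans (Xi_mono_on (measurableSet_box _) (fun X _ => hW X))
      (Xi_box_same_le (k := fun _ _ => 2 * b) measurable_const (fun _ _ _ => rfl)
        (by norm_num : (0 : ℝ) < 1 / 2) 0 t hL)
  set M : ℕ := (⌊L / (1 / 2)⌋₊ + 2) ^ 3 with hM
  have h2 : Xi (box L) (Wt (ker a A) μ) ≤ ENNReal.ofReal (Real.exp ((M : ℝ) * T)) := by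
    refine le_trans h1 ?_
    rw [Real.exp_nat_mul, ENNReal.ofReal_pow (Real.exp_pos _).le]
    exact pow_le_pow_left₀ zero_le (Xi_half_le hb0 hμ) M
  have h3 := lp_le_of_Xi_le h2
  have h4 : (M : ℝ) ≤ 8 * (L + 1) ^ 3 := by
    have h5 : ((⌊L / (1 / 2)⌋₊ : ℕ) : ℝ) ≤ L / (1 / 2) := Nat.floor_le (by positivity)
    have h6 : ((⌊L / (1 / 2)⌋₊ : ℕ) : ℝ) + 2 ≤ 2 * (L + 1) := by
      have : L / (1 / 2) = 2 * L := by ring
      linarith
    rw [hM]
    push_cast
    calc (((⌊L / (1 / 2)⌋₊ : ℕ) : ℝ) + 2) ^ 3 ≤ (2 * (L + 1)) ^ 3 :=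
          pow_le_pow_left₀ (by positivity) h6 3
      _ = 8 * (L + 1) ^ 3 := by ring
  have h7 : (1 : ℝ) + 8 * t + 2 * t ^ 2 / b = 8 * T := by
    rw [hT]
    field_simp
    ring
  rw [h7]
  calc lp (ker a A) μ L ≤ (M : ℝ) * T := h3
    _ ≤ 8 * (L + 1) ^ 3 * T := mul_le_mul_of_nonneg_right h4 hT0
    _ = (L + 1) ^ 3 * (8 * T) := by ring

/-- the pressure decreases with the height of the core -/
theorem press_ker_anti {A : E → E → ℝ} {κ a a' : ℝ} (hA : IsAttr A κ) (ha : 2 * κ ≤ a)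
    (haa : a ≤ a') (μ : ℝ) : press (ker a' A) μ ≤ press (ker a A) μ := by
  refine press_anti_ker (adm_ker hA (le_trans ha haa)) (adm_ker hA ha) ?_ μ
  intro x y
  unfold ker
  have := rep_nonneg x y
  nlinarith

/-- the pressure increases with the attraction -/
theorem press_ker_mono {A A' : E → E → ℝ} {κ κ' a : ℝ} (hA : IsAttr A κ) (hA' : IsAttr A' κ')
    (ha : 2 * κ ≤ a) (ha' : 2 * κ' ≤ a) (h : ∀ x y, A x y ≤ A' x y) (μ : ℝ) :
    press (ker a A) μ ≤ press (ker a A') μ := by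
  refine press_anti_ker (adm_ker hA ha) (adm_ker hA' ha') ?_ μ
  intro x y
  unfold ker
  have := h x y
  linarith

/-- **Perturbation of the core and of the chemical potential** (joint convexity with weight
`θ = 2 ε / Λ`: `ker (a - 2ε) A = (1-θ) ker a A + θ ker (a - Λ) A`, `μ + ε = (1-θ) μ + θ (μ + Λ/2)`,
and `press ≥ 0`) -/
theorem press_perturb {A : E → E → ℝ} {κ a Λ ε : ℝ} (hA : IsAttr A κ) (hΛ : 0 < Λ) (hε : 0 ≤ ε)
    (hεΛ : 2 * ε ≤ Λ) (ha : 2 * κ ≤ a - Λ) (μ : ℝ) :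
    press (ker (a - 2 * ε) A) (μ + ε)
      ≤ press (ker a A) μ + 2 * ε / Λ * press (ker (a - Λ) A) (μ + Λ / 2) := by
  set θ : ℝ := 2 * ε / Λ with hθ
  have hθ0 : 0 ≤ θ := by rw [hθ]; positivity
  have hθ1 : θ ≤ 1 := by rw [hθ, div_le_one hΛ]; exact hεΛ
  have hθΛ : θ * Λ = 2 * ε := by rw [hθ]; field_simp
  have h₁ : Adm (ker a A) κ := adm_ker hA (by linarith)
  have h₂ : Adm (ker (a - Λ) A) κ := adm_ker hA ha
  have hc := press_convex h₁ h₂ μ (μ + Λ / 2) (s := 1 - θ) (t := θ) (by linarith) hθ0 (by ring)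
  have e1 : (fun x y => (1 - θ) * ker a A x y + θ * ker (a - Λ) A x y) = ker (a - 2 * ε) A := by
    funext x y
    unfold ker
    rw [← hθΛ]
    ring
  have e2 : (1 - θ) * μ + θ * (μ + Λ / 2) = μ + ε := by
    have : θ * (Λ / 2) = ε := by linarith
    nlinarith
  rw [e1, e2] at hc
  have hp := press_nonneg h₁ μ
  nlinarith

/-- **An additional weak attraction changes the pressure little** (`En_ker_add_ge`,
`press_le_press`, `press_perturb` with `ε = κt`) -/
theorem press_tail_le {A t : E → E → ℝ} {κ κt a Λ : ℝ} (hA : IsAttr A κ) (ht : IsAttr t κt)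
    (hΛ : 0 < Λ) (hκΛ : 2 * κt ≤ Λ) (ha : 2 * κ ≤ a - Λ) (ha' : 2 * (κ + κt) ≤ a) (μ : ℝ) :
    press (ker a (fun x y => A x y + t x y)) μ
      ≤ press (ker a A) μ + 2 * κt / Λ * press (ker (a - Λ) A) (μ + Λ / 2) := by
  have h1 : press (ker a (fun x y => A x y + t x y)) μ
      ≤ press (ker (a - 2 * κt) A) (μ + κt) := by
    refine press_le_press (adm_ker (hA.add ht) ha') (adm_ker hA (by linarith)) ?_
    intro X
    apply Wt_le_Wt
    have := En_ker_add_ge ht a A X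
    linarith
  exact le_trans h1 (press_perturb hA hΛ ht.kappa_nonneg hκΛ ha μ)

/-- slopes of a nonnegative convex function are controlled by its values further to the right -/
theorem slope_le_of_convex {g : ℝ → ℝ} (hg : ConvexOn ℝ univ g) (h0 : ∀ x, 0 ≤ g x)
    {x y X₀ Z : ℝ} (hxy : x ≤ y) (hy : y ≤ X₀) (hZ : X₀ < Z) :
    g y - g x ≤ g Z / (Z - X₀) * (y - x) := by
  rcases eq_or_lt_of_le hxy with rfl | hlt
  · simp
  have hyZ : y < Z := lt_of_le_of_lt hy hZ
  have h1 := hg.slope_mono_adjacent (mem_univ x) (mem_univ Z) hlt hyZ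
  have h2 : (g Z - g y) / (Z - y) ≤ g Z / (Z - X₀) := by
    calc (g Z - g y) / (Z - y) ≤ g Z / (Z - y) := by
          apply div_le_div_of_nonneg_right _ (by linarith)
          linarith [h0 y]
      _ ≤ g Z / (Z - X₀) := by
          apply div_le_div_of_nonneg_left (h0 Z) (by linarith) (by linarith)
  have h3 : (g y - g x) / (y - x) ≤ g Z / (Z - X₀) := le_trans h1 h2
  rwa [div_le_iff₀ (by linarith)] at h3

end Vale.Agent.Lib.P171
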