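import Vale.Agent.Lib.P171.Asm1
import Vale.Agent.Lib.P171.PressBound

/-!
# P171, layer 5: the numerical inequalities
Constants: core height `aa = 4·10⁹`, total attraction constant `κ = 16 · 280000 = 4480000`,
`ν₀ = 42000000`, `hi = 21`, slope bound `10`.
-/

namespace Vale.Agent.Lib.P171

open MeasureTheory Set Filter Topology
open scoped ENNReal

/-- the height of the core -/
noncomputable def aa : ℝ := 4000000000

/-- (`slope_le_of_convex` with `X₀ = 42000021`, `Z = 442000021`, `press_ker_le`: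
`press Z ≤ 1 + 8 · 446480021 + 2 · 446480021² / (2·10⁹ - 4480000) ≤ 4·10⁹ = 10 (Z - X₀)`) -/
theorem slope_bound {A : E → E → ℝ} (hA : IsAttr A 4480000) {x y : ℝ} (hxy : x ≤ y)
    (hy : y ≤ 21 + 42000000) :
    press (ker aa A) y - press (ker aa A) x ≤ 10 * (y - x) := by
  have hadm : Adm (ker aa A) 4480000 := adm_ker hA (by unfold aa; norm_num)
  have h1 := slope_le_of_convex (convexOn_press hadm) (press_nonneg hadm) (x := x) (y := y)
    (X₀ := 42000021) (Z := 442000021) hxy (by linarith) (by norm_num)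
  have h2 : press (ker aa A) 442000021
      ≤ 1 + 8 * (442000021 + 4480000) + 2 * (442000021 + 4480000) ^ 2 / (aa / 2 - 4480000) :=
    press_ker_le hA (by unfold aa; norm_num) (by norm_num)
  have h3 : (1 : ℝ) + 8 * (442000021 + 4480000) + 2 * (442000021 + 4480000) ^ 2
      / (aa / 2 - 4480000) ≤ 4000000000 := by
    unfold aa
    norm_num
  have h4 : press (ker aa A) 442000021 / (442000021 - 42000021) ≤ 10 := by
    rw [div_le_iff₀ (by norm_num)]
    norm_num
    linarith
  calc press (ker aa A) y - press (ker aa A) x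
      ≤ press (ker aa A) 442000021 / (442000021 - 42000021) * (y - x) := h1
    _ ≤ 10 * (y - x) := mul_le_mul_of_nonneg_right h4 (by linarith)

theorem tail_poly {t : ℝ} (ht : 0 ≤ t) :
    3 / 2 * (1 + 8 * (46480022 + t) + (46480022 + t) ^ 2 / 900000000) + (42000000 + t)
      ≤ (42000000 + t) ^ 2 / 1260000 := by
  have h : (42000000 + t) ^ 2 / 1260000
      - (3 / 2 * (1 + 8 * (46480022 + t) + (46480022 + t) ^ 2 / 900000000) + (42000000 + t))
      = (1 / 1260000 - 1 / 600000000) * t ^ 2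
        + (84000000 / 1260000 - 13 - 92960044 / 600000000) * t
        + (42000000 ^ 2 / 1260000 - 42000000 - 3 / 2 * (1 + 8 * 46480022)
          - 46480022 ^ 2 / 600000000) := by
    ring
  have h1 : (0 : ℝ) ≤ (1 / 1260000 - 1 / 600000000) * t ^ 2 :=
    mul_nonneg (by norm_num) (sq_nonneg t)
  have h2 : (0 : ℝ) ≤ (84000000 / 1260000 - 13 - 92960044 / 600000000) * t :=
    mul_nonneg (by norm_num) ht
  have h3 : (0 : ℝ) ≤ (42000000 ^ 2 / 1260000 - 42000000 - 3 / 2 * (1 + 8 * 46480022)
          - 46480022 ^ 2 / 600000000) := by norm_num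
  linarith

/-- (`press_ker_le` for the core height `aa - 1`; then a quadratic inequality in `ν ≥ 42000000`:
write `ν = 42000000 + t`) -/
theorem tail_bound {A : E → E → ℝ} (hA : IsAttr A 4480000) {c : ℝ} (hc : 0 < c)
    (hc' : c ≤ 210000) {ν : ℝ} (hν : 42000000 ≤ ν) :
    3 / 2 * press (ker (aa - 1) A) (21 + 1 + ν) ≤ ν ^ 2 / (6 * c) - ν := by
  have h1 : press (ker (aa - 1) A) (21 + 1 + ν)
      ≤ 1 + 8 * (21 + 1 + ν + 4480000) + 2 * (21 + 1 + ν + 4480000) ^ 2
        / ((aa - 1) / 2 - 4480000) :=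
    press_ker_le hA (by unfold aa; norm_num) (by linarith)
  obtain ⟨t, ht, rfl⟩ : ∃ t : ℝ, 0 ≤ t ∧ ν = 42000000 + t := ⟨ν - 42000000, by linarith, by ring⟩
  have e1 : (21 : ℝ) + 1 + (42000000 + t) + 4480000 = 46480022 + t := by ring
  rw [e1] at h1
  have h2 : 2 * (46480022 + t) ^ 2 / ((aa - 1) / 2 - 4480000)
      ≤ (46480022 + t) ^ 2 / 900000000 := by
    unfold aa
    rw [div_le_div_iff₀ (by norm_num) (by norm_num)]
    have := sq_nonneg (46480022 + t)
    nlinarith
  have h3 : (42000000 + t) ^ 2 / 1260000 ≤ (42000000 + t) ^ 2 / (6 * c) := by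
    apply div_le_div_of_nonneg_left (sq_nonneg _) (by positivity) (by linarith)
  have h4 := tail_poly ht
  linarith

/-- the constant in the comparison of the full system with its truncations -/
noncomputable def Qhat : ℝ :=
  1 + 8 * (21 + 8960000 / 2 + 4480000) + 2 * (21 + 8960000 / 2 + 4480000) ^ 2
    / ((aa - 8960000) / 2 - 4480000)

theorem isAttr_Aseq' {R : ℕ → ℝ} (hR : ∀ j, 8 ≤ R j) (k : ℕ) : IsAttr (Aseq R k) 4480000 :=
  (isAttr_Aseq hR k).mono (by have := sum_cs_le k; linarith)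

theorem four_pow_bound (k : ℕ) : (280000 : ℝ) / 4 ^ k ≤ 280000 := by
  apply div_le_self (by norm_num)
  exact one_le_pow₀ (by norm_num)

/-- (`press_ker_mono` for the lower bound; `Atail_zero_eq`, `press_tail_le` with `Λ = 8960000`,
`κt = 16 · 280000 / 4^k`, monotonicity in `μ ≤ 21` and `press_ker_le` for the upper bound) -/
theorem inf_close {R : ℕ → ℝ} (hR : ∀ j, 8 ≤ R j) (k : ℕ) {μ : ℝ} (hμ : μ ≤ 21) :
    |press (ker aa (Atail R 0)) μ - press (ker aa (Aseq R k)) μ|
      ≤ 2 * (16 * (280000 / 4 ^ k)) / 8960000 * Qhat := by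
  have hS := isAttr_Aseq' hR k
  have hT := isAttr_Atail hR k
  have hT0 := isAttr_Atail hR 0
  have hk := four_pow_bound k
  have hk0 : (0 : ℝ) ≤ 280000 / 4 ^ k := by positivity
  have heq := Atail_zero_eq hR k
  -- lower bound
  have hlow : press (ker aa (Aseq R k)) μ ≤ press (ker aa (Atail R 0)) μ := by
    refine press_ker_mono hS hT0 (by unfold aa; norm_num) (by unfold aa; norm_num) ?_ μ
    intro x y
    rw [heq]
    have := hT.nonneg x y
    linarith
  -- upper bound
  have hup : press (ker aa (Atail R 0)) μ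
      ≤ press (ker aa (Aseq R k)) μ + 2 * (16 * (280000 / 4 ^ k)) / 8960000
        * press (ker (aa - 8960000) (Aseq R k)) (μ + 8960000 / 2) := by
    rw [heq]
    exact press_tail_le hS hT (by norm_num) (by linarith) (by unfold aa; norm_num)
      (by unfold aa; linarith) μ
  have hadm : Adm (ker (aa - 8960000) (Aseq R k)) 4480000 :=
    adm_ker hS (by unfold aa; norm_num)
  have hq1 : press (ker (aa - 8960000) (Aseq R k)) (μ + 8960000 / 2)
      ≤ press (ker (aa - 8960000) (Aseq R k)) (21 + 8960000 / 2) :=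
    press_mono hadm (by linarith)
  have hq2 : press (ker (aa - 8960000) (Aseq R k)) (21 + 8960000 / 2) ≤ Qhat :=
    press_ker_le hS (by unfold aa; norm_num) (by norm_num)
  have hcoef : (0 : ℝ) ≤ 2 * (16 * (280000 / 4 ^ k)) / 8960000 := by positivity
  have hfin : 2 * (16 * (280000 / 4 ^ k)) / 8960000
        * press (ker (aa - 8960000) (Aseq R k)) (μ + 8960000 / 2)
      ≤ 2 * (16 * (280000 / 4 ^ k)) / 8960000 * Qhat :=
    mul_le_mul_of_nonneg_left (le_trans hq1 hq2) hcoef
  rw [abs_le]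
  have hQ : 0 ≤ 2 * (16 * (280000 / 4 ^ k)) / 8960000 * Qhat :=
    le_trans (mul_nonneg hcoef (press_nonneg hadm _)) hfin
  constructor <;> linarith

theorem tendsto_inf_close :
    Tendsto (fun k : ℕ => 2 * (16 * (280000 / 4 ^ k)) / 8960000 * Qhat) atTop (𝓝 0) := by
  have h1 : Tendsto (fun k : ℕ => ((1 : ℝ) / 4) ^ k) atTop (𝓝 0) :=
    tendsto_pow_atTop_nhds_zero_of_lt_one (by norm_num) (by norm_num)
  have h2 := h1.const_mul (2 * (16 * 280000) / 8960000 * Qhat)
  rw [mul_zero] at h2
  refine h2.congr (fun k => ?_)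
  rw [one_div, inv_pow]
  field_simp

end Vale.Agent.Lib.P171
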