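import Vale.Agent.Lib.P171.Thermo3
import Vale.Agent.Lib.P171.Stab
import Vale.Agent.Lib.P171.SupConv

/-!
# P171, layer 2: the pure core system (base case of the iteration)
-/

namespace Vale.Agent.Lib.P171

open MeasureTheory Set Filter Topology
open scoped ENNReal

/-- the pure core kernel is admissible with stability constant zero -/
theorem adm_core {a : ℝ} (ha : 0 ≤ a) : Adm (ker a fun _ _ => 0) 0 :=
  adm_ker isAttr_zero (by simpa using ha)

/-- (`press_le_exp` with `κ = 0`, `adm_ker isAttr_zero`) -/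
theorem press_core_le {a : ℝ} (ha : 0 ≤ a) (μ : ℝ) :
    press (ker a fun _ _ => 0) μ ≤ Real.exp μ := by
  have h := press_le_exp (adm_core ha) μ
  simpa using h

/-- (`lp_le_press` at `L = 1`, `le_Xi`, `Wt_zero`, `Wt_singleton`, `volume_box`) -/
theorem press_core_ge {a : ℝ} (ha : 0 ≤ a) (μ : ℝ) :
    Real.log (1 + Real.exp μ) / 8 ≤ press (ker a fun _ _ => 0) μ := by
  have hk := adm_core ha
  have h1 := lp_le_press hk μ (L := 1) zero_le_one
  have hpos : 0 < 1 + Real.exp μ := by positivity
  have h2 : Real.log (1 + Real.exp μ) ≤ lp (ker a fun _ _ => 0) μ 1 := by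
    apply le_lp_of_le_Xi hk zero_le_one
    rw [Real.exp_log hpos]
    refine le_trans ?_ (le_Xi (box 1) (Wt (ker a fun _ _ => 0) μ))
    rw [Wt_zero]
    simp only [Wt_singleton]
    rw [lintegral_const, Measure.restrict_apply MeasurableSet.univ, univ_inter,
      volume_box zero_le_one]
    rw [ENNReal.ofReal_add zero_le_one (Real.exp_pos μ).le]
    simp
  norm_num at h1
  linarith

theorem exp_neg_four_le : Real.exp (-4) ≤ 1 / 50 := by
  have h1 : (2.7 : ℝ) < Real.exp 1 := by
    have := Real.exp_one_gt_d9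
    linarith
  have h2 : Real.exp 4 = Real.exp 1 ^ 4 := by
    rw [← Real.exp_nat_mul]; norm_num
  have h3 : (50 : ℝ) ≤ Real.exp 4 := by
    rw [h2]
    calc (50 : ℝ) ≤ 2.7 ^ 4 := by norm_num
      _ ≤ Real.exp 1 ^ 4 := pow_le_pow_left₀ (by norm_num) h1.le 4
  rw [Real.exp_neg, one_div]
  exact inv_anti₀ (by norm_num) h3

/-- Let `g` be the pressure of the pure core: convex, `0 ≤ g`, `μ/8 ≤ log (1 + e^μ)/8 ≤ g μ ≤ e^μ`.
For `x ≤ y ≤ -5`: slope `(x,y)` `≤` slope `(y, y+1)` `≤ g (y+1) ≤ e^(-4) ≤ 1/50`.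
For `20 ≤ x ≤ y`: slope `(x,y)` `≥` slope `(-5, 20)` `≥ (20/8 - e^(-5))/25 ≥ 9/100`. -/
theorem steep_base {a : ℝ} (ha : 0 ≤ a) :
    Steep (press (ker a fun _ _ => 0)) (-5) 20 (1 / 50) (9 / 100) := by
  have hk := adm_core ha
  have hconv := convexOn_press hk
  set g := press (ker a fun _ _ => 0) with hg
  have h0 : ∀ x, 0 ≤ g x := fun x => press_nonneg hk x
  have hup : ∀ x, g x ≤ Real.exp x := fun x => press_core_le ha x
  have hlow : ∀ x, x / 8 ≤ g x := by
    intro x
    refine le_trans ?_ (press_core_ge ha x)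
    have : x ≤ Real.log (1 + Real.exp x) := by
      rw [Real.le_log_iff_exp_le (by positivity)]
      linarith
    linarith
  constructor
  · intro x y hxy hy
    rcases hxy.eq_or_lt with rfl | hlt
    · simp
    have hs := hconv.slope_mono_adjacent (mem_univ x) (mem_univ (y + 1)) hlt (by linarith)
    have h1 : g (y + 1) ≤ 1 / 50 :=
      (hup _).trans ((Real.exp_le_exp.2 (by linarith)).trans exp_neg_four_le)
    have h2 : (g (y + 1) - g y) / (y + 1 - y) ≤ 1 / 50 := by
      have : y + 1 - y = 1 := by ring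
      rw [this, div_one]
      linarith [h0 y]
    have h3 := hs.trans h2
    rwa [div_le_iff₀ (by linarith)] at h3
  · intro x y hx hxy
    rcases hxy.eq_or_lt with rfl | hlt
    · simp
    have hs := hconv.slope_mono_adjacent (mem_univ (-5 : ℝ)) (mem_univ y) (by linarith : (-5 : ℝ) < x)
      hlt
    have h1 : g (-5) ≤ 1 / 4 :=
      (hup _).trans ((Real.exp_le_exp.2 (by norm_num)).trans (exp_neg_four_le.trans (by norm_num)))
    have h2 : 9 / 100 ≤ (g x - g (-5)) / (x - -5) := by
      rw [le_div_iff₀ (by linarith)]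
      have := hlow x
      linarith
    have h3 := h2.trans hs
    rwa [le_div_iff₀ (by linarith)] at h3

end Vale.Agent.Lib.P171
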