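import Vale.Agent.Lib.P171.CfgBasic

/-!
# P171, layer 1: algebra of pair energies on multisets
-/

namespace Vale.Agent.Lib.P171

open MeasureTheory Set
open scoped ENNReal

theorem cross_zero_left (k : E → E → ℝ) (Y : Multiset E) : cross k 0 Y = 0 := by
  simp [cross]

theorem cross_zero_right (k : E → E → ℝ) (X : Multiset E) : cross k X 0 = 0 := by
  simp [cross]

theorem cross_cons_left (k : E → E → ℝ) (a : E) (X Y : Multiset E) :
    cross k (a ::ₘ X) Y = (Y.map fun y => k a y).sum + cross k X Y := by
  simp [cross]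

theorem cross_cons_right (k : E → E → ℝ) (a : E) (X Y : Multiset E) :
    cross k X (a ::ₘ Y) = (X.map fun x => k x a).sum + cross k X Y := by
  simp [cross, Multiset.sum_map_add]

theorem cross_add_left (k : E → E → ℝ) (X X' Y : Multiset E) :
    cross k (X + X') Y = cross k X Y + cross k X' Y := by
  simp [cross]

theorem cross_add_right (k : E → E → ℝ) (X Y Y' : Multiset E) :
    cross k X (Y + Y') = cross k X Y + cross k X Y' := by
  simp [cross, Multiset.sum_map_add]

theorem cross_ms (k : E → E → ℝ) {M N : ℕ} (x : Fin M → E) (y : Fin N → E) :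
    cross k (ms x) (ms y) = ∑ i, ∑ j, k (x i) (y j) := by
  unfold cross
  rw [map_sum_ms]
  simp_rw [map_sum_ms]

theorem dsum_ms (k : E → E → ℝ) {N : ℕ} (x : Fin N → E) :
    dsum k (ms x) = ∑ i, ∑ j, k (x i) (x j) :=
  cross_ms k x x

theorem diag_ms (k : E → E → ℝ) {N : ℕ} (x : Fin N → E) : diag k (ms x) = ∑ i, k (x i) (x i) :=
  map_sum_ms x _

theorem cross_mono {k k' : E → E → ℝ} {X Y : Multiset E}
    (h : ∀ x ∈ X, ∀ y ∈ Y, k x y ≤ k' x y) : cross k X Y ≤ cross k' X Y := by
  unfold cross
  apply Multiset.sum_map_le_sum_map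
  intro x hx
  apply Multiset.sum_map_le_sum_map
  intro y hy
  exact h x hx y hy

theorem cross_congr {k k' : E → E → ℝ} {X Y : Multiset E}
    (h : ∀ x ∈ X, ∀ y ∈ Y, k x y = k' x y) : cross k X Y = cross k' X Y :=
  le_antisymm (cross_mono fun x hx y hy => (h x hx y hy).le)
    (cross_mono fun x hx y hy => (h x hx y hy).ge)

theorem cross_zero_ker (X Y : Multiset E) : cross (fun _ _ => 0) X Y = 0 := by
  simp [cross]

theorem cross_nonneg {k : E → E → ℝ} {X Y : Multiset E}
    (h : ∀ x ∈ X, ∀ y ∈ Y, 0 ≤ k x y) : 0 ≤ cross k X Y := by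
  rw [← cross_zero_ker X Y]
  exact cross_mono h

theorem cross_nonpos {k : E → E → ℝ} {X Y : Multiset E}
    (h : ∀ x ∈ X, ∀ y ∈ Y, k x y ≤ 0) : cross k X Y ≤ 0 := by
  rw [← cross_zero_ker X Y]
  exact cross_mono h

theorem cross_eq_zero {k : E → E → ℝ} {X Y : Multiset E}
    (h : ∀ x ∈ X, ∀ y ∈ Y, k x y = 0) : cross k X Y = 0 := by
  rw [← cross_zero_ker X Y]
  exact cross_congr h

theorem cross_add_ker (k k' : E → E → ℝ) (X Y : Multiset E) :
    cross (fun x y => k x y + k' x y) X Y = cross k X Y + cross k' X Y := by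
  simp [cross, Multiset.sum_map_add]

theorem cross_smul_ker (c : ℝ) (k : E → E → ℝ) (X Y : Multiset E) :
    cross (fun x y => c * k x y) X Y = c * cross k X Y := by
  simp [cross, Multiset.sum_map_mul_left]

theorem cross_sub_ker (k k' : E → E → ℝ) (X Y : Multiset E) :
    cross (fun x y => k x y - k' x y) X Y = cross k X Y - cross k' X Y := by
  have h1 := cross_add_ker k (fun x y => (-1) * k' x y) X Y
  rw [cross_smul_ker] at h1
  have h2 : (fun x y => k x y - k' x y) = fun x y => k x y + (-1) * k' x y := by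
    funext x y
    ring
  rw [h2, h1]
  ring

theorem cross_const (c : ℝ) (X Y : Multiset E) :
    cross (fun _ _ => c) X Y = c * (Multiset.card X : ℝ) * (Multiset.card Y : ℝ) := by
  simp [cross, Multiset.map_const', Multiset.sum_replicate, nsmul_eq_mul]
  ring

theorem dsum_add (k : E → E → ℝ) (X Y : Multiset E) :
    dsum k (X + Y) = dsum k X + dsum k Y + (cross k X Y + cross k Y X) := by
  unfold dsum
  rw [cross_add_left, cross_add_right, cross_add_right]
  ring

theorem diag_add (k : E → E → ℝ) (X Y : Multiset E) : diag k (X + Y) = diag k X + diag k Y := by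
  simp [diag]

theorem diag_const_of {k : E → E → ℝ} {c : ℝ} {X : Multiset E} (h : ∀ x ∈ X, k x x = c) :
    diag k X = c * (Multiset.card X : ℝ) := by
  unfold diag
  rw [Multiset.map_congr rfl h]
  simp [Multiset.map_const', Multiset.sum_replicate, nsmul_eq_mul]
  ring

theorem En_add (k : E → E → ℝ) (X Y : Multiset E) :
    En k (X + Y) = En k X + En k Y + (cross k X Y + cross k Y X) / 2 := by
  unfold En
  rw [dsum_add, diag_add]
  ring

theorem En_cons (k : E → E → ℝ) (a : E) (X : Multiset E) :
    En k (a ::ₘ X) = En k X + ((X.map fun y => k a y).sum + (X.map fun y => k y a).sum) / 2 := by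
  unfold En dsum diag
  rw [cross_cons_left, cross_cons_right]
  simp only [Multiset.map_cons, Multiset.sum_cons]
  ring

theorem En_zero (k : E → E → ℝ) : En k 0 = 0 := by
  simp [En, dsum, diag, cross]

theorem En_singleton (k : E → E → ℝ) (a : E) : En k {a} = 0 := by
  simp [En, dsum, diag, cross]

theorem diag_add_ker (k k' : E → E → ℝ) (X : Multiset E) :
    diag (fun x y => k x y + k' x y) X = diag k X + diag k' X := by
  simp [diag, Multiset.sum_map_add]

theorem diag_smul_ker (c : ℝ) (k : E → E → ℝ) (X : Multiset E) :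
    diag (fun x y => c * k x y) X = c * diag k X := by
  simp [diag, Multiset.sum_map_mul_left]

theorem En_add_ker (k k' : E → E → ℝ) (X : Multiset E) :
    En (fun x y => k x y + k' x y) X = En k X + En k' X := by
  unfold En dsum
  rw [cross_add_ker, diag_add_ker]
  ring

theorem En_smul_ker (c : ℝ) (k : E → E → ℝ) (X : Multiset E) :
    En (fun x y => c * k x y) X = c * En k X := by
  unfold En dsum
  rw [cross_smul_ker, diag_smul_ker]
  ring

theorem En_sub_ker (k k' : E → E → ℝ) (X : Multiset E) :
    En (fun x y => k x y - k' x y) X = En k X - En k' X := by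
  have h1 := En_add_ker k (fun x y => (-1) * k' x y) X
  rw [En_smul_ker] at h1
  have h2 : (fun x y => k x y - k' x y) = fun x y => k x y + (-1) * k' x y := by
    funext x y
    ring
  rw [h2, h1]
  ring

theorem En_const (c : ℝ) (X : Multiset E) :
    En (fun _ _ => c) X = c * ((Multiset.card X : ℝ) ^ 2 - (Multiset.card X : ℝ)) / 2 := by
  unfold En dsum
  rw [cross_const, diag_const_of (c := c) (fun _ _ => rfl)]
  ring

/-- (induction with `En_cons`) -/
theorem En_nonneg {k : E → E → ℝ} {X : Multiset E} (h : ∀ x ∈ X, ∀ y ∈ X, 0 ≤ k x y) :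
    0 ≤ En k X := by
  induction X using Multiset.induction_on with
  | empty => rw [En_zero]
  | cons a X ih =>
    rw [En_cons]
    have h1 : 0 ≤ En k X :=
      ih fun x hx y hy => h x (Multiset.mem_cons_of_mem hx) y (Multiset.mem_cons_of_mem hy)
    have h2 : 0 ≤ (X.map fun y => k a y).sum := by
      apply Multiset.sum_nonneg
      intro z hz
      obtain ⟨y, hy, rfl⟩ := Multiset.mem_map.1 hz
      exact h a (Multiset.mem_cons_self a X) y (Multiset.mem_cons_of_mem hy)
    have h3 : 0 ≤ (X.map fun y => k y a).sum := by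
      apply Multiset.sum_nonneg
      intro z hz
      obtain ⟨y, hy, rfl⟩ := Multiset.mem_map.1 hz
      exact h y (Multiset.mem_cons_of_mem hy) a (Multiset.mem_cons_self a X)
    linarith

theorem En_mono {k k' : E → E → ℝ} {X : Multiset E} (h : ∀ x ∈ X, ∀ y ∈ X, k x y ≤ k' x y) :
    En k X ≤ En k' X := by
  have h1 : 0 ≤ En (fun x y => k' x y - k x y) X :=
    En_nonneg fun x hx y hy => sub_nonneg.2 (h x hx y hy)
  rw [En_sub_ker] at h1
  linarith

theorem En_congr {k k' : E → E → ℝ} {X : Multiset E} (h : ∀ x ∈ X, ∀ y ∈ X, k x y = k' x y) :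
    En k X = En k' X :=
  le_antisymm (En_mono fun x hx y hy => (h x hx y hy).le)
    (En_mono fun x hx y hy => (h x hx y hy).ge)

theorem En_map_add {k : E → E → ℝ} (hk : ∀ v x y, k (x + v) (y + v) = k x y) (v : E)
    (X : Multiset E) : En k (X.map fun x => x + v) = En k X := by
  simp [En, dsum, diag, cross, Multiset.map_map, hk]

/-- for a symmetric kernel the energy is the sum over pairs `i < j` -/
theorem En_ms_pairs {k : E → E → ℝ} (hk : ∀ x y, k x y = k y x) {N : ℕ} (x : Fin N → E) :
    En k (ms x) = ∑ i, ∑ j ∈ Finset.univ.filter (fun j => i < j), k (x i) (x j) := by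
  unfold En
  rw [dsum_ms, diag_ms]
  simp_rw [Finset.sum_filter]
  have h1 : ∀ i j : Fin N, k (x i) (x j) = (if i < j then k (x i) (x j) else 0) +
      (if j < i then k (x i) (x j) else 0) + (if i = j then k (x i) (x i) else 0) := by
    intro i j
    rcases lt_trichotomy i j with h | h | h
    · simp [h, h.not_gt, h.ne]
    · subst h
      simp
    · simp [h, h.not_gt, h.ne']
  have h2 : ∑ i, ∑ j, k (x i) (x j) = (∑ i, ∑ j, if i < j then k (x i) (x j) else 0) +
      (∑ i, ∑ j, if j < i then k (x i) (x j) else 0) + ∑ i, k (x i) (x i) := by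
    rw [← Finset.sum_add_distrib, ← Finset.sum_add_distrib]
    apply Finset.sum_congr rfl
    intro i _
    have h3 : k (x i) (x i) = ∑ j, if i = j then k (x i) (x i) else 0 := by simp
    rw [h3, ← Finset.sum_add_distrib, ← Finset.sum_add_distrib]
    apply Finset.sum_congr rfl
    intro j _
    exact h1 i j
  have h4 : (∑ i, ∑ j, if j < i then k (x i) (x j) else 0) =
      ∑ i, ∑ j, if i < j then k (x i) (x j) else 0 := by
    rw [Finset.sum_comm]
    apply Finset.sum_congr rfl
    intro i _
    apply Finset.sum_congr rfl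
    intro j _
    rw [hk]
  rw [h2, h4]
  ring

theorem sum_map_filter_ite (p : E → Prop) [DecidablePred p] (f : E → ℝ) (X : Multiset E) :
    ((X.filter p).map f).sum = (X.map fun x => if p x then f x else 0).sum := by
  induction X using Multiset.induction_on with
  | empty => simp
  | cons a X ih => by_cases h : p a <;> simp [h, ih]

theorem dsum_filter (k : E → E → ℝ) (p : E → Prop) [DecidablePred p] (X : Multiset E) :
    dsum k (X.filter p) = dsum (fun x y => if p x ∧ p y then k x y else 0) X := by
  unfold dsum cross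
  rw [sum_map_filter_ite]
  congr 1
  apply Multiset.map_congr rfl
  intro x _
  rw [sum_map_filter_ite]
  by_cases h : p x <;> simp [h]

/-- restriction to a sub-configuration, for nonnegative kernels -/
theorem dsum_filter_le {k : E → E → ℝ} (hk : ∀ x y, 0 ≤ k x y) (p : E → Prop) [DecidablePred p]
    (X : Multiset E) : dsum k (X.filter p) ≤ dsum k X := by
  rw [dsum_filter]
  apply cross_mono
  intro x _ y _
  split_ifs
  · exact le_refl _
  · exact hk x y

end Vale.Agent.Lib.P171
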