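import Vale.Agent.Lib.P171.LensBasic
import Vale.Agent.Lib.P171.EnBasic

/-!
# P171, layer 1: positive definiteness of the lens kernel (lower bound for the Kac energy)
-/

namespace Vale.Agent.Lib.P171

open MeasureTheory Set
open scoped ENNReal

/-- Let `n ξ = ∑_{x ∈ X} 1_{B(x,R)}(ξ)`. Then `∫_D n = N vB R`, `∫_D n² = dsum (lensK R) X`
(`lensK_eq_integral`) and `0 ≤ ∫_D (n - lam)²`. -/
theorem dsum_lensK_ge {R : ℝ} (hR : 0 < R) {D : Set E} (hD : MeasurableSet D)
    (hDfin : volume D ≠ ∞) {X : Multiset E} (hX : ∀ x ∈ X, Metric.ball x R ⊆ D) (lam : ℝ) :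
    2 * lam * vB R * (Multiset.card X : ℝ) - lam ^ 2 * (volume D).toReal
      ≤ dsum (lensK R) X := by
  obtain ⟨x, hx⟩ := exists_ms X
  have hxD : ∀ i, Metric.ball (x i) R ⊆ D := by
    intro i
    apply hX
    rw [← hx]
    exact Multiset.mem_map.mpr ⟨i, Finset.mem_univ_val i, rfl⟩
  have : IsFiniteMeasure (volume.restrict D) := ⟨by simpa using hDfin.lt_top⟩
  set ind : Fin (Multiset.card X) → E → ℝ :=
    fun i => (Metric.ball (x i) R).indicator (fun _ => (1 : ℝ)) with hind
  have hint1 : ∀ i, Integrable (ind i) (volume.restrict D) := fun i =>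
    (integrable_const (1 : ℝ)).indicator Metric.isOpen_ball.measurableSet
  have hint2 : ∀ i j, Integrable (fun ξ => ind i ξ * ind j ξ) (volume.restrict D) := by
    intro i j
    have h := (hint1 j).indicator (Metric.isOpen_ball (x := x i) (ε := R)).measurableSet
    refine h.congr (Filter.Eventually.of_forall fun ξ => ?_)
    by_cases h1 : ξ ∈ Metric.ball (x i) R
    · simp [hind, Set.indicator_of_mem h1]
    · simp [hind, Set.indicator_of_notMem h1]
  have hI2 : ∀ i j, ∫ ξ in D, ind i ξ * ind j ξ = lensK R (x i) (x j) := fun i j =>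
    (lensK_eq_integral hD (hxD i)).symm
  have hI1 : ∀ i, ∫ ξ in D, ind i ξ = vB R := by
    intro i
    rw [← lensK_self R (x i), ← hI2 i i]
    refine integral_congr_ae (Filter.Eventually.of_forall fun ξ => ?_)
    by_cases h1 : ξ ∈ Metric.ball (x i) R
    · simp [hind, Set.indicator_of_mem h1]
    · simp [hind, Set.indicator_of_notMem h1]
  have hpos : 0 ≤ ∫ ξ in D, ((∑ i, ind i ξ) - lam) ^ 2 :=
    integral_nonneg fun ξ => sq_nonneg _
  have hexp : ∀ ξ, ((∑ i, ind i ξ) - lam) ^ 2
      = (∑ i, ∑ j, ind i ξ * ind j ξ) - 2 * lam * (∑ i, ind i ξ) + lam ^ 2 := by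
    intro ξ
    rw [← Finset.sum_mul_sum]
    ring
  have hA : Integrable (fun ξ => ∑ i, ∑ j, ind i ξ * ind j ξ) (volume.restrict D) :=
    integrable_finsetSum _ fun i _ => integrable_finsetSum _ fun j _ => hint2 i j
  have hB : Integrable (fun ξ => ∑ i, ind i ξ) (volume.restrict D) :=
    integrable_finsetSum _ fun i _ => hint1 i
  have hcalc : ∫ ξ in D, ((∑ i, ind i ξ) - lam) ^ 2
      = dsum (lensK R) X - 2 * lam * (vB R * (Multiset.card X : ℝ))
        + lam ^ 2 * (volume D).toReal := by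
    simp_rw [hexp]
    have e1 := integral_add (hA.sub (hB.const_mul (2 * lam))) (integrable_const (lam ^ 2))
    have e2 := integral_sub hA (hB.const_mul (2 * lam))
    simp only [Pi.sub_apply] at e1
    rw [e1, e2, integral_const_mul,
      integral_finsetSum _ fun i _ => hint1 i,
      integral_finsetSum _ fun i _ => integrable_finsetSum _ fun j _ => hint2 i j]
    have h3 : ∀ i, ∫ ξ in D, ∑ j, ind i ξ * ind j ξ = ∑ j, lensK R (x i) (x j) := by
      intro i
      rw [integral_finsetSum _ fun j _ => hint2 i j]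
      exact Finset.sum_congr rfl fun j _ => hI2 i j
    simp_rw [h3, hI1]
    have h4 : dsum (lensK R) X = ∑ i, ∑ j, lensK R (x i) (x j) := by
      have := dsum_ms (lensK R) x
      rwa [hx] at this
    rw [h4]
    simp [Measure.real, mul_comm]
  rw [hcalc] at hpos
  linarith

/-- (take `lam = ν vB R / (2 c)`; the diagonal of `kac c R` is `2 c / vB R`) -/
theorem En_kac_ge {c R : ℝ} (hc : 0 < c) (hR : 0 < R) {D : Set E} (hD : MeasurableSet D)
    (hDfin : volume D ≠ ∞) {X : Multiset E} (hX : ∀ x ∈ X, Metric.ball x R ⊆ D) (ν : ℝ) :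
    ν * (Multiset.card X : ℝ) - ν ^ 2 * (volume D).toReal / (4 * c)
      - c / vB R * (Multiset.card X : ℝ) ≤ En (kac c R) X := by
  have hv : 0 < vB R := vB_pos hR
  have h1 := dsum_lensK_ge hR hD hDfin hX (ν * vB R / (2 * c))
  have hd : diag (kac c R) X = 2 * c / vB R * (Multiset.card X : ℝ) :=
    diag_const_of fun x _ => kac_self hR c x
  have hs : dsum (kac c R) X = 2 * c / vB R ^ 2 * dsum (lensK R) X := by
    unfold dsum
    exact cross_smul_ker _ _ _ _
  unfold En
  rw [hd, hs]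
  have h2 : 2 * c / vB R ^ 2 * (2 * (ν * vB R / (2 * c)) * vB R * (Multiset.card X : ℝ)
      - (ν * vB R / (2 * c)) ^ 2 * (volume D).toReal)
      ≤ 2 * c / vB R ^ 2 * dsum (lensK R) X :=
    mul_le_mul_of_nonneg_left h1 (by positivity)
  have h3 : 2 * c / vB R ^ 2 * (2 * (ν * vB R / (2 * c)) * vB R * (Multiset.card X : ℝ)
      - (ν * vB R / (2 * c)) ^ 2 * (volume D).toReal)
      = 2 * ν * (Multiset.card X : ℝ) - ν ^ 2 * (volume D).toReal / (2 * c) := by
    field_simp
  rw [h3] at h2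
  have h4 : ν ^ 2 * (volume D).toReal / (4 * c) = (ν ^ 2 * (volume D).toReal / (2 * c)) / 2 := by
    field_simp
    ring
  have h5 : c / vB R * (Multiset.card X : ℝ) = (2 * c / vB R * (Multiset.card X : ℝ)) / 2 := by
    ring
  rw [h4, h5]
  linarith

end Vale.Agent.Lib.P171
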