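import Vale.Agent.Lib.P171.LensBasic
import Vale.Agent.Lib.P171.Stab

/-!
# P171, layer 1: the lens kernel is dominated by the cell occupation numbers
-/

namespace Vale.Agent.Lib.P171

open MeasureTheory Set
open scoped ENNReal

/-- discrete Schur test with weights `n` -/
theorem schur_aux {N : ℕ} (K : Fin N → Fin N → ℝ) (n : Fin N → ℝ) (C : ℝ)
    (hK : ∀ i j, 0 ≤ K i j) (hs : ∀ i j, K i j = K j i) (hn : ∀ i, 0 < n i)
    (hC : ∀ i, ∑ j, K i j / n j ≤ C) : ∑ i, ∑ j, K i j ≤ C * ∑ i, n i := by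
  have h1 : ∀ i j, K i j ≤ (K i j * (n i / n j) + K i j * (n j / n i)) / 2 := by
    intro i j
    have h2 : 2 ≤ n i / n j + n j / n i := by
      have hi := hn i
      have hj := hn j
      rw [div_add_div _ _ hj.ne' hi.ne', le_div_iff₀ (by positivity)]
      nlinarith [sq_nonneg (n i - n j)]
    nlinarith [hK i j]
  have h3 : ∑ i, ∑ j, K i j * (n j / n i) = ∑ i, ∑ j, K i j * (n i / n j) := by
    rw [Finset.sum_comm]
    refine Finset.sum_congr rfl fun i _ => Finset.sum_congr rfl fun j _ => ?_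
    rw [hs]
  calc ∑ i, ∑ j, K i j ≤ ∑ i, ∑ j, (K i j * (n i / n j) + K i j * (n j / n i)) / 2 :=
        Finset.sum_le_sum fun i _ => Finset.sum_le_sum fun j _ => h1 i j
    _ = ∑ i, ∑ j, K i j * (n i / n j) := by
        simp_rw [← Finset.sum_div, Finset.sum_add_distrib]
        rw [h3]
        ring
    _ = ∑ i, n i * ∑ j, K i j / n j := by
        refine Finset.sum_congr rfl fun i _ => ?_
        rw [Finset.mul_sum]
        refine Finset.sum_congr rfl fun j _ => ?_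
        ring
    _ ≤ ∑ i, n i * C := Finset.sum_le_sum fun i _ => mul_le_mul_of_nonneg_left (hC i) (hn i).le
    _ = C * ∑ i, n i := by
        rw [← Finset.sum_mul]
        ring

/-- a finite sum of integrals whose integrands add up to at most `C` -/
theorem sum_integral_le {N : ℕ} (μ : Measure E) [IsFiniteMeasure μ] (f : Fin N → E → ℝ)
    (hf : ∀ j, Integrable (f j) μ) (C : ℝ) (h : ∀ y, ∑ j, f j y ≤ C) :
    ∑ j, ∫ y, f j y ∂μ ≤ C * μ.real univ := by
  rw [← integral_finsetSum _ fun j _ => hf j]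
  calc ∫ y, ∑ j, f j y ∂μ ≤ ∫ _, C ∂μ :=
        integral_mono (integrable_finsetSum _ fun j _ => hf j) (integrable_const C) h
    _ = C * μ.real univ := by
        rw [integral_const, smul_eq_mul, mul_comm]

theorem same_eq_indicator (ℓ σ : ℝ) (x y : E) :
    same ℓ σ x y = (cell ℓ σ (cellIdx ℓ σ x)).indicator (fun _ => (1 : ℝ)) y := by
  classical
  unfold same cell
  by_cases h : cellIdx ℓ σ x = cellIdx ℓ σ y
  · rw [if_pos h, indicator_of_mem]
    exact h.symm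
  · rw [if_neg h, indicator_of_notMem]
    intro h'
    exact h h'.symm

/-- the occupation number of the cell of `x j` -/
theorem occ_pos (ℓ σ : ℝ) {N : ℕ} (x : Fin N → E) (j : Fin N) :
    0 < ∑ k, same ℓ σ (x j) (x k) := by
  have h1 : same ℓ σ (x j) (x j) ≤ ∑ k, same ℓ σ (x j) (x k) :=
    Finset.single_le_sum (f := fun k => same ℓ σ (x j) (x k))
      (fun k _ => same_nonneg ℓ σ (x j) (x k)) (Finset.mem_univ j)
  rw [same_self] at h1
  linarith

/-- every point lies in at most one occupied cell, counted with weight one -/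
theorem sum_same_div_le (ℓ σ : ℝ) {N : ℕ} (x : Fin N → E) (y : E) :
    ∑ j, same ℓ σ (x j) y / ∑ k, same ℓ σ (x j) (x k) ≤ 1 := by
  classical
  have h1 : ∀ j, same ℓ σ (x j) y / ∑ k, same ℓ σ (x j) (x k)
      = same ℓ σ (x j) y / ∑ k, same ℓ σ (x k) y := by
    intro j
    by_cases h : cellIdx ℓ σ (x j) = cellIdx ℓ σ y
    · congr 1
      refine Finset.sum_congr rfl fun k _ => ?_
      rw [same_symm ℓ σ (x k) y]
      unfold same
      rw [h]
    · have : same ℓ σ (x j) y = 0 := by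
        unfold same
        rw [if_neg h]
      rw [this, zero_div, zero_div]
  simp_rw [h1]
  rw [← Finset.sum_div]
  exact div_self_le_one _

theorem vB_mono {R R' : ℝ} (h : R ≤ R') : vB R ≤ vB R' := by
  unfold vB
  exact ENNReal.toReal_mono measure_ball_lt_top.ne (measure_mono (Metric.ball_subset_ball h))

theorem vB_nonneg (R : ℝ) : 0 ≤ vB R := ENNReal.toReal_nonneg

/-- the cell of a point of `B(ξ, R)` lies in `B(ξ, R + √3 ℓ)` -/
theorem cell_subset_ball {R ℓ : ℝ} (hℓ : 0 < ℓ) (σ : ℝ) {a ξ : E} (h : ξ ∈ Metric.ball a R) :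
    cell ℓ σ (cellIdx ℓ σ a) ⊆ Metric.ball ξ (R + Real.sqrt 3 * ℓ) := by
  intro y hy
  have h1 : ‖y - a‖ ≤ Real.sqrt 3 * ℓ := norm_sub_le_of_same hℓ hy
  rw [Metric.mem_ball, dist_eq_norm] at h ⊢
  have h2 : ‖y - ξ‖ ≤ ‖y - a‖ + ‖a - ξ‖ := by
    have := norm_add_le (y - a) (a - ξ)
    simpa using this
  rw [norm_sub_rev] at h
  linarith

theorem restrict_ball_real (x : E) (R : ℝ) :
    (volume.restrict (Metric.ball x R)).real univ = vB R := by
  rw [measureReal_def, Measure.restrict_apply MeasurableSet.univ, univ_inter, volume_ball_toReal]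

instance finite_restrict_ball (x : E) (R : ℝ) :
    IsFiniteMeasure (volume.restrict (Metric.ball x R)) :=
  isFiniteMeasure_restrict.2 measure_ball_lt_top.ne

/-- pointwise bound: the weighted number of points of `X` in `B(ξ, R)` -/
theorem count_le {R ℓ : ℝ} (hℓ : 0 < ℓ) (σ : ℝ) {N : ℕ} (x : Fin N → E) (ξ : E) :
    ∑ j, (Metric.ball (x j) R).indicator (fun _ => (1 : ℝ)) ξ / (∑ k, same ℓ σ (x j) (x k))
      ≤ vB (R + Real.sqrt 3 * ℓ) / ℓ ^ 3 := by
  set R' := R + Real.sqrt 3 * ℓ with hR'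
  set μ := volume.restrict (Metric.ball ξ R') with hμ
  have hint : ∀ j, Integrable (fun y => same ℓ σ (x j) y) μ := by
    intro j
    simp_rw [same_eq_indicator]
    exact (integrable_const (1 : ℝ)).indicator (measurableSet_cell _ _ _)
  have key : ∀ j, (Metric.ball (x j) R).indicator (fun _ => (1 : ℝ)) ξ * ℓ ^ 3
      ≤ ∫ y, same ℓ σ (x j) y ∂μ := by
    intro j
    by_cases h : ξ ∈ Metric.ball (x j) R
    · rw [indicator_of_mem h, one_mul]
      simp_rw [same_eq_indicator]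
      have h2 : ∫ y, (cell ℓ σ (cellIdx ℓ σ (x j))).indicator (fun _ => (1 : ℝ)) y ∂μ
          = μ.real (cell ℓ σ (cellIdx ℓ σ (x j))) :=
        integral_indicator_one (measurableSet_cell _ _ _)
      rw [h2, measureReal_def, hμ, Measure.restrict_apply (measurableSet_cell _ _ _),
        inter_eq_left.2 (cell_subset_ball hℓ σ h), volume_cell hℓ,
        ENNReal.toReal_ofReal (by positivity)]
    · rw [indicator_of_notMem h, zero_mul]
      exact integral_nonneg fun y => same_nonneg ℓ σ (x j) y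
  have h3 : ∑ j, ∫ y, same ℓ σ (x j) y / (∑ k, same ℓ σ (x j) (x k)) ∂μ ≤ 1 * μ.real univ :=
    sum_integral_le μ (fun j y => same ℓ σ (x j) y / (∑ k, same ℓ σ (x j) (x k)))
      (fun j => (hint j).div_const _) 1 (sum_same_div_le ℓ σ x)
  rw [hμ, restrict_ball_real, one_mul, ← hμ] at h3
  rw [le_div_iff₀ (by positivity), Finset.sum_mul]
  refine le_trans (Finset.sum_le_sum fun j _ => ?_) h3
  rw [integral_div, div_mul_eq_mul_div]
  exact div_le_div_of_nonneg_right (key j) (occ_pos ℓ σ x j).le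

/-- row sums of the Schur test -/
theorem row_le {R ℓ : ℝ} (hℓ : 0 < ℓ) (σ : ℝ) {N : ℕ} (x : Fin N → E) (i : Fin N) :
    ∑ j, lensK R (x i) (x j) / (∑ k, same ℓ σ (x j) (x k))
      ≤ vB (R + Real.sqrt 3 * ℓ) / ℓ ^ 3 * vB R := by
  set μ := volume.restrict (Metric.ball (x i) R) with hμ
  have hind : ∀ j, Integrable (fun ξ => (Metric.ball (x j) R).indicator (fun _ => (1 : ℝ)) ξ) μ :=
    fun j => (integrable_const (1 : ℝ)).indicator measurableSet_ball
  have hint : ∀ j, Integrable (fun ξ => (Metric.ball (x i) R).indicator (fun _ => (1 : ℝ)) ξ *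
      (Metric.ball (x j) R).indicator (fun _ => (1 : ℝ)) ξ) μ := by
    intro j
    have h1 : (fun ξ => (Metric.ball (x i) R).indicator (fun _ => (1 : ℝ)) ξ *
        (Metric.ball (x j) R).indicator (fun _ => (1 : ℝ)) ξ)
        = (Metric.ball (x i) R).indicator
          (fun ξ => (Metric.ball (x j) R).indicator (fun _ => (1 : ℝ)) ξ) := by
      funext ξ
      by_cases h : ξ ∈ Metric.ball (x i) R
      · rw [indicator_of_mem h, indicator_of_mem h, one_mul]
      · rw [indicator_of_notMem h, indicator_of_notMem h, zero_mul]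
    rw [h1]
    exact (hind j).indicator measurableSet_ball
  have h3 := sum_integral_le μ (fun j ξ => (Metric.ball (x i) R).indicator (fun _ => (1 : ℝ)) ξ *
      (Metric.ball (x j) R).indicator (fun _ => (1 : ℝ)) ξ / (∑ k, same ℓ σ (x j) (x k)))
      (fun j => (hint j).div_const _) (vB (R + Real.sqrt 3 * ℓ) / ℓ ^ 3) (by
        intro ξ
        refine le_trans (Finset.sum_le_sum fun j _ => ?_) (count_le (R := R) hℓ σ x ξ)
        apply div_le_div_of_nonneg_right _ (occ_pos ℓ σ x j).le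
        have h5 : (Metric.ball (x i) R).indicator (fun _ => (1 : ℝ)) ξ ≤ 1 :=
          indicator_le_self' (fun _ _ => zero_le_one) ξ
        have h6 : 0 ≤ (Metric.ball (x j) R).indicator (fun _ => (1 : ℝ)) ξ :=
          indicator_nonneg (fun _ _ => zero_le_one) ξ
        nlinarith)
  rw [hμ, restrict_ball_real, ← hμ] at h3
  refine le_trans (le_of_eq (Finset.sum_congr rfl fun j _ => ?_)) h3
  rw [integral_div, lensK_eq_integral measurableSet_ball (subset_refl _)]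

/-- **Cell bound.** Put `R' = R + √3 ℓ`, `c(x)` the cell of `x`, `n_x = ∑_{y ∈ X} same x y ≥ 1` the
number of points of `X` in `c(x)`, `f_x ξ = ℓ⁻³ vol (c(x) ∩ B(ξ,R'))`.
(1) `1_{B(ξ,R)}(x) ≤ f_x ξ` (if `‖x - ξ‖ < R` the whole cell lies in `B(ξ,R')`, `volume_cell`).
(2) Cauchy-Schwarz over the points of `X`: `(∑_x f_x)² ≤ (∑_x n_x f_x) (∑_x f_x / n_x)`.
(3) `∑_x f_x ξ / n_x ≤ ℓ⁻³ vB R'` since `∑_x 1_{c(x)}(y) / n_x ≤ 1` for all `y`.
(4) `∫ f_x ξ dξ = vB R'` (Tonelli). Hence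
`dsum (lensK R) X = ∫ (∑_x 1_{B(ξ,R)}(x))² dξ ≤ ℓ⁻³ vB R' ∑_x n_x ∫ f_x = ℓ⁻³ (vB R')² ∑_x n_x`
and `∑_x n_x = dsum (same ℓ σ) X`.
(An alternative: `lensK R x y ≤ ℓ⁻³ ∫_{c(y)} lensK R' x y' dy'`, `∫ lensK R' x y' dy' = (vB R')²` and the
Schur test `∑_{x,y} K̄(c(x),c(y)) ≤ ∑_x n_x ∑_{cells} K̄(c(x),·)`.)
The proof below uses the Schur test with weights `n_x` and the pointwise bound `count_le`. -/
theorem dsum_lensK_le {R ℓ : ℝ} (hR : 0 < R) (hℓ : 0 < ℓ) (σ : ℝ) (X : Multiset E) :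
    dsum (lensK R) X ≤ vB (R + Real.sqrt 3 * ℓ) ^ 2 / ℓ ^ 3 * dsum (same ℓ σ) X := by
  obtain ⟨x, hx⟩ := exists_ms X
  rw [← hx, dsum_ms, dsum_ms]
  have h1 := schur_aux (fun i j => lensK R (x i) (x j)) (fun i => ∑ k, same ℓ σ (x i) (x k))
    (vB (R + Real.sqrt 3 * ℓ) / ℓ ^ 3 * vB R) (fun i j => lensK_nonneg _ _ _)
    (fun i j => lensK_symm _ _ _) (occ_pos ℓ σ x) (row_le hℓ σ x)
  refine le_trans h1 (mul_le_mul_of_nonneg_right ?_
    (Finset.sum_nonneg fun i _ => (occ_pos ℓ σ x i).le))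
  have h2 : vB R ≤ vB (R + Real.sqrt 3 * ℓ) :=
    vB_mono (by have := Real.sqrt_nonneg 3; nlinarith)
  have h3 : 0 ≤ vB (R + Real.sqrt 3 * ℓ) / ℓ ^ 3 := div_nonneg (vB_nonneg _) (by positivity)
  calc vB (R + Real.sqrt 3 * ℓ) / ℓ ^ 3 * vB R
      ≤ vB (R + Real.sqrt 3 * ℓ) / ℓ ^ 3 * vB (R + Real.sqrt 3 * ℓ) :=
        mul_le_mul_of_nonneg_left h2 h3
    _ = vB (R + Real.sqrt 3 * ℓ) ^ 2 / ℓ ^ 3 := by ring

/-- the full double sum of the Kac kernel -/
theorem dsum_kac_le {c R ℓ : ℝ} (hc : 0 ≤ c) (hR : 0 < R) (hℓ : 0 < ℓ) (σ : ℝ) (X : Multiset E) :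
    dsum (kac c R) X ≤ 2 * (c * (1 + Real.sqrt 3 * ℓ / R) ^ 6 / ℓ ^ 3) * dsum (same ℓ σ) X := by
  have h1 : dsum (kac c R) X = 2 * c / vB R ^ 2 * dsum (lensK R) X :=
    cross_smul_ker (2 * c / vB R ^ 2) (lensK R) X X
  have hs : 0 ≤ Real.sqrt 3 := Real.sqrt_nonneg 3
  have h2 : vB (R + Real.sqrt 3 * ℓ) = (R + Real.sqrt 3 * ℓ) ^ 3 * vB 1 := vB_eq (by positivity)
  have h3 : vB R = R ^ 3 * vB 1 := vB_eq hR.le
  have h4 : 0 < vB 1 := vB_pos one_pos
  have h5 := dsum_lensK_le hR hℓ σ X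
  have h6 : 0 ≤ 2 * c / vB R ^ 2 := by positivity
  rw [h1]
  refine le_trans (mul_le_mul_of_nonneg_left h5 h6) (le_of_eq ?_)
  rw [h2, h3]
  field_simp

/-- (`vB_eq`; drop the nonnegative diagonal) -/
theorem En_kac_le {c R ℓ : ℝ} (hc : 0 ≤ c) (hR : 0 < R) (hℓ : 0 < ℓ) (σ : ℝ) (X : Multiset E) :
    En (kac c R) X ≤ c * (1 + Real.sqrt 3 * ℓ / R) ^ 6 / ℓ ^ 3 * dsum (same ℓ σ) X := by
  have h1 := dsum_kac_le hc hR hℓ σ X
  have h2 : 0 ≤ diag (kac c R) X := by
    unfold diag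
    apply Multiset.sum_nonneg
    intro z hz
    obtain ⟨y, _, rfl⟩ := Multiset.mem_map.1 hz
    exact kac_nonneg hc R y y
  unfold En
  linarith

/-- (`ℓ = 1/2`, `σ = 0`, `(1 + √3/16)^6 ≤ 2`) -/
theorem isAttr_kac {c R : ℝ} (hc : 0 ≤ c) (hR : 8 ≤ R) : IsAttr (kac c R) (16 * c) := by
  have hR0 : 0 < R := by linarith
  refine ⟨kac_nonneg hc R, kac_symm c R, measurable_kac c R, kac_transl c R, fun X => ?_⟩
  have h1 := dsum_kac_le hc hR0 (by norm_num : (0 : ℝ) < 1 / 2) 0 X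
  have h2 : 0 ≤ SC X := SC_nonneg X
  have hs : Real.sqrt 3 ≤ 1.7321 := by
    rw [Real.sqrt_le_left (by norm_num)]
    norm_num
  have hs0 : 0 ≤ Real.sqrt 3 := Real.sqrt_nonneg 3
  have h3 : Real.sqrt 3 * (1 / 2) / R ≤ 0.10826 := by
    rw [div_le_iff₀ hR0]
    nlinarith
  have h4 : (1 + Real.sqrt 3 * (1 / 2) / R) ^ 6 ≤ 2 := by
    calc (1 + Real.sqrt 3 * (1 / 2) / R) ^ 6 ≤ (1 + 0.10826) ^ 6 :=
          pow_le_pow_left₀ (by positivity) (by linarith) 6
      _ ≤ 2 := by norm_num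
  refine le_trans h1 ?_
  change _ ≤ 2 * (16 * c) * dsum (same (1 / 2) 0) X
  apply mul_le_mul_of_nonneg_right _ h2
  have h5 : c * (1 + Real.sqrt 3 * (1 / 2) / R) ^ 6 ≤ c * 2 := mul_le_mul_of_nonneg_left h4 hc
  have h6 : c * (1 + Real.sqrt 3 * (1 / 2) / R) ^ 6 / (1 / 2) ^ 3
      = 8 * (c * (1 + Real.sqrt 3 * (1 / 2) / R) ^ 6) := by ring
  rw [h6]
  linarith

end Vale.Agent.Lib.P171
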