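import Vale.Agent.Lib.P171.PressBound
import Vale.Agent.Lib.P171.LensLower
import Vale.Agent.Lib.P171.LensUpper
import Vale.Agent.Lib.P171.SupConv

/-!
# P171, layer 3: lower bound for the pressure with an additional Kac attraction
-/

namespace Vale.Agent.Lib.P171

open MeasureTheory Set Filter Topology
open scoped ENNReal

/-- the enlarged cube `[-R, L + R]³` -/
def bigBox (L R : ℝ) : Set E := (fun x => x + vec (fun _ => -R)) '' box (L + 2 * R)

theorem measurableSet_bigBox (L R : ℝ) : MeasurableSet (bigBox L R) :=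
  (measurableEmbedding_addRight _).measurableSet_image.2 (measurableSet_box _)

theorem volume_bigBox {L R : ℝ} (h : 0 ≤ L + 2 * R) :
    volume (bigBox L R) = ENNReal.ofReal ((L + 2 * R) ^ 3) := by
  unfold bigBox
  rw [Set.image_add_right, measure_preimage_add_right, volume_box h]

theorem ball_subset_bigBox {L R : ℝ} {x : E} (hx : x ∈ box L) :
    Metric.ball x R ⊆ bigBox L R := by
  intro y hy
  rw [Metric.mem_ball, dist_eq_norm] at hy
  refine ⟨y - vec (fun _ => -R), ?_, by simp⟩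
  intro i
  have h1 : |(y - x) i| ≤ ‖y - x‖ := abs_coord_le_norm (y - x) i
  have h2 : (y - x) i = y i - x i := by simp
  have h3 : (y - vec (fun _ => -R)) i = y i + R := by simp
  rw [h2] at h1
  have h4 := abs_le.1 (le_trans h1 hy.le)
  have h5 := hx i
  rw [h3]
  constructor <;> linarith [h4.1, h4.2, h5.1, h5.2]

/-- Finite volume. Let `D = {x | ∀ i, -R ≤ x i ≤ L + R}` (a translate of `box (L + 2R)`, volume
`(L + 2R)³`); it contains `ball x R` for `x ∈ box L`. By `En_kac_ge`, for `X` in `box L`,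
`En (ker a (A + kac)) X = En (ker a A) X - En kac X
   ≤ En (ker a A) X - ν N + ν² |D| / (4c) + c N / vB R`, so
`Wt new μ X ≥ exp (-ν² |D| / (4c)) * Wt ref (μ + ν - c / vB R) X`;
`Xi_mono_on`, `Xi_const_mul`, `le_lp_of_le_Xi`, `Xi_box_eq`. -/
theorem lp_kac_ge {A : E → E → ℝ} {κ a c R : ℝ} (hA : IsAttr A κ) (hc : 0 < c) (hR : 8 ≤ R)
    (ha : 2 * (κ + 16 * c) ≤ a) (μ ν : ℝ) {L : ℝ} (hL : 0 ≤ L) :
    lp (ker a A) (μ + ν - c / vB R) L - ν ^ 2 * (L + 2 * R) ^ 3 / (4 * c)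
      ≤ lp (ker a (fun x y => A x y + kac c R x y)) μ L := by
  have hR0 : 0 < R := by linarith
  have hLR : 0 ≤ L + 2 * R := by linarith
  have hnew : Adm (ker a (fun x y => A x y + kac c R x y)) (κ + 16 * c) :=
    adm_ker (hA.add (isAttr_kac hc.le hR)) ha
  have href : Adm (ker a A) κ := adm_ker hA (by linarith)
  have hvol := volume_bigBox (L := L) (R := R) hLR
  have hfin : volume (bigBox L R) ≠ ∞ := by
    rw [hvol]
    exact ENNReal.ofReal_ne_top
  have hvr : (volume (bigBox L R)).toReal = (L + 2 * R) ^ 3 := by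
    rw [hvol, ENNReal.toReal_ofReal (by positivity)]
  apply le_lp_of_le_Xi hnew hL
  have key : ∀ X, Sub X (box L) →
      ENNReal.ofReal (Real.exp (-(ν ^ 2 * (L + 2 * R) ^ 3 / (4 * c)))) *
        Wt (ker a A) (μ + ν - c / vB R) X
      ≤ Wt (ker a (fun x y => A x y + kac c R x y)) μ X := by
    intro X hX
    have h1 := En_kac_ge hc hR0 (measurableSet_bigBox L R) hfin
      (X := X) (fun x hx => ball_subset_bigBox (hX x hx)) ν
    rw [hvr] at h1
    unfold Wt
    rw [← ENNReal.ofReal_mul (Real.exp_pos _).le, ← Real.exp_add]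
    refine ENNReal.ofReal_le_ofReal (Real.exp_le_exp.2 ?_)
    rw [En_ker, En_ker, En_add_ker]
    nlinarith
  calc ENNReal.ofReal (Real.exp (lp (ker a A) (μ + ν - c / vB R) L
        - ν ^ 2 * (L + 2 * R) ^ 3 / (4 * c)))
      = ENNReal.ofReal (Real.exp (-(ν ^ 2 * (L + 2 * R) ^ 3 / (4 * c)))) *
          Xi (box L) (Wt (ker a A) (μ + ν - c / vB R)) := by
        rw [Xi_box_eq href _ hL, ← ENNReal.ofReal_mul (Real.exp_pos _).le, ← Real.exp_add]
        congr 2
        ring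
    _ = Xi (box L) (fun X => ENNReal.ofReal (Real.exp (-(ν ^ 2 * (L + 2 * R) ^ 3 / (4 * c)))) *
          Wt (ker a A) (μ + ν - c / vB R) X) :=
        (Xi_const_mul _ _ (measW_Wt href.meas _)).symm
    _ ≤ Xi (box L) (Wt (ker a (fun x y => A x y + kac c R x y)) μ) :=
        Xi_mono_on (measurableSet_box L) key

/-- (divide by `L³` and let `L → ∞`: `tendsto_press`, `le_press_of_eventually`) -/
theorem press_kac_ge {A : E → E → ℝ} {κ a c R : ℝ} (hA : IsAttr A κ) (hc : 0 < c) (hR : 8 ≤ R)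
    (ha : 2 * (κ + 16 * c) ≤ a) (μ ν : ℝ) :
    press (ker a A) (μ + ν - c / vB R) - ν ^ 2 / (4 * c)
      ≤ press (ker a (fun x y => A x y + kac c R x y)) μ := by
  have hnew : Adm (ker a (fun x y => A x y + kac c R x y)) (κ + 16 * c) :=
    adm_ker (hA.add (isAttr_kac hc.le hR)) ha
  have href : Adm (ker a A) κ := adm_ker hA (by linarith)
  have h1 : Tendsto (fun L : ℝ => (1 + 2 * R / L) ^ 3) atTop (𝓝 ((1 + 0) ^ 3)) :=
    ((tendsto_const_nhds.div_atTop tendsto_id).const_add 1).pow 3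
  have h2 : Tendsto (fun L : ℝ => lp (ker a A) (μ + ν - c / vB R) L / L ^ 3
      - ν ^ 2 / (4 * c) * (1 + 2 * R / L) ^ 3) atTop
      (𝓝 (press (ker a A) (μ + ν - c / vB R) - ν ^ 2 / (4 * c) * (1 + 0) ^ 3)) :=
    (tendsto_press href _).sub (h1.const_mul _)
  have h3 : press (ker a A) (μ + ν - c / vB R) - ν ^ 2 / (4 * c) * (1 + 0) ^ 3
      = press (ker a A) (μ + ν - c / vB R) - ν ^ 2 / (4 * c) := by ring
  rw [h3] at h2
  refine le_press_of_eventually hnew h2 ?_
  filter_upwards [eventually_gt_atTop (0 : ℝ)] with L hL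
  have h4 := lp_kac_ge hA hc hR ha μ ν hL.le
  have h5 : (0 : ℝ) < L ^ 3 := by positivity
  rw [le_div_iff₀ h5]
  have h6 : (lp (ker a A) (μ + ν - c / vB R) L / L ^ 3
      - ν ^ 2 / (4 * c) * (1 + 2 * R / L) ^ 3) * L ^ 3
      = lp (ker a A) (μ + ν - c / vB R) L - ν ^ 2 * (L + 2 * R) ^ 3 / (4 * c) := by
    field_simp
  rw [h6]
  exact h4

/-- Let `p = press (ker a A)` (convex, monotone, nonnegative) and `ν` a maximiser in `T`
(`exists_T_eq`). With `t = c / vB R`: `p (μ + ν) - p (μ + ν - t) ≤ t * p (hi + ν₀ + 1)`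
(`slope_le_of_convex`), and `t → 0` as `R → ∞` (`vB_eq`). -/
theorem kac_lower_main {A : E → E → ℝ} {κ a c : ℝ} (hA : IsAttr A κ) (hc : 0 < c)
    (ha : 2 * (κ + 16 * c) ≤ a) (lo hi : ℝ) {ν₀ : ℝ} (hν₀ : 0 ≤ ν₀) {η : ℝ} (hη : 0 < η) :
    ∃ R₀ : ℝ, 8 ≤ R₀ ∧ ∀ R, R₀ ≤ R → ∀ μ ∈ Icc lo hi,
      T c ν₀ (press (ker a A)) μ - η ≤ press (ker a (fun x y => A x y + kac c R x y)) μ := by
  have href : Adm (ker a A) κ := adm_ker hA (by linarith)
  have hconv := convexOn_press href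
  have hnn : ∀ x, 0 ≤ press (ker a A) x := press_nonneg href
  set pZ : ℝ := press (ker a A) (hi + ν₀ + 1) with hpZ
  have hpZ0 : 0 ≤ pZ := hnn _
  have hv1 : 0 < vB 1 := vB_pos one_pos
  refine ⟨max 8 (c * (pZ + 1) / (η * vB 1)), le_max_left _ _, ?_⟩
  intro R hR μ hμ
  have hR8 : 8 ≤ R := le_trans (le_max_left _ _) hR
  have hRM : c * (pZ + 1) / (η * vB 1) ≤ R := le_trans (le_max_right _ _) hR
  have hR0 : 0 < R := by linarith
  obtain ⟨ν, hν0, hν1, hT⟩ := exists_T_eq hconv (c := c) hν₀ μ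
  have h1 := press_kac_ge hA hc hR8 ha μ ν
  have hvR : vB R = R ^ 3 * vB 1 := vB_eq hR0.le
  have hvRpos : 0 < vB R := vB_pos hR0
  set t : ℝ := c / vB R with ht
  have ht0 : 0 < t := div_pos hc hvRpos
  have h2 := slope_le_of_convex hconv hnn (x := μ + ν - t) (y := μ + ν) (X₀ := hi + ν₀)
    (Z := hi + ν₀ + 1) (by linarith) (by linarith [hμ.2]) (by linarith)
  have h3 : press (ker a A) (hi + ν₀ + 1) / (hi + ν₀ + 1 - (hi + ν₀)) * (μ + ν - (μ + ν - t))
      = pZ * t := by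
    rw [← hpZ]
    have : hi + ν₀ + 1 - (hi + ν₀) = 1 := by ring
    rw [this]
    ring
  rw [h3] at h2
  have h4 : t * (pZ + 1) ≤ η := by
    rw [ht, hvR, div_mul_eq_mul_div, div_le_iff₀ (by positivity)]
    have h5 : c * (pZ + 1) ≤ R * (η * vB 1) := by
      rwa [div_le_iff₀ (by positivity)] at hRM
    have h6 : R ≤ R ^ 3 := by nlinarith [sq_nonneg R]
    have h7 : R * (η * vB 1) ≤ R ^ 3 * (η * vB 1) :=
      mul_le_mul_of_nonneg_right h6 (by positivity)
    nlinarith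
  rw [hT]
  nlinarith

end Vale.Agent.Lib.P171
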