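import Vale.Agent.Lib.P171.KacParam
import Vale.Agent.Lib.P171.KacLower

/-!
# P171, layer 3: the Kac (Lebowitz-Penrose type) limit, two sided, uniform on compact intervals
-/

namespace Vale.Agent.Lib.P171

open MeasureTheory Set Filter Topology
open scoped ENNReal

/-- choice of `S` -/
theorem exists_S_small (κ δ : ℝ) (hδ : 0 < δ) :
    ∃ S : ℕ, 0 < S ∧ |2 * (3 * κ / S)| ≤ δ := by
  have h1 : Tendsto (fun n : ℕ => (3 * κ) / (n : ℝ)) atTop (𝓝 0) :=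
    tendsto_const_div_atTop_nhds_zero_nat (3 * κ)
  have h2 : Tendsto (fun n : ℕ => |2 * ((3 * κ) / (n : ℝ))|) atTop (𝓝 0) := by
    have := (h1.const_mul 2).abs
    simpa using this
  have h3 : ∀ᶠ n : ℕ in atTop, |2 * ((3 * κ) / (n : ℝ))| < δ := h2.eventually (gt_mem_nhds hδ)
  obtain ⟨S, hS1, hS2⟩ := (h3.and (eventually_gt_atTop 0)).exists
  exact ⟨S, hS2, hS1.le⟩

/-- `(1 + 1/ℓ)³ → 1` -/
theorem tendsto_lam : Tendsto (fun ℓ : ℝ => (1 + 1 / ℓ) ^ 3) atTop (𝓝 1) := by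
  have h1 : Tendsto (fun ℓ : ℝ => 1 / ℓ) atTop (𝓝 0) := by
    simpa using tendsto_inv_atTop_zero
  have h2 : Tendsto (fun ℓ : ℝ => (1 + 1 / ℓ) ^ 3) atTop (𝓝 ((1 + 0) ^ 3)) :=
    (h1.const_add 1).pow 3
  simpa using h2

/-- `cp c ℓ R → c` as `R → ∞` -/
theorem tendsto_cp (c ℓ : ℝ) : Tendsto (fun R : ℝ => cp c ℓ R) atTop (𝓝 c) := by
  have h1 : Tendsto (fun R : ℝ => Real.sqrt 3 * ℓ / R) atTop (𝓝 0) :=
    tendsto_const_nhds.div_atTop tendsto_id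
  have h2 : Tendsto (fun R : ℝ => c * (1 + Real.sqrt 3 * ℓ / R) ^ 6) atTop
      (𝓝 (c * (1 + 0) ^ 6)) := ((h1.const_add 1).pow 6).const_mul c
  have h3 : c * (1 + 0) ^ 6 = c := by ring
  rw [h3] at h2
  exact h2

/-- Choice of the parameters in `kac_upper_param`. Let `Q = press (ker (a-1) A) (hi + ν₀ + 1) ≥ 0`.
First `S` with `2 (3κ/S) ≤ 1` and `2 (3κ/S) Q ≤ η/4`; `q = 2h + 1`; then `ℓ ≥ S q` with
`(1+1/ℓ)³ ≤ 3/2`, `2((1+1/ℓ)³ - 1) Q ≤ η/4`, `log (…)/ℓ³ ≤ η/4` (`tendsto_log_sumConst`); all hold for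
large `ℓ`. Finally `cp c ℓ R → c` as `R → ∞`, so for large `R`: `cp ≤ 3c/2` and
`ν₀²/(4c) (1 - c/cp) ≤ η/4`. -/
theorem kac_upper_main {A : E → E → ℝ} {κ h a c ν₀ lo hi : ℝ} (hA : IsAttr A κ)
    (hr : HasRange A h) (hh : 0 < h) (hc : 0 < c) (ha : 2 * (κ + 16 * c) + 1 ≤ a) (hν₀ : 0 ≤ ν₀)
    (hTail : ∀ ν, ν₀ ≤ ν → 3 / 2 * press (ker (a - 1) A) (hi + 1 + ν) ≤ ν ^ 2 / (6 * c) - ν)
    {η : ℝ} (hη : 0 < η) :
    ∃ R₀ : ℝ, 8 ≤ R₀ ∧ ∀ R, R₀ ≤ R → ∀ μ ∈ Icc lo hi,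
      press (ker a (fun x y => A x y + kac c R x y)) μ ≤ T c ν₀ (press (ker a A)) μ + η := by
  set Q : ℝ := press (ker (a - 1) A) (hi + ν₀ + 1) with hQ
  set Q' : ℝ := |Q| + 1 with hQ'
  have hQ'pos : 0 < Q' := by positivity
  have hQQ' : |Q| ≤ Q' := by rw [hQ']; linarith
  set δ : ℝ := min 1 (η / (4 * Q')) with hδdef
  have hδ : 0 < δ := lt_min one_pos (by positivity)
  have hδ1 : δ ≤ 1 := min_le_left _ _
  have hδ2 : δ * Q' ≤ η / 4 := by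
    have : δ ≤ η / (4 * Q') := min_le_right _ _
    calc δ * Q' ≤ η / (4 * Q') * Q' := mul_le_mul_of_nonneg_right this hQ'pos.le
      _ = η / 4 := by field_simp
  -- choice of `S`
  obtain ⟨S, hS, hSδ⟩ := exists_S_small κ δ hδ
  have hε : 2 * (3 * κ / S) ≤ 1 := le_trans (le_abs_self _) (le_trans hSδ hδ1)
  -- choice of `ℓ`
  have e1 : ∀ᶠ ℓ : ℝ in atTop, (1 + 1 / ℓ) ^ 3 < 3 / 2 :=
    tendsto_lam.eventually (gt_mem_nhds (by norm_num))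
  have e2 : ∀ᶠ ℓ : ℝ in atTop, |2 * ((1 + 1 / ℓ) ^ 3 - 1)| < δ := by
    have h1 : Tendsto (fun ℓ : ℝ => |2 * ((1 + 1 / ℓ) ^ 3 - 1)|) atTop (𝓝 0) := by
      have := ((tendsto_lam.sub_const 1).const_mul 2).abs
      simpa using this
    exact h1.eventually (gt_mem_nhds hδ)
  have e3 : ∀ᶠ ℓ : ℝ in atTop,
      Real.log (ν₀ * ℓ ^ 3 / (2 * c) + 1 + 1 / (1 - Real.exp (-(2 * c)))) / ℓ ^ 3 < η / 4 :=
    (tendsto_log_sumConst hc hν₀).eventually (gt_mem_nhds (by positivity))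
  have e4 : ∀ᶠ ℓ : ℝ in atTop, (S : ℝ) * (2 * h + 1) ≤ ℓ := eventually_ge_atTop _
  obtain ⟨ℓ, ⟨⟨hℓ1, hℓ2⟩, hℓ3⟩, hℓ4⟩ := (((e1.and e2).and e3).and e4).exists
  -- choice of `R₀`
  have f1 : ∀ᶠ R : ℝ in atTop, cp c ℓ R < 3 / 2 * c :=
    (tendsto_cp c ℓ).eventually (gt_mem_nhds (by linarith))
  have f2 : ∀ᶠ R : ℝ in atTop, ν₀ ^ 2 / (4 * c) * (1 - c / cp c ℓ R) < η / 4 := by
    have h1 : Tendsto (fun R : ℝ => ν₀ ^ 2 / (4 * c) * (1 - c / cp c ℓ R)) atTop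
        (𝓝 (ν₀ ^ 2 / (4 * c) * (1 - c / c))) :=
      (((tendsto_const_nhds (x := c)).div (tendsto_cp c ℓ) hc.ne').const_sub 1).const_mul _
    have h2 : ν₀ ^ 2 / (4 * c) * (1 - c / c) = 0 := by
      rw [div_self hc.ne']; ring
    rw [h2] at h1
    exact h1.eventually (gt_mem_nhds (by positivity))
  obtain ⟨R₁, hR₁⟩ := eventually_atTop.1 (f1.and f2)
  refine ⟨max 8 R₁, le_max_left _ _, fun R hR μ hμ => ?_⟩
  have hR8 : 8 ≤ R := le_trans (le_max_left _ _) hR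
  obtain ⟨g1, g2⟩ := hR₁ R (le_trans (le_max_right _ _) hR)
  have key := kac_upper_param (q := 2 * h + 1) (ℓ := ℓ) (R := R) (S := S) (lo := lo) hA hr hh
    (by linarith) hS hℓ4 hc hR8 ha hε hℓ1.le g1.le hν₀ hTail hμ
  have t1 : (2 * (3 * κ / S) + 2 * ((1 + 1 / ℓ) ^ 3 - 1)) * Q ≤ η / 4 + η / 4 := by
    have a1 : 2 * (3 * κ / S) * Q ≤ η / 4 := by
      calc 2 * (3 * κ / S) * Q ≤ |2 * (3 * κ / S) * Q| := le_abs_self _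
        _ = |2 * (3 * κ / S)| * |Q| := abs_mul _ _
        _ ≤ δ * Q' := mul_le_mul hSδ hQQ' (abs_nonneg _) hδ.le
        _ ≤ η / 4 := hδ2
    have a2 : 2 * ((1 + 1 / ℓ) ^ 3 - 1) * Q ≤ η / 4 := by
      calc 2 * ((1 + 1 / ℓ) ^ 3 - 1) * Q ≤ |2 * ((1 + 1 / ℓ) ^ 3 - 1) * Q| := le_abs_self _
        _ = |2 * ((1 + 1 / ℓ) ^ 3 - 1)| * |Q| := abs_mul _ _
        _ ≤ δ * Q' := mul_le_mul hℓ2.le hQQ' (abs_nonneg _) hδ.le
        _ ≤ η / 4 := hδ2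
    rw [add_mul]
    linarith
  linarith

/-- **Two sided Kac limit.** -/
theorem kac_main {A : E → E → ℝ} {κ h a c ν₀ lo hi : ℝ} (hA : IsAttr A κ)
    (hr : HasRange A h) (hh : 0 < h) (hc : 0 < c) (ha : 2 * (κ + 16 * c) + 1 ≤ a) (hν₀ : 0 ≤ ν₀)
    (hTail : ∀ ν, ν₀ ≤ ν → 3 / 2 * press (ker (a - 1) A) (hi + 1 + ν) ≤ ν ^ 2 / (6 * c) - ν)
    {η : ℝ} (hη : 0 < η) :
    ∃ R₀ : ℝ, 8 ≤ R₀ ∧ ∀ R, R₀ ≤ R → ∀ μ ∈ Icc lo hi,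
      |press (ker a (fun x y => A x y + kac c R x y)) μ - T c ν₀ (press (ker a A)) μ| ≤ η := by
  obtain ⟨R₁, h8, h₁⟩ := kac_upper_main (lo := lo) hA hr hh hc ha hν₀ hTail hη
  obtain ⟨R₂, _, h₂⟩ := kac_lower_main (a := a) hA hc (by linarith) lo hi hν₀ hη
  refine ⟨max R₁ R₂, le_trans h8 (le_max_left _ _), fun R hR μ hμ => ?_⟩
  have a₁ := h₁ R (le_trans (le_max_left _ _) hR) μ hμ
  have a₂ := h₂ R (le_trans (le_max_right _ _) hR) μ hμ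
  rw [abs_le]
  constructor <;> linarith

end Vale.Agent.Lib.P171
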