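import Vale.Agent.Lib.P171.Asm2
import Vale.Agent.Lib.P171.Asm3
import Vale.Agent.Lib.P171.KacMain
import Vale.Agent.Lib.P171.Abstract
import Vale.Agent.Lib.P171.Base

/-!
# P171, layer 5: the pressure of the multi-scale system has a corner
-/

namespace Vale.Agent.Lib.P171

open MeasureTheory Set Filter Topology
open scoped ENNReal

theorem sum_cs_succ_le (k : ℕ) : (∑ j ∈ Finset.range k, cs j) + cs k ≤ 280000 := by
  have := sum_cs_le (k + 1)
  rwa [Finset.sum_range_succ] at this

theorem sum_cs_nonneg (k : ℕ) : 0 ≤ ∑ j ∈ Finset.range k, cs j :=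
  Finset.sum_nonneg fun j _ => (cs_pos j).le

/-- `exists_radii` with `step` from `kac_main` (`κ = 16 ∑_{j<k} cs j`, `c = cs k`, `ν₀ = 42000000`,
`lo = -11199981`, `hi = 21`, `η k = etaseq (cs (k+1)) 10 (9/100 - 1/50) k`, `hTail` from `tail_bound`
after `IsAttr.mono`), then `abstract_main` with `P k = press (ker aa (Aseq R k))`,
`Pinf = press (ker aa (Atail R 0))`, `c = cs`, `S = 10`, `x₁ = -5`, `x₂ = 20`, `s₁ = 1/50`, `s₂ = 9/100`,
`Csum = 280000`, `ζ` from `inf_close`; `steep_base`, `slope_bound`, `convexOn_press`, `press_mono`. -/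
theorem main_press :
    ∃ R : ℕ → ℝ, (∀ j, 8 ≤ R j) ∧
      ∃ μ : ℝ, ¬ DifferentiableAt ℝ (press (ker aa (Atail R 0))) μ := by
  have step : ∀ (k : ℕ) (A : E → E → ℝ), IsAttr A (16 * ∑ j ∈ Finset.range k, cs j) →
      (∃ h : ℝ, 0 < h ∧ HasRange A h) →
      ∃ R₀ : ℝ, 8 ≤ R₀ ∧ ∀ R, R₀ ≤ R → ∀ μ ∈ Icc (-11199981 : ℝ) 21,
        |press (ker aa (fun x y => A x y + kac (cs k) R x y)) μ
          - T (cs k) 42000000 (press (ker aa A)) μ| ≤ etaseq (cs (k + 1)) 10 (9 / 100 - 1 / 50) k := by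
    intro k A hA hh
    obtain ⟨h, h0, hr⟩ := hh
    have hA' : IsAttr A 4480000 := hA.mono (by have := sum_cs_le k; linarith)
    refine kac_main hA hr h0 (cs_pos k) ?_ (by norm_num) ?_ ?_
    · have := sum_cs_succ_le k
      unfold aa
      linarith
    · intro ν hν
      exact tail_bound hA' (cs_pos k) (cs_le k) hν
    · exact etaseq_pos (cs_pos _) (by norm_num) (by norm_num) k
  obtain ⟨R, hR, hclose⟩ := exists_radii step
  refine ⟨R, hR, ?_⟩
  have hAk : ∀ k, IsAttr (Aseq R k) 4480000 := fun k =>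
    (isAttr_Aseq hR k).mono (by have := sum_cs_le k; linarith)
  have hadm : ∀ k, Adm (ker aa (Aseq R k)) 4480000 := fun k =>
    adm_ker (hAk k) (by unfold aa; norm_num)
  have hAinf : IsAttr (Atail R 0) 4480000 := by
    have := isAttr_Atail hR 0
    norm_num at this
    exact this
  have hadmInf : Adm (ker aa (Atail R 0)) 4480000 := adm_ker hAinf (by unfold aa; norm_num)
  obtain ⟨μ, _, hμ⟩ := abstract_main (P := fun k => press (ker aa (Aseq R k)))
    (Pinf := press (ker aa (Atail R 0))) (c := cs)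
    (ζ := fun k : ℕ => 2 * (16 * (280000 / 4 ^ k)) / 8960000 * Qhat)
    (S := 10) (ν₀ := 42000000) (lo := -11199981) (hi := 21) (x₁ := -5) (x₂ := 20)
    (s₁ := 1 / 50) (s₂ := 9 / 100) (Csum := 280000)
    (fun k => convexOn_press (hadm k)) (fun k => press_mono (hadm k))
    (convexOn_press hadmInf) cs_pos sum_cs_le
    (fun k x y hxy hy => slope_bound (hAk k) hxy hy)
    (by norm_num) (by norm_num) (by norm_num)
    (by
      rw [Aseq_zero]
      exact steep_base (by unfold aa; norm_num))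
    (by rw [cs_zero]; norm_num)
    (fun k => by have := cs_le k; linarith) (by norm_num) (by norm_num) (by norm_num)
    hclose
    (fun k μ hμ => inf_close hR k hμ.2) tendsto_inf_close
  exact ⟨μ, hμ⟩

end Vale.Agent.Lib.P171
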