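import Vale.Agent.Lib.P171.CfgMeas

/-!
# P171, layer 0: the iterated integral is the integral over the product space
-/

namespace Vale.Agent.Lib.P171

open MeasureTheory Set
open scoped ENNReal

/-- (induction on `N`; `Measure.restrict_pi_pi`, `volume_preserving_piFinSuccAbove (fun _ => E) 0`,
`lintegral_prod`, `ms_cons`) -/
theorem cint_eq_lintegral_pi {D : Set E} (hD : MeasurableSet D) {w : Multiset E → ℝ≥0∞}
    (hw : MeasW w) (N : ℕ) :
    cint D N w = ∫⁻ x in Set.pi Set.univ (fun _ : Fin N => D), w (ms x) := by
  induction N generalizing w with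
  | zero =>
    rw [cint_zero, lintegral_unique, ms_zero, Measure.restrict_apply_univ, volume_pi_pi]
    simp
  | succ N ih =>
    rw [cint_succ]
    have hpres := (volume_preserving_piFinSuccAbove (fun _ : Fin (N + 1) => E) 0).symm
    set e := MeasurableEquiv.piFinSuccAbove (fun _ : Fin (N + 1) => E) 0 with he
    have hsymm : ∀ p : E × (Fin N → E), e.symm p = (Fin.cons p.1 p.2 : Fin (N + 1) → E) := by
      intro p
      simp [he, MeasurableEquiv.piFinSuccAbove, Fin.consEquiv]
    have h1 := hpres.setLIntegral_comp_preimage_emb e.symm.measurableEmbedding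
      (fun z : Fin (N + 1) → E => w (ms z)) (Set.pi Set.univ (fun _ : Fin (N + 1) => D))
    rw [← h1]
    have hpre : e.symm ⁻¹' (Set.pi Set.univ (fun _ : Fin (N + 1) => D))
        = D ×ˢ (Set.pi Set.univ (fun _ : Fin N => D)) := by
      ext p
      simp only [mem_preimage, hsymm, mem_pi, mem_univ, forall_true_left, mem_prod,
        Fin.forall_fin_succ, Fin.cons_zero, Fin.cons_succ]
    rw [hpre, Measure.volume_eq_prod, ← Measure.prod_restrict, lintegral_prod]
    · refine lintegral_congr fun x => ?_
      rw [ih (hw.cons x)]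
      refine lintegral_congr fun y => ?_
      rw [hsymm, ms_cons]
    · exact ((hw (N + 1)).comp e.symm.measurable).aemeasurable

end Vale.Agent.Lib.P171
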