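import Vale.Agent.Lib.P171.Thermo2

/-!
# P171, layer 2: the pressure
-/

namespace Vale.Agent.Lib.P171

open MeasureTheory Set Filter Topology
open scoped ENNReal

theorem press_aux_le {k : E → E → ℝ} {κ : ℝ} (hk : Adm k κ) (μ : ℝ) {L : ℝ} (hL : 0 ≤ L) :
    lp k μ L / (L + 1) ^ 3 ≤ Real.exp (μ + κ) := by
  have h1 : (0 : ℝ) < (L + 1) ^ 3 := by positivity
  rw [div_le_iff₀ h1]
  refine (lp_le hk μ hL).trans ?_
  have h2 : L ^ 3 ≤ (L + 1) ^ 3 := pow_le_pow_left₀ hL (by linarith) 3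
  exact mul_le_mul_of_nonneg_left h2 (Real.exp_pos _).le

theorem press_bddAbove {k : E → E → ℝ} {κ : ℝ} (hk : Adm k κ) (μ : ℝ) :
    BddAbove ((fun L : ℝ => lp k μ L / (L + 1) ^ 3) '' Set.Ici 0) := by
  refine ⟨Real.exp (μ + κ), ?_⟩
  rintro _ ⟨L, hL, rfl⟩
  exact press_aux_le hk μ hL

theorem lp_le_press {k : E → E → ℝ} {κ : ℝ} (hk : Adm k κ) (μ : ℝ) {L : ℝ} (hL : 0 ≤ L) :
    lp k μ L ≤ (L + 1) ^ 3 * press k μ := by
  have h1 : (0 : ℝ) < (L + 1) ^ 3 := by positivity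
  have h2 : lp k μ L / (L + 1) ^ 3 ≤ press k μ :=
    le_csSup (press_bddAbove hk μ) ⟨L, hL, rfl⟩
  rw [div_le_iff₀ h1] at h2
  linarith

theorem press_le_of_forall {k : E → E → ℝ} {μ M : ℝ}
    (h : ∀ L : ℝ, 0 ≤ L → lp k μ L ≤ (L + 1) ^ 3 * M) : press k μ ≤ M := by
  refine csSup_le ⟨_, ⟨0, Set.self_mem_Ici, rfl⟩⟩ ?_
  rintro _ ⟨L, hL, rfl⟩
  have hL' : (0 : ℝ) ≤ L := hL
  have h1 : (0 : ℝ) < (L + 1) ^ 3 := by positivity
  show lp k μ L / (L + 1) ^ 3 ≤ M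
  rw [div_le_iff₀ h1]
  have := h L hL
  linarith

theorem press_nonneg {k : E → E → ℝ} {κ : ℝ} (hk : Adm k κ) (μ : ℝ) : 0 ≤ press k μ := by
  have h1 := lp_le_press hk μ (le_refl (0 : ℝ))
  have h2 := lp_nonneg hk μ (le_refl (0 : ℝ))
  norm_num at h1
  linarith

theorem press_le_exp {k : E → E → ℝ} {κ : ℝ} (hk : Adm k κ) (μ : ℝ) :
    press k μ ≤ Real.exp (μ + κ) := by
  refine press_le_of_forall fun L hL => ?_
  have h1 : (0 : ℝ) < (L + 1) ^ 3 := by positivity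
  have h2 := press_aux_le hk μ hL
  rw [div_le_iff₀ h1] at h2
  linarith

/-- **Thermodynamic limit.** Upper bound: `lp L / L³ ≤ ((L+1)/L)³ press`. Lower bound: for `L₀ ≥ 0`
and `n = ⌊L / (L₀ + 1)⌋₊`: `lp L ≥ lp (n (L₀+1)) ≥ n³ lp L₀` and `n / L → 1 / (L₀ + 1)`. -/
theorem tendsto_press {k : E → E → ℝ} {κ : ℝ} (hk : Adm k κ) (μ : ℝ) :
    Tendsto (fun L : ℝ => lp k μ L / L ^ 3) atTop (𝓝 (press k μ)) := by
  refine tendsto_order.2 ⟨fun c hc => ?_, fun c hc => ?_⟩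
  · -- lower bound
    obtain ⟨_, ⟨L₀, hL₀, rfl⟩, hlt⟩ := exists_lt_of_lt_csSup
      (⟨_, ⟨0, Set.self_mem_Ici, rfl⟩⟩ :
        ((fun L : ℝ => lp k μ L / (L + 1) ^ 3) '' Set.Ici 0).Nonempty) hc
    have hL₀' : (0 : ℝ) ≤ L₀ := hL₀
    have hpos : (0 : ℝ) < L₀ + 1 := by linarith
    have hfl : Tendsto (fun L : ℝ => ((⌊(L₀ + 1)⁻¹ * L⌋₊ : ℝ) / L)) atTop (𝓝 (L₀ + 1)⁻¹) :=
      tendsto_nat_floor_mul_div_atTop (inv_nonneg.2 hpos.le)
    have hlim : Tendsto (fun L : ℝ => ((⌊(L₀ + 1)⁻¹ * L⌋₊ : ℝ) / L) ^ 3 * lp k μ L₀) atTop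
        (𝓝 (((L₀ + 1)⁻¹) ^ 3 * lp k μ L₀)) := (hfl.pow 3).mul_const _
    have heq : ((L₀ + 1)⁻¹) ^ 3 * lp k μ L₀ = lp k μ L₀ / (L₀ + 1) ^ 3 := by
      rw [inv_pow, div_eq_inv_mul]
    rw [heq] at hlim
    have hev := hlim.eventually (lt_mem_nhds hlt)
    filter_upwards [hev, eventually_gt_atTop (0 : ℝ)] with L h1 hL
    refine lt_of_lt_of_le h1 ?_
    have hL3 : (0 : ℝ) < L ^ 3 := by positivity
    rw [div_pow, div_mul_eq_mul_div]
    refine div_le_div_of_nonneg_right ?_ hL3.le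
    refine (lp_super hk μ hL₀' _).trans ?_
    refine lp_mono_L hk μ (by positivity) ?_
    have h2 : ((⌊(L₀ + 1)⁻¹ * L⌋₊ : ℝ)) ≤ (L₀ + 1)⁻¹ * L :=
      Nat.floor_le (by positivity)
    calc ((⌊(L₀ + 1)⁻¹ * L⌋₊ : ℝ)) * (L₀ + 1) ≤ ((L₀ + 1)⁻¹ * L) * (L₀ + 1) :=
          mul_le_mul_of_nonneg_right h2 hpos.le
      _ = L := by field_simp
  · -- upper bound
    have hinv : Tendsto (fun L : ℝ => (1 + L⁻¹) ^ 3 * press k μ) atTop
        (𝓝 ((1 + 0) ^ 3 * press k μ)) :=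
      ((tendsto_const_nhds.add tendsto_inv_atTop_zero).pow 3).mul_const _
    have heq : ((1 : ℝ) + 0) ^ 3 * press k μ = press k μ := by norm_num
    rw [heq] at hinv
    have hev := hinv.eventually (gt_mem_nhds hc)
    filter_upwards [hev, eventually_gt_atTop (0 : ℝ)] with L h1 hL
    refine lt_of_le_of_lt ?_ h1
    have hL3 : (0 : ℝ) < L ^ 3 := by positivity
    rw [div_le_iff₀ hL3]
    refine (lp_le_press hk μ hL.le).trans (le_of_eq ?_)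
    field_simp

/-- comparison of two systems through their weights -/
theorem press_le_press {k k' : E → E → ℝ} {κ κ' : ℝ} (hk : Adm k κ) (hk' : Adm k' κ') {μ μ' : ℝ}
    (h : ∀ X, Wt k μ X ≤ Wt k' μ' X) : press k μ ≤ press k' μ' :=
  press_le_of_forall fun _ hL => (lp_le_lp hk hk' h hL).trans (lp_le_press hk' μ' hL)

theorem press_mono {k : E → E → ℝ} {κ : ℝ} (hk : Adm k κ) : Monotone (press k) := by
  intro μ μ' h
  refine press_le_press hk hk fun X => Wt_le_Wt ?_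
  have : μ * (Multiset.card X : ℝ) ≤ μ' * (Multiset.card X : ℝ) :=
    mul_le_mul_of_nonneg_right h (Nat.cast_nonneg _)
  linarith

/-- a smaller kernel has a larger pressure (`En_mono`) -/
theorem press_anti_ker {k k' : E → E → ℝ} {κ κ' : ℝ} (hk : Adm k κ) (hk' : Adm k' κ')
    (h : ∀ x y, k' x y ≤ k x y) (μ : ℝ) : press k μ ≤ press k' μ := by
  refine press_le_press hk hk' fun X => Wt_le_Wt ?_
  have : En k' X ≤ En k X := En_mono fun x _ y _ => h x y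
  linarith

/-- joint convexity in the kernel and the chemical potential -/
theorem press_convex {k₁ k₂ : E → E → ℝ} {κ₁ κ₂ : ℝ} (h₁ : Adm k₁ κ₁) (h₂ : Adm k₂ κ₂) (μ₁ μ₂ : ℝ)
    {s t : ℝ} (hs : 0 ≤ s) (ht : 0 ≤ t) (hst : s + t = 1) :
    press (fun x y => s * k₁ x y + t * k₂ x y) (s * μ₁ + t * μ₂)
      ≤ s * press k₁ μ₁ + t * press k₂ μ₂ := by
  refine press_le_of_forall fun L hL => ?_
  have h3 := lp_convex h₁ h₂ μ₁ μ₂ hs ht hst hL
  have h4 := mul_le_mul_of_nonneg_left (lp_le_press h₁ μ₁ hL) hs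
  have h5 := mul_le_mul_of_nonneg_left (lp_le_press h₂ μ₂ hL) ht
  calc _ ≤ s * lp k₁ μ₁ L + t * lp k₂ μ₂ L := h3
    _ ≤ s * ((L + 1) ^ 3 * press k₁ μ₁) + t * ((L + 1) ^ 3 * press k₂ μ₂) := add_le_add h4 h5
    _ = (L + 1) ^ 3 * (s * press k₁ μ₁ + t * press k₂ μ₂) := by ring

theorem convexOn_press {k : E → E → ℝ} {κ : ℝ} (hk : Adm k κ) : ConvexOn ℝ univ (press k) := by
  refine ⟨convex_univ, fun x _ y _ s t hs ht hst => ?_⟩
  have h := press_convex hk hk x y hs ht hst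
  have hker : (fun a b => s * k a b + t * k a b) = k := by
    funext a b
    rw [← add_mul, hst, one_mul]
  rw [hker] at h
  simpa [smul_eq_mul] using h

/-- bounds valid for all large cubes pass to the pressure -/
theorem press_le_of_eventually {k : E → E → ℝ} {κ : ℝ} (hk : Adm k κ) {μ M : ℝ} {u : ℝ → ℝ}
    (hu : Tendsto u atTop (𝓝 M)) (h : ∀ᶠ L in atTop, lp k μ L / L ^ 3 ≤ u L) : press k μ ≤ M :=
  le_of_tendsto_of_tendsto (tendsto_press hk μ) hu h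

theorem le_press_of_eventually {k : E → E → ℝ} {κ : ℝ} (hk : Adm k κ) {μ M : ℝ} {u : ℝ → ℝ}
    (hu : Tendsto u atTop (𝓝 M)) (h : ∀ᶠ L in atTop, u L ≤ lp k μ L / L ^ 3) : M ≤ press k μ :=
  le_of_tendsto_of_tendsto hu (tendsto_press hk μ) h

end Vale.Agent.Lib.P171
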