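import Vale.Agent.Lib.P171.Statement
import Vale.Agent.Lib.P171.Thermo3
import Vale.Agent.Lib.P171.CfgBridge

/-!
# P171, layer 5: the partition functions of the statement are the ones of the library
-/

namespace Vale.Agent.Lib.P171

open MeasureTheory Set Filter Topology
open scoped ENNReal

theorem cube_eq_box (L : ℝ) : cube L = box L := rfl

/-- (`En_ms_pairs`, `norm_sub_rev`) -/
theorem pairEnergy_eq_En {φ : ℝ → ℝ} {k : E → E → ℝ} (hφ : ∀ x y, k x y = φ ‖x - y‖) {N : ℕ}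
    (x : Fin N → E) : pairEnergy φ x = En k (ms x) := by
  rw [En_ms_pairs (fun x y => by rw [hφ, hφ, norm_sub_rev])]
  unfold pairEnergy
  simp_rw [hφ]

theorem stable_of_adm {φ : ℝ → ℝ} {k : E → E → ℝ} {κ : ℝ} (hk : Adm k κ)
    (hφ : ∀ x y, k x y = φ ‖x - y‖) : Stable φ := by
  refine ⟨κ, fun N x => ?_⟩
  rw [pairEnergy_eq_En hφ]
  have := hk.stab (ms x)
  rwa [card_ms] at this

/-- the configuration integrals of an admissible kernel over a cube are finite -/
theorem cint_box_ne_top {k : E → E → ℝ} {κ : ℝ} (hk : Adm k κ) (μ : ℝ) {L : ℝ} (hL : 0 ≤ L)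
    (N : ℕ) : cint (box L) N (Wt k μ) ≠ ∞ := by
  intro h
  have h1 := term_le_Xi (box L) (Wt k μ) N
  rw [h, ENNReal.mul_top (by simp)] at h1
  exact Xi_box_ne_top hk μ hL (top_le_iff.mp h1)

/-- the Boltzmann factor as the real part of the library weight -/
theorem boltzmann_eq {φ : ℝ → ℝ} {k : E → E → ℝ} (hφ : ∀ x y, k x y = φ ‖x - y‖) (μ : ℝ) {N : ℕ}
    (x : Fin N → E) :
    Wt k μ (ms x) = ENNReal.ofReal (Real.exp μ ^ N * Real.exp (-1 * pairEnergy φ x)) := by
  unfold Wt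
  rw [pairEnergy_eq_En hφ, card_ms, ← Real.exp_nat_mul, ← Real.exp_add]
  congr 2
  ring

/-- (measurable by `measW_Wt` or directly; the `lintegral` of the norm is `cint (box L) N (Wt k 0)`, finite by
`term_le_Xi` and `Xi_box_ne_top`) -/
theorem integrableOn_boltzmann {φ : ℝ → ℝ} {k : E → E → ℝ} {κ : ℝ} (hk : Adm k κ)
    (hφ : ∀ x y, k x y = φ ‖x - y‖) {L : ℝ} (hL : 0 ≤ L) (N : ℕ) :
    IntegrableOn (fun x : Fin N → E => Real.exp (-1 * pairEnergy φ x))
      (Set.pi Set.univ (fun _ : Fin N => cube L)) := by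
  have hm : Measurable fun x : Fin N → E => Wt k 0 (ms x) := measW_Wt hk.meas 0 N
  have hfin : ∫⁻ x in Set.pi Set.univ (fun _ : Fin N => cube L), Wt k 0 (ms x) ≠ ∞ := by
    rw [cube_eq_box, ← cint_eq_lintegral_pi (measurableSet_box L) (measW_Wt hk.meas 0) N]
    exact cint_box_ne_top hk 0 hL N
  have h := integrable_toReal_of_lintegral_ne_top hm.aemeasurable hfin
  refine h.congr (Filter.Eventually.of_forall fun x => ?_)
  simp only
  rw [boltzmann_eq hφ 0 x, Real.exp_zero, one_pow, one_mul,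
    ENNReal.toReal_ofReal (Real.exp_pos _).le]

/-- (`cint_eq_lintegral_pi`, `integral_eq_lintegral_of_nonneg_ae`,
`exp μ ^ N * exp (-U) = exp (μ N - En k (ms x))`) -/
theorem term_eq {φ : ℝ → ℝ} {k : E → E → ℝ} {κ : ℝ} (hk : Adm k κ)
    (hφ : ∀ x y, k x y = φ ‖x - y‖) (μ : ℝ) {L : ℝ} (hL : 0 ≤ L) (N : ℕ) :
    Real.exp μ ^ N * canZ φ 1 L N
      = (((N.factorial : ℝ≥0∞))⁻¹ * cint (box L) N (Wt k μ)).toReal := by
  have hint := integrableOn_boltzmann hk hφ hL N
  rw [cube_eq_box] at hint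
  rw [ENNReal.toReal_mul, ENNReal.toReal_inv, ENNReal.toReal_natCast,
    cint_eq_lintegral_pi (measurableSet_box L) (measW_Wt hk.meas μ) N]
  simp_rw [boltzmann_eq hφ μ]
  rw [← integral_eq_lintegral_of_nonneg_ae
    (Filter.Eventually.of_forall fun x => by positivity)
    ((hint.const_mul (Real.exp μ ^ N)).aestronglyMeasurable), integral_const_mul]
  unfold canZ
  rw [cube_eq_box]
  ring

/-- (`ENNReal.summable_toReal`, `Xi_box_ne_top`) -/
theorem summable_Z {φ : ℝ → ℝ} {k : E → E → ℝ} {κ : ℝ} (hk : Adm k κ)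
    (hφ : ∀ x y, k x y = φ ‖x - y‖) (μ : ℝ) {L : ℝ} (hL : 0 ≤ L) :
    Summable fun N : ℕ => Real.exp μ ^ N * canZ φ 1 L N := by
  simp_rw [term_eq hk hφ μ hL]
  exact ENNReal.summable_toReal (Xi_box_ne_top hk μ hL)

/-- (`ENNReal.tsum_toReal_eq`) -/
theorem tsum_Z_eq {φ : ℝ → ℝ} {k : E → E → ℝ} {κ : ℝ} (hk : Adm k κ)
    (hφ : ∀ x y, k x y = φ ‖x - y‖) (μ : ℝ) {L : ℝ} (hL : 0 ≤ L) :
    ∑' N : ℕ, Real.exp μ ^ N * canZ φ 1 L N = (Xi (box L) (Wt k μ)).toReal := by
  simp_rw [term_eq hk hφ μ hL]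
  unfold Xi
  rw [ENNReal.tsum_toReal_eq]
  intro N
  exact ENNReal.mul_ne_top (by simp [Nat.factorial_ne_zero]) (cint_box_ne_top hk μ hL N)

/-- the pressure of the statement, as a function of the activity -/
theorem isPressure_of_adm {φ : ℝ → ℝ} {k : E → E → ℝ} {κ : ℝ} (hk : Adm k κ)
    (hφ : ∀ x y, k x y = φ ‖x - y‖) : IsPressure φ 1 (fun z => press k (Real.log z)) := by
  refine ⟨fun L N hL => integrableOn_boltzmann hk hφ hL N, fun z L hz hL => ?_, fun z hz => ?_⟩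
  · have h := summable_Z hk hφ (Real.log z) hL
    rwa [Real.exp_log hz] at h
  · refine (tendsto_press hk (Real.log z)).congr' ?_
    filter_upwards [eventually_ge_atTop (0 : ℝ)] with L hL
    have h := tsum_Z_eq hk hφ (Real.log z) hL
    rw [Real.exp_log hz] at h
    rw [h]
    rfl

/-- non-differentiability in `μ` gives non-differentiability in `z = exp μ`
(`press k = (fun z => press k (log z)) ∘ exp`) -/
theorem not_differentiableAt_activity {g : ℝ → ℝ} {μ : ℝ} (h : ¬ DifferentiableAt ℝ g μ) :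
    ¬ DifferentiableAt ℝ (fun z => g (Real.log z)) (Real.exp μ) := by
  intro hd
  apply h
  have h1 := hd.comp μ Real.differentiableAt_exp
  have h2 : ((fun z => g (Real.log z)) ∘ Real.exp) = g := by
    funext x
    simp
  rwa [h2] at h1

end Vale.Agent.Lib.P171
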