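import Vale.Agent.Lib.P171.Defs

/-!
# P171, layer 0: tuples versus multisets, monotonicity of configuration integrals
-/

namespace Vale.Agent.Lib.P171

open MeasureTheory Set
open scoped ENNReal

theorem ms_zero (x : Fin 0 → E) : ms x = 0 := by
  simp [ms]

theorem ms_cons {N : ℕ} (a : E) (x : Fin N → E) :
    ms (Fin.cons a x : Fin (N + 1) → E) = a ::ₘ ms x := by
  unfold ms
  rw [Fin.univ_succ]
  simp [Function.comp_def]

theorem card_ms {N : ℕ} (x : Fin N → E) : Multiset.card (ms x) = N := by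
  simp [ms]

theorem exists_ms (X : Multiset E) : ∃ x : Fin (Multiset.card X) → E, ms x = X := by
  induction X using Multiset.induction with
  | empty =>
    have key : ∀ n (_ : n = 0), ∃ y : Fin n → E, ms y = 0 := by
      intro n h
      subst h
      exact ⟨fun i => i.elim0, ms_zero _⟩
    exact key _ Multiset.card_zero
  | cons a s ih =>
    obtain ⟨x, hx⟩ := ih
    have hc : Multiset.card (a ::ₘ s) = Multiset.card s + 1 := Multiset.card_cons a s
    have key : ∀ n (h : n = Multiset.card s + 1), ∃ y : Fin n → E, ms y = a ::ₘ s := by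
      intro n h
      subst h
      exact ⟨Fin.cons a x, by rw [ms_cons, hx]⟩
    exact key _ hc

theorem map_sum_ms {N : ℕ} (x : Fin N → E) (f : E → ℝ) : ((ms x).map f).sum = ∑ i, f (x i) := by
  simp [ms, Finset.sum, Function.comp_def]

theorem mem_ms {N : ℕ} (x : Fin N → E) (a : E) : a ∈ ms x ↔ ∃ i, x i = a := by
  simp [ms]

theorem ms_append {M N : ℕ} (x : Fin M → E) (y : Fin N → E) :
    ms (Fin.append x y) = ms x + ms y := by
  unfold ms
  rw [Fin.univ_val_map, Fin.univ_val_map, Fin.univ_val_map, List.ofFn_fin_append]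
  rfl

theorem cint_zero (D : Set E) (w : Multiset E → ℝ≥0∞) : cint D 0 w = w 0 := rfl

theorem cint_succ (D : Set E) (N : ℕ) (w : Multiset E → ℝ≥0∞) :
    cint D (N + 1) w = ∫⁻ x in D, cint D N (fun X => w (x ::ₘ X)) := rfl

/-- `cint D N` only sees configurations of `N` points of `D` (induction on `N` generalising the
weights, `setLIntegral_mono'`) -/
theorem cint_mono_on {D : Set E} (hD : MeasurableSet D) {N : ℕ} {w w' : Multiset E → ℝ≥0∞}
    (h : ∀ X, Sub X D → Multiset.card X = N → w X ≤ w' X) : cint D N w ≤ cint D N w' := by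
  induction N generalizing w w' with
  | zero =>
    rw [cint_zero, cint_zero]
    exact h 0 (by intro x hx; simp at hx) rfl
  | succ N ih =>
    rw [cint_succ, cint_succ]
    apply setLIntegral_mono' hD
    intro x hx
    apply ih
    intro X hX hc
    apply h
    · intro y hy
      rcases Multiset.mem_cons.mp hy with rfl | hy
      · exact hx
      · exact hX y hy
    · rw [Multiset.card_cons, hc]

theorem cint_congr_on {D : Set E} (hD : MeasurableSet D) {N : ℕ} {w w' : Multiset E → ℝ≥0∞}
    (h : ∀ X, Sub X D → Multiset.card X = N → w X = w' X) : cint D N w = cint D N w' :=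
  le_antisymm (cint_mono_on hD fun X h1 h2 => (h X h1 h2).le)
    (cint_mono_on hD fun X h1 h2 => (h X h1 h2).ge)

theorem cint_mono_set {D D' : Set E} (h : D ⊆ D') (N : ℕ) (w : Multiset E → ℝ≥0∞) :
    cint D N w ≤ cint D' N w := by
  induction N generalizing w with
  | zero => exact le_refl _
  | succ N ih =>
    rw [cint_succ, cint_succ]
    calc ∫⁻ x in D, cint D N (fun X => w (x ::ₘ X))
        ≤ ∫⁻ x in D, cint D' N (fun X => w (x ::ₘ X)) := lintegral_mono fun x => ih _
      _ ≤ ∫⁻ x in D', cint D' N (fun X => w (x ::ₘ X)) := lintegral_mono_set h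

theorem Xi_mono_on {D : Set E} (hD : MeasurableSet D) {w w' : Multiset E → ℝ≥0∞}
    (h : ∀ X, Sub X D → w X ≤ w' X) : Xi D w ≤ Xi D w' := by
  unfold Xi
  apply ENNReal.tsum_le_tsum
  intro N
  gcongr
  exact cint_mono_on hD fun X h1 _ => h X h1

theorem Xi_congr_on {D : Set E} (hD : MeasurableSet D) {w w' : Multiset E → ℝ≥0∞}
    (h : ∀ X, Sub X D → w X = w' X) : Xi D w = Xi D w' :=
  le_antisymm (Xi_mono_on hD fun X h1 => (h X h1).le) (Xi_mono_on hD fun X h1 => (h X h1).ge)

theorem Xi_mono_set {D D' : Set E} (h : D ⊆ D') (w : Multiset E → ℝ≥0∞) : Xi D w ≤ Xi D' w := by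
  unfold Xi
  apply ENNReal.tsum_le_tsum
  intro N
  gcongr
  exact cint_mono_set h N w

theorem term_le_Xi (D : Set E) (w : Multiset E → ℝ≥0∞) (N : ℕ) :
    ((N.factorial : ℝ≥0∞))⁻¹ * cint D N w ≤ Xi D w :=
  ENNReal.le_tsum N

/-- the terms `N = 0, 1` -/
theorem le_Xi (D : Set E) (w : Multiset E → ℝ≥0∞) : w 0 + ∫⁻ x in D, w {x} ≤ Xi D w := by
  have h := ENNReal.sum_le_tsum (f := fun N : ℕ => ((N.factorial : ℝ≥0∞))⁻¹ * cint D N w)
    (Finset.range 2)
  simp only [Finset.sum_range_succ, Finset.sum_range_zero, Nat.factorial, zero_add, cint_zero,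
    cint_succ] at h
  unfold Xi
  simpa using h

theorem Xi_empty (w : Multiset E → ℝ≥0∞) : Xi ∅ w = w 0 := by
  unfold Xi
  rw [tsum_eq_single 0]
  · simp [cint_zero]
  · intro N hN
    obtain ⟨M, rfl⟩ := Nat.exists_eq_succ_of_ne_zero hN
    simp [cint_succ]

end Vale.Agent.Lib.P171
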