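import Vale.Agent.Lib.P171.CfgBasic

/-!
# P171, layer 0: the ideal gas
-/

namespace Vale.Agent.Lib.P171

open MeasureTheory Set
open scoped ENNReal

theorem cint_const_pow_aux (D : Set E) (C : ℝ≥0∞) (N m : ℕ) :
    cint D N (fun X => C ^ (Multiset.card X + m)) = C ^ m * (C * volume D) ^ N := by
  induction N generalizing m with
  | zero => simp [cint_zero]
  | succ N ih =>
    rw [cint_succ]
    have h : ∀ x : E, cint D N (fun X => C ^ (Multiset.card (x ::ₘ X) + m))
        = C ^ (m + 1) * (C * volume D) ^ N := by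
      intro x
      rw [← ih (m + 1)]
      congr 1
      funext X
      rw [Multiset.card_cons]
      congr 1
      ring
    simp only [h]
    rw [setLIntegral_const]
    ring

theorem cint_const_pow (D : Set E) (C : ℝ≥0∞) (N : ℕ) :
    cint D N (fun X => C ^ Multiset.card X) = (C * volume D) ^ N := by
  have := cint_const_pow_aux D C N 0
  simpa using this

/-- `∑ (e^t |D|)^N / N! = exp (e^t |D|)` -/
theorem Xi_exp_card (D : Set E) (hD : volume D ≠ ∞) (t : ℝ) :
    Xi D (fun X => ENNReal.ofReal (Real.exp (t * (Multiset.card X : ℝ))))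
      = ENNReal.ofReal (Real.exp (Real.exp t * (volume D).toReal)) := by
  set a : ℝ := Real.exp t * (volume D).toReal with ha
  have ha0 : 0 ≤ a := mul_nonneg (Real.exp_pos t).le ENNReal.toReal_nonneg
  have h1 : (fun X : Multiset E => ENNReal.ofReal (Real.exp (t * (Multiset.card X : ℝ))))
      = fun X => (ENNReal.ofReal (Real.exp t)) ^ Multiset.card X := by
    funext X
    rw [mul_comm, Real.exp_nat_mul, ENNReal.ofReal_pow (Real.exp_pos t).le]
  have h2 : ENNReal.ofReal (Real.exp t) * volume D = ENNReal.ofReal a := by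
    rw [ha, ENNReal.ofReal_mul (Real.exp_pos t).le, ENNReal.ofReal_toReal hD]
  unfold Xi
  rw [h1]
  simp only [cint_const_pow, h2]
  rw [Real.exp_eq_exp_ℝ, NormedSpace.exp_eq_tsum_div,
    ENNReal.ofReal_tsum_of_nonneg (fun n => by positivity) (Real.summable_pow_div_factorial a)]
  refine tsum_congr fun n => ?_
  rw [ENNReal.ofReal_div_of_pos (by positivity), ENNReal.ofReal_pow ha0, ENNReal.ofReal_natCast,
    div_eq_mul_inv, mul_comm]

end Vale.Agent.Lib.P171
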