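import Vale.Agent.Lib.P171.CfgMeas

/-!
# P171, layer 0: the Hoelder inequality for configuration integrals
-/

namespace Vale.Agent.Lib.P171

open MeasureTheory Set
open scoped ENNReal

/-- (induction on `N`, `ENNReal.lintegral_mul_norm_pow_le`) -/
theorem cint_holder {w₁ w₂ : Multiset E → ℝ≥0∞} (hw₁ : MeasW w₁) (hw₂ : MeasW w₂) {s t : ℝ}
    (hs : 0 ≤ s) (ht : 0 ≤ t) (hst : s + t = 1) (D : Set E) (N : ℕ) :
    cint D N (fun X => w₁ X ^ s * w₂ X ^ t) ≤ cint D N w₁ ^ s * cint D N w₂ ^ t := by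
  induction N generalizing w₁ w₂ with
  | zero => exact le_rfl
  | succ N ih =>
    rw [cint_succ, cint_succ, cint_succ]
    calc ∫⁻ x in D, cint D N (fun X => w₁ (x ::ₘ X) ^ s * w₂ (x ::ₘ X) ^ t)
        ≤ ∫⁻ x in D, cint D N (fun X => w₁ (x ::ₘ X)) ^ s * cint D N (fun X => w₂ (x ::ₘ X)) ^ t :=
          lintegral_mono fun x => ih (hw₁.cons x) (hw₂.cons x)
      _ ≤ _ := ENNReal.lintegral_mul_norm_pow_le (hw₁.jm_cons.cint D N).aemeasurable
          (hw₂.jm_cons.cint D N).aemeasurable hs ht hst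

/-- the Hoelder inequality for series of nonnegative terms -/
theorem tsum_holder (a b : ℕ → ℝ≥0∞) {s t : ℝ} (hs : 0 ≤ s) (ht : 0 ≤ t) (hst : s + t = 1) :
    ∑' n, a n ^ s * b n ^ t ≤ (∑' n, a n) ^ s * (∑' n, b n) ^ t := by
  have h := ENNReal.lintegral_mul_norm_pow_le (μ := (Measure.count : Measure ℕ)) (f := a) (g := b)
    (measurable_from_nat).aemeasurable (measurable_from_nat).aemeasurable hs ht hst
  simpa only [lintegral_count] using h

/-- (`cint_holder` and the same inequality for the counting measure on `ℕ`, `lintegral_count`) -/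
theorem Xi_holder {w₁ w₂ : Multiset E → ℝ≥0∞} (hw₁ : MeasW w₁) (hw₂ : MeasW w₂) {s t : ℝ}
    (hs : 0 ≤ s) (ht : 0 ≤ t) (hst : s + t = 1) (D : Set E) :
    Xi D (fun X => w₁ X ^ s * w₂ X ^ t) ≤ Xi D w₁ ^ s * Xi D w₂ ^ t := by
  unfold Xi
  refine le_trans (ENNReal.tsum_le_tsum fun N => ?_) (tsum_holder _ _ hs ht hst)
  have h1 : ((N.factorial : ℝ≥0∞))⁻¹
      = ((N.factorial : ℝ≥0∞))⁻¹ ^ s * ((N.factorial : ℝ≥0∞))⁻¹ ^ t := by
    rw [← ENNReal.rpow_add_of_nonneg _ _ hs ht, hst, ENNReal.rpow_one]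
  rw [ENNReal.mul_rpow_of_nonneg _ _ hs, ENNReal.mul_rpow_of_nonneg _ _ ht]
  calc ((N.factorial : ℝ≥0∞))⁻¹ * cint D N (fun X => w₁ X ^ s * w₂ X ^ t)
      ≤ ((N.factorial : ℝ≥0∞))⁻¹ * (cint D N w₁ ^ s * cint D N w₂ ^ t) := by
        gcongr
        exact cint_holder hw₁ hw₂ hs ht hst D N
    _ = (((N.factorial : ℝ≥0∞))⁻¹ ^ s * ((N.factorial : ℝ≥0∞))⁻¹ ^ t)
          * (cint D N w₁ ^ s * cint D N w₂ ^ t) := by rw [← h1]
    _ = _ := by ring

end Vale.Agent.Lib.P171
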