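import Vale.Agent.Lib.P171.CfgMeas

/-!
# P171, layer 0: linearity of configuration integrals and Tonelli
All proofs: induction on `N` generalising the weights, with the measurability lemmas of `CfgMeas`.
-/

namespace Vale.Agent.Lib.P171

open MeasureTheory Set
open scoped ENNReal

theorem cint_const_mul (D : Set E) (N : ℕ) (C : ℝ≥0∞) {w : Multiset E → ℝ≥0∞} (hw : MeasW w) :
    cint D N (fun X => C * w X) = C * cint D N w := by
  induction N generalizing w with
  | zero => rfl
  | succ N ih =>
    rw [cint_succ, cint_succ, ← lintegral_const_mul C (hw.jm_cons.cint D N)]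
    exact lintegral_congr fun x => ih (hw.cons x)

theorem cint_mul_const (D : Set E) (N : ℕ) (C : ℝ≥0∞) {w : Multiset E → ℝ≥0∞} (hw : MeasW w) :
    cint D N (fun X => w X * C) = cint D N w * C := by
  simp only [mul_comm _ C]
  exact cint_const_mul D N C hw

theorem cint_add (D : Set E) (N : ℕ) {w w' : Multiset E → ℝ≥0∞} (hw : MeasW w) (hw' : MeasW w') :
    cint D N (fun X => w X + w' X) = cint D N w + cint D N w' := by
  induction N generalizing w w' with
  | zero => rfl
  | succ N ih =>
    rw [cint_succ, cint_succ, cint_succ, ← lintegral_add_left (hw.jm_cons.cint D N)]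
    exact lintegral_congr fun x => ih (hw.cons x) (hw'.cons x)

theorem cint_zero_weight (D : Set E) (N : ℕ) : cint D N (fun _ => 0) = 0 := by
  induction N with
  | zero => rfl
  | succ N ih =>
    rw [cint_succ]
    simp [ih]

theorem cint_finset_sum (D : Set E) (N : ℕ) {ι : Type} (s : Finset ι)
    {w : ι → Multiset E → ℝ≥0∞} (hw : ∀ i ∈ s, MeasW (w i)) :
    cint D N (fun X => ∑ i ∈ s, w i X) = ∑ i ∈ s, cint D N (w i) := by
  classical
  induction s using Finset.induction_on with
  | empty => simpa using cint_zero_weight D N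
  | insert a s ha ih =>
    simp only [Finset.sum_insert ha]
    rw [cint_add D N (hw a (Finset.mem_insert_self a s))
      (MeasW.finset_sum s fun i hi => hw i (Finset.mem_insert_of_mem hi)),
      ih fun i hi => hw i (Finset.mem_insert_of_mem hi)]

theorem cint_tsum (D : Set E) (N : ℕ) {w : ℕ → Multiset E → ℝ≥0∞} (hw : ∀ n, MeasW (w n)) :
    cint D N (fun X => ∑' n, w n X) = ∑' n, cint D N (w n) := by
  induction N generalizing w with
  | zero => rfl
  | succ N ih =>
    simp only [cint_succ]
    rw [← lintegral_tsum fun n => ((hw n).jm_cons.cint D N).aemeasurable]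
    exact lintegral_congr fun x => ih fun n => (hw n).cons x

/-- Tonelli: an integral over a parameter commutes with `cint` -/
theorem lintegral_cint {α : Type} [MeasurableSpace α] (ν : Measure α) [SFinite ν]
    {g : α → Multiset E → ℝ≥0∞} (hg : JM g) (D : Set E) (N : ℕ) :
    ∫⁻ a, cint D N (g a) ∂ν = cint D N (fun X => ∫⁻ a, g a X ∂ν) := by
  induction N generalizing g with
  | zero => rfl
  | succ N ih =>
    simp only [cint_succ]
    rw [lintegral_lintegral_swap (hg.cons.cint D N).aemeasurable]
    refine lintegral_congr fun x => ?_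
    exact ih (g := fun a X => g a (x ::ₘ X))
      (hg.cons.comp (f := fun a : α => (a, x)) (by fun_prop))

theorem Xi_const_mul (D : Set E) (C : ℝ≥0∞) {w : Multiset E → ℝ≥0∞} (hw : MeasW w) :
    Xi D (fun X => C * w X) = C * Xi D w := by
  unfold Xi
  rw [← ENNReal.tsum_mul_left]
  refine tsum_congr fun N => ?_
  rw [cint_const_mul D N C hw, mul_left_comm]

theorem Xi_mul_const (D : Set E) (C : ℝ≥0∞) {w : Multiset E → ℝ≥0∞} (hw : MeasW w) :
    Xi D (fun X => w X * C) = Xi D w * C := by
  simp only [mul_comm _ C]
  exact Xi_const_mul D C hw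

theorem Xi_finset_sum (D : Set E) {ι : Type} (s : Finset ι)
    {w : ι → Multiset E → ℝ≥0∞} (hw : ∀ i ∈ s, MeasW (w i)) :
    Xi D (fun X => ∑ i ∈ s, w i X) = ∑ i ∈ s, Xi D (w i) := by
  unfold Xi
  rw [← Summable.tsum_finsetSum fun i _ => ENNReal.summable]
  refine tsum_congr fun N => ?_
  rw [cint_finset_sum D N s hw, Finset.mul_sum]

/-- weights multiplied by a function of the number of points -/
theorem Xi_card_weight {D : Set E} (hD : MeasurableSet D) (f : ℕ → ℝ≥0∞)
    {w : Multiset E → ℝ≥0∞} (hw : MeasW w) :
    Xi D (fun X => f (Multiset.card X) * w X)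
      = ∑' N : ℕ, f N * (((N.factorial : ℝ≥0∞))⁻¹ * cint D N w) := by
  unfold Xi
  refine tsum_congr fun N => ?_
  rw [cint_congr_on hD (w' := fun X => f N * w X) (fun X _ hc => by rw [hc]),
    cint_const_mul D N (f N) hw, mul_left_comm]

end Vale.Agent.Lib.P171
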