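import Vale.Agent.Lib.P171.CfgBasic

/-!
# P171, layer 0: measurability of configuration integrals depending on parameters
-/

namespace Vale.Agent.Lib.P171

open MeasureTheory Set
open scoped ENNReal

variable {α : Type} [MeasurableSpace α]

theorem MeasW.jm {w : Multiset E → ℝ≥0∞} (hw : MeasW w) : JM (fun (_ : α) X => w X) := by
  intro N
  exact (hw N).comp measurable_snd

theorem JM.measW {g : α → Multiset E → ℝ≥0∞} (hg : JM g) (a : α) : MeasW (g a) := by
  intro N
  have hm : Measurable fun x : Fin N → E => ((a, x) : α × (Fin N → E)) :=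
    measurable_const.prodMk measurable_id
  have := (hg N).comp hm
  exact this

/-- reparametrisation -/
theorem JM.comp {β : Type} [MeasurableSpace β] {g : α → Multiset E → ℝ≥0∞} (hg : JM g)
    {f : β → α} (hf : Measurable f) : JM (fun b X => g (f b) X) := by
  intro N
  have hm : Measurable fun p : β × (Fin N → E) => ((f p.1, p.2) : α × (Fin N → E)) :=
    (hf.comp measurable_fst).prodMk measurable_snd
  have := (hg N).comp hm
  exact this

theorem measurable_fin_cons (N : ℕ) :
    Measurable fun p : E × (Fin N → E) => (Fin.cons p.1 p.2 : Fin (N + 1) → E) := by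
  rw [measurable_pi_iff]
  intro i
  refine Fin.cases ?_ (fun j => ?_) i
  · simp only [Fin.cons_zero]
    exact measurable_fst
  · simp only [Fin.cons_succ]
    exact (measurable_pi_apply j).comp measurable_snd

theorem measurable_fin_append (M N : ℕ) :
    Measurable fun p : (Fin M → E) × (Fin N → E) => (Fin.append p.1 p.2 : Fin (M + N) → E) := by
  rw [measurable_pi_iff]
  intro i
  refine Fin.addCases (fun j => ?_) (fun j => ?_) i
  · simp only [Fin.append_left]
    exact (measurable_pi_apply j).comp measurable_fst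
  · simp only [Fin.append_right]
    exact (measurable_pi_apply j).comp measurable_snd

/-- (`(a, x, y) ↦ (a, Fin.cons x y)` is measurable, `ms_cons`) -/
theorem JM.cons {g : α → Multiset E → ℝ≥0∞} (hg : JM g) :
    JM (fun (p : α × E) X => g p.1 (p.2 ::ₘ X)) := by
  intro N
  have hc : Measurable fun p : (α × E) × (Fin N → E) => ((p.1.2, p.2) : E × (Fin N → E)) :=
    (measurable_snd.comp measurable_fst).prodMk measurable_snd
  have hc2 : Measurable fun p : (α × E) × (Fin N → E) =>
      (Fin.cons p.1.2 p.2 : Fin (N + 1) → E) := (measurable_fin_cons N).comp hc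
  have hm : Measurable fun p : (α × E) × (Fin N → E) =>
      ((p.1.1, (Fin.cons p.1.2 p.2 : Fin (N + 1) → E)) : α × (Fin (N + 1) → E)) :=
    (measurable_fst.comp measurable_fst).prodMk hc2
  have h := (hg (N + 1)).comp hm
  have he : (fun p : (α × E) × (Fin N → E) => g p.1.1 (p.1.2 ::ₘ ms p.2))
      = (fun p : α × (Fin (N + 1) → E) => g p.1 (ms p.2)) ∘ fun p : (α × E) × (Fin N → E) =>
      ((p.1.1, (Fin.cons p.1.2 p.2 : Fin (N + 1) → E)) : α × (Fin (N + 1) → E)) := by
    funext p
    simp only [Function.comp_apply, ms_cons]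
  rw [he]
  exact h

/-- (`(a, x, y) ↦ (a, Fin.append x y)` is measurable, `ms_append`) -/
theorem JM.append {g : α → Multiset E → ℝ≥0∞} (hg : JM g) (M : ℕ) :
    JM (fun (p : α × (Fin M → E)) X => g p.1 (ms p.2 + X)) := by
  intro N
  have hc : Measurable fun p : (α × (Fin M → E)) × (Fin N → E) =>
      ((p.1.2, p.2) : (Fin M → E) × (Fin N → E)) :=
    (measurable_snd.comp measurable_fst).prodMk measurable_snd
  have hc2 : Measurable fun p : (α × (Fin M → E)) × (Fin N → E) =>
      (Fin.append p.1.2 p.2 : Fin (M + N) → E) := (measurable_fin_append M N).comp hc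
  have hm : Measurable fun p : (α × (Fin M → E)) × (Fin N → E) =>
      ((p.1.1, (Fin.append p.1.2 p.2 : Fin (M + N) → E)) : α × (Fin (M + N) → E)) :=
    (measurable_fst.comp measurable_fst).prodMk hc2
  have h := (hg (M + N)).comp hm
  have he : (fun p : (α × (Fin M → E)) × (Fin N → E) => g p.1.1 (ms p.1.2 + ms p.2))
      = (fun p : α × (Fin (M + N) → E) => g p.1 (ms p.2)) ∘
        fun p : (α × (Fin M → E)) × (Fin N → E) =>
      ((p.1.1, (Fin.append p.1.2 p.2 : Fin (M + N) → E)) : α × (Fin (M + N) → E)) := by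
    funext p
    simp only [Function.comp_apply, ms_append]
  rw [he]
  exact h

theorem jm_cint_aux (D : Set E) (N : ℕ) : ∀ (β : Type) [MeasurableSpace β]
    (g : β → Multiset E → ℝ≥0∞), JM g → Measurable fun a => cint D N (g a) := by
  induction N with
  | zero =>
    intro β _ g hg
    have hm : Measurable fun a : β => ((a, fun i => Fin.elim0 i) : β × (Fin 0 → E)) :=
      measurable_id.prodMk measurable_const
    have h := (hg 0).comp hm
    have he : (fun a => cint D 0 (g a))
        = (fun p : β × (Fin 0 → E) => g p.1 (ms p.2)) ∘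
          fun a : β => ((a, fun i => Fin.elim0 i) : β × (Fin 0 → E)) := by
      funext a
      simp only [Function.comp_apply, ms_zero, cint_zero]
    rw [he]
    exact h
  | succ N ih =>
    intro β _ g hg
    have h1 : Measurable fun p : β × E => cint D N (fun X => g p.1 (p.2 ::ₘ X)) :=
      ih (β × E) (fun p X => g p.1 (p.2 ::ₘ X)) hg.cons
    have h2 := h1.lintegral_prod_right' (ν := volume.restrict D)
    exact h2

/-- (induction on `N` generalising `α` and `g`: `JM.cons` and `Measurable.lintegral_prod_right'`) -/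
theorem JM.cint {g : α → Multiset E → ℝ≥0∞} (hg : JM g) (D : Set E) (N : ℕ) :
    Measurable fun a => cint D N (g a) :=
  jm_cint_aux D N α g hg

/-- (`JM.append` and `JM.cint`) -/
theorem JM.cint_add {g : α → Multiset E → ℝ≥0∞} (hg : JM g) (D : Set E) (N : ℕ) :
    JM (fun a X => Vale.Agent.Lib.P171.cint D N (fun Y => g a (X + Y))) := by
  intro M
  exact (hg.append M).cint D N

theorem JM.Xi_add {g : α → Multiset E → ℝ≥0∞} (hg : JM g) (D : Set E) :
    JM (fun a X => Xi D (fun Y => g a (X + Y))) := by
  intro M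
  unfold Xi
  refine Measurable.ennreal_tsum (fun N => ?_)
  exact (hg.cint_add D N M).const_mul _

theorem JM.mul {g g' : α → Multiset E → ℝ≥0∞} (hg : JM g) (hg' : JM g') :
    JM (fun a X => g a X * g' a X) := by
  intro N
  exact (hg N).mul (hg' N)

theorem JM.add {g g' : α → Multiset E → ℝ≥0∞} (hg : JM g) (hg' : JM g') :
    JM (fun a X => g a X + g' a X) := by
  intro N
  exact (hg N).add (hg' N)

theorem JM.of_param {f : α → ℝ≥0∞} (hf : Measurable f) : JM (fun a (_ : Multiset E) => f a) := by
  intro N
  exact hf.comp measurable_fst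

theorem JM.lintegral {β : Type} [MeasurableSpace β] (ν : Measure β) [SFinite ν]
    {g : α × β → Multiset E → ℝ≥0∞} (hg : JM g) : JM (fun a X => ∫⁻ b, g (a, b) X ∂ν) := by
  intro N
  have hm : Measurable fun q : (α × (Fin N → E)) × β =>
      (((q.1.1, q.2), q.1.2) : (α × β) × (Fin N → E)) :=
    ((measurable_fst.comp measurable_fst).prodMk measurable_snd).prodMk
      (measurable_snd.comp measurable_fst)
  have h1 : Measurable fun q : (α × (Fin N → E)) × β => g (q.1.1, q.2) (ms q.1.2) :=
    (hg N).comp hm
  have h2 := h1.lintegral_prod_right' (ν := ν)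
  exact h2

theorem MeasW.jm_cons {w : Multiset E → ℝ≥0∞} (hw : MeasW w) :
    JM (fun (x : E) X => w (x ::ₘ X)) := by
  have h1 : JM (fun (p : Unit × E) X => w (p.2 ::ₘ X)) := (hw.jm (α := Unit)).cons
  have hm : Measurable fun x : E => (((), x) : Unit × E) := measurable_const.prodMk measurable_id
  exact h1.comp hm

theorem MeasW.cons {w : Multiset E → ℝ≥0∞} (hw : MeasW w) (x : E) :
    MeasW (fun X => w (x ::ₘ X)) :=
  hw.jm_cons.measW x

theorem MeasW.add_left {w : Multiset E → ℝ≥0∞} (hw : MeasW w) (X : Multiset E) :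
    MeasW (fun Y => w (X + Y)) := by
  obtain ⟨x, hx⟩ := exists_ms X
  have h1 := ((hw.jm (α := Unit)).append (Multiset.card X)).measW ((), x)
  simp only [hx] at h1
  exact h1

theorem MeasW.cint_add {w : Multiset E → ℝ≥0∞} (hw : MeasW w) (D : Set E) (N : ℕ) :
    MeasW (fun X => cint D N (fun Y => w (X + Y))) :=
  ((hw.jm (α := Unit)).cint_add D N).measW ()

theorem MeasW.Xi_add {w : Multiset E → ℝ≥0∞} (hw : MeasW w) (D : Set E) :
    MeasW (fun X => Xi D (fun Y => w (X + Y))) :=
  ((hw.jm (α := Unit)).Xi_add D).measW ()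

theorem MeasW.mul {w w' : Multiset E → ℝ≥0∞} (hw : MeasW w) (hw' : MeasW w') :
    MeasW (fun X => w X * w' X) := by
  intro N
  exact (hw N).mul (hw' N)

theorem MeasW.add {w w' : Multiset E → ℝ≥0∞} (hw : MeasW w) (hw' : MeasW w') :
    MeasW (fun X => w X + w' X) := by
  intro N
  exact (hw N).add (hw' N)

theorem MeasW.const_mul {w : Multiset E → ℝ≥0∞} (hw : MeasW w) (C : ℝ≥0∞) :
    MeasW (fun X => C * w X) := by
  intro N
  exact (hw N).const_mul C

theorem MeasW.rpow {w : Multiset E → ℝ≥0∞} (hw : MeasW w) (s : ℝ) :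
    MeasW (fun X => w X ^ s) := by
  intro N
  exact (hw N).pow_const s

theorem MeasW.finset_sum {ι : Type} (s : Finset ι) {w : ι → Multiset E → ℝ≥0∞}
    (hw : ∀ i ∈ s, MeasW (w i)) : MeasW (fun X => ∑ i ∈ s, w i X) := by
  intro N
  exact Finset.measurable_fun_sum s (fun i hi => hw i hi N)

/-- weights depending only on the number of points -/
theorem measW_card (f : ℕ → ℝ≥0∞) : MeasW (fun X => f (Multiset.card X)) := by
  intro N
  simp only [card_ms]
  exact measurable_const

end Vale.Agent.Lib.P171
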