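import Vale.Agent.Lib.P171.CfgLinear

/-!
# P171, layer 0: configurations in a disjoint union
-/

namespace Vale.Agent.Lib.P171

open MeasureTheory Set
open scoped ENNReal

/-- Pascal resummation. -/
theorem pascal_sum (f : ℕ → ℕ → ℝ≥0∞) (N : ℕ) :
    ∑ k ∈ Finset.range (N + 1), (N.choose k : ℝ≥0∞) * (f (k + 1) (N - k) + f k (N - k + 1))
      = ∑ k ∈ Finset.range (N + 1 + 1), ((N + 1).choose k : ℝ≥0∞) * f k (N + 1 - k) := by
  have h1 : ∑ k ∈ Finset.range (N + 1 + 1), ((N + 1).choose k : ℝ≥0∞) * f k (N + 1 - k)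
      = ∑ k ∈ Finset.range (N + 1), (N.choose k : ℝ≥0∞) * f (k + 1) (N - k)
        + (∑ k ∈ Finset.range (N + 1), (N.choose (k + 1) : ℝ≥0∞) * f (k + 1) (N - k)
          + f 0 (N + 1)) := by
    rw [Finset.sum_range_succ']
    simp only [Nat.choose_succ_succ, Nat.cast_add, add_mul, Finset.sum_add_distrib,
      Nat.choose_zero_right, Nat.cast_one, one_mul, Nat.sub_zero, Nat.add_sub_add_right]
    rw [add_assoc]
  have h2 : ∑ k ∈ Finset.range (N + 1), (N.choose (k + 1) : ℝ≥0∞) * f (k + 1) (N - k)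
          + f 0 (N + 1)
      = ∑ k ∈ Finset.range (N + 1), (N.choose k : ℝ≥0∞) * f k (N - k + 1) := by
    have h3 : ∑ k ∈ Finset.range (N + 1 + 1), (N.choose k : ℝ≥0∞) * f k (N + 1 - k)
        = ∑ k ∈ Finset.range (N + 1), (N.choose (k + 1) : ℝ≥0∞) * f (k + 1) (N - k)
          + f 0 (N + 1) := by
      rw [Finset.sum_range_succ']
      simp only [Nat.choose_zero_right, Nat.cast_one, one_mul, Nat.sub_zero,
        Nat.add_sub_add_right]
    rw [← h3, Finset.sum_range_succ]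
    simp only [Nat.choose_succ_self, Nat.cast_zero, zero_mul, add_zero]
    refine Finset.sum_congr rfl (fun k hk => ?_)
    have : k ≤ N := Nat.lt_succ_iff.1 (Finset.mem_range.1 hk)
    rw [Nat.sub_add_comm this]
  rw [h1, h2]
  simp only [mul_add, Finset.sum_add_distrib]

set_option linter.unusedVariables false in
/-- Binomial splitting. Induction on `N` generalising `w`:
`cint (D₁ ∪ D₂) (N+1) w = ∫_{D₁} + ∫_{D₂}` (`lintegral_union`), insert the induction hypothesis for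
`w (x ::ₘ ·)`, pull the finite sum out (`lintegral_finset_sum`, measurability from `CfgMeas`); the
`D₁` part is `cint D₁ (k+1)` by definition (`Multiset.cons_add`), in the `D₂` part commute the
integral with `cint D₁ k` (`lintegral_cint`) and use `Multiset.add_cons`; conclude by Pascal. -/
theorem cint_union {D₁ D₂ : Set E} (h₁ : MeasurableSet D₁) (h₂ : MeasurableSet D₂)
    (hd : Disjoint D₁ D₂) {w : Multiset E → ℝ≥0∞} (hw : MeasW w) (N : ℕ) :
    cint (D₁ ∪ D₂) N w = ∑ k ∈ Finset.range (N + 1), (N.choose k : ℝ≥0∞) *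
      cint D₁ k (fun X => cint D₂ (N - k) (fun Y => w (X + Y))) := by
  induction N generalizing w with
  | zero => simp [cint_zero]
  | succ N ih =>
    rw [cint_succ]
    have hF : ∀ x : E, cint (D₁ ∪ D₂) N (fun X => w (x ::ₘ X))
        = ∑ k ∈ Finset.range (N + 1), (N.choose k : ℝ≥0∞) *
          cint D₁ k (fun X => cint D₂ (N - k) (fun Y => w (x ::ₘ (X + Y)))) :=
      fun x => ih (hw.cons x)
    simp only [hF]
    have hjm : ∀ l : ℕ, JM (fun (x : E) X => cint D₂ l (fun Y => w (x ::ₘ (X + Y)))) :=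
      fun l => hw.jm_cons.cint_add D₂ l
    have hmeas : ∀ k l : ℕ, Measurable fun x : E =>
        cint D₁ k (fun X => cint D₂ l (fun Y => w (x ::ₘ (X + Y)))) :=
      fun k l => (hjm l).cint D₁ k
    have hsplit : ∀ D : Set E, ∫⁻ x in D, ∑ k ∈ Finset.range (N + 1), (N.choose k : ℝ≥0∞) *
          cint D₁ k (fun X => cint D₂ (N - k) (fun Y => w (x ::ₘ (X + Y))))
        = ∑ k ∈ Finset.range (N + 1), (N.choose k : ℝ≥0∞) *
          ∫⁻ x in D, cint D₁ k (fun X => cint D₂ (N - k) (fun Y => w (x ::ₘ (X + Y)))) := by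
      intro D
      rw [lintegral_finsetSum _ (fun k _ => (hmeas k (N - k)).const_mul _)]
      refine Finset.sum_congr rfl (fun k _ => ?_)
      rw [lintegral_const_mul _ (hmeas k (N - k))]
    rw [lintegral_union h₂ hd, hsplit, hsplit, ← Finset.sum_add_distrib]
    rw [← pascal_sum (fun k l => cint D₁ k (fun X => cint D₂ l (fun Y => w (X + Y)))) N]
    refine Finset.sum_congr rfl (fun k _ => ?_)
    rw [← mul_add]
    congr 2
    · rw [cint_succ]
      simp only [Multiset.cons_add]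
    · rw [lintegral_cint _ (hjm (N - k)) D₁ k]
      simp only [cint_succ, Multiset.add_cons]

theorem inv_factorial_mul_choose (k l : ℕ) :
    (((k + l).factorial : ℝ≥0∞))⁻¹ * ((k + l).choose k : ℝ≥0∞)
      = ((k.factorial : ℝ≥0∞))⁻¹ * ((l.factorial : ℝ≥0∞))⁻¹ := by
  have hk : (k.factorial : ℝ≥0∞) ≠ 0 := by exact_mod_cast k.factorial_ne_zero
  have hl : (l.factorial : ℝ≥0∞) ≠ 0 := by exact_mod_cast l.factorial_ne_zero
  have hkl : ((k + l).factorial : ℝ≥0∞) ≠ 0 := by exact_mod_cast (k + l).factorial_ne_zero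
  have hk' : (k.factorial : ℝ≥0∞) ≠ ∞ := ENNReal.natCast_ne_top _
  have hl' : (l.factorial : ℝ≥0∞) ≠ ∞ := ENNReal.natCast_ne_top _
  have hkl' : ((k + l).factorial : ℝ≥0∞) ≠ ∞ := ENNReal.natCast_ne_top _
  have h : ((k + l).choose k : ℝ≥0∞) * (k.factorial : ℝ≥0∞) * (l.factorial : ℝ≥0∞)
      = ((k + l).factorial : ℝ≥0∞) := by
    have := Nat.choose_mul_factorial_mul_factorial (Nat.le_add_right k l)
    rw [Nat.add_sub_cancel_left] at this
    exact_mod_cast this
  calc (((k + l).factorial : ℝ≥0∞))⁻¹ * ((k + l).choose k : ℝ≥0∞)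
      = (((k + l).factorial : ℝ≥0∞))⁻¹ * (((k + l).choose k : ℝ≥0∞)
          * ((k.factorial : ℝ≥0∞) * ((k.factorial : ℝ≥0∞))⁻¹)
          * ((l.factorial : ℝ≥0∞) * ((l.factorial : ℝ≥0∞))⁻¹)) := by
        rw [ENNReal.mul_inv_cancel hk hk', ENNReal.mul_inv_cancel hl hl', mul_one, mul_one]
    _ = (((k + l).factorial : ℝ≥0∞))⁻¹ * (((k + l).choose k : ℝ≥0∞) * (k.factorial : ℝ≥0∞)
          * (l.factorial : ℝ≥0∞)) * (((k.factorial : ℝ≥0∞))⁻¹ * ((l.factorial : ℝ≥0∞))⁻¹) := by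
        ring
    _ = ((k.factorial : ℝ≥0∞))⁻¹ * ((l.factorial : ℝ≥0∞))⁻¹ := by
        rw [h, ENNReal.inv_mul_cancel hkl hkl', one_mul]

/-- resummation of a double series along antidiagonals -/
theorem tsum_tsum_eq_tsum_range (F : ℕ → ℕ → ℝ≥0∞) :
    ∑' k : ℕ, ∑' l : ℕ, F k l = ∑' N : ℕ, ∑ k ∈ Finset.range (N + 1), F k (N - k) := by
  rw [← ENNReal.tsum_prod (f := F)]
  rw [← (Finset.HasAntidiagonal.sigmaAntidiagonalEquivProd (A := ℕ)).tsum_eq (fun p : ℕ × ℕ => F p.1 p.2)]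
  rw [ENNReal.tsum_sigma']
  refine tsum_congr (fun N => ?_)
  rw [← Finset.Nat.sum_antidiagonal_eq_sum_range_succ (fun k l => F k l) N]
  rw [← Finset.tsum_subtype (Finset.HasAntidiagonal.antidiagonal N) (fun p : ℕ × ℕ => F p.1 p.2)]
  rfl

/-- (`cint_union`, `choose / N! = 1/(k! (N-k)!)`, resummation of a double series in `ℝ≥0∞`,
`cint_tsum`, `cint_const_mul`) -/
theorem Xi_union {D₁ D₂ : Set E} (h₁ : MeasurableSet D₁) (h₂ : MeasurableSet D₂)
    (hd : Disjoint D₁ D₂) {w : Multiset E → ℝ≥0∞} (hw : MeasW w) :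
    Xi (D₁ ∪ D₂) w = Xi D₁ (fun X => Xi D₂ (fun Y => w (X + Y))) := by
  have hR : Xi D₁ (fun X => Xi D₂ (fun Y => w (X + Y)))
      = ∑' k : ℕ, ∑' l : ℕ, ((k.factorial : ℝ≥0∞))⁻¹ * (((l.factorial : ℝ≥0∞))⁻¹ *
          cint D₁ k (fun X => cint D₂ l (fun Y => w (X + Y)))) := by
    unfold Xi
    refine tsum_congr (fun k => ?_)
    rw [cint_tsum D₁ k (fun l => (hw.cint_add D₂ l).const_mul _), ← ENNReal.tsum_mul_left]
    refine tsum_congr (fun l => ?_)
    rw [cint_const_mul D₁ k _ (hw.cint_add D₂ l)]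
  rw [hR, tsum_tsum_eq_tsum_range]
  unfold Xi
  refine tsum_congr (fun N => ?_)
  rw [cint_union h₁ h₂ hd hw, Finset.mul_sum]
  refine Finset.sum_congr rfl (fun k hk => ?_)
  have hkN : k ≤ N := Nat.lt_succ_iff.1 (Finset.mem_range.1 hk)
  obtain ⟨l, rfl⟩ := Nat.exists_eq_add_of_le hkN
  rw [Nat.add_sub_cancel_left, ← mul_assoc, ← mul_assoc, inv_factorial_mul_choose]

end Vale.Agent.Lib.P171
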