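import Mathlib

/-!
# P171: basic definitions (configurations, configuration integrals, energies, pressure)

Configurations are finite multisets of points of `E = ℝ³`. `cint D N w` is the integral of the
symmetric weight `w` over `D^N`, `Xi D w = ∑_N cint D N w / N!` the grand canonical sum.
-/

namespace Vale.Agent.Lib.P171

open MeasureTheory Set
open scoped ENNReal

/-- three dimensional Euclidean space -/
abbrev E := EuclideanSpace ℝ (Fin 3)

/-- the configuration (multiset) of a tuple of points -/
def ms {N : ℕ} (x : Fin N → E) : Multiset E := Finset.univ.val.map x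

/-- all points of the configuration `X` lie in `D` -/
def Sub (X : Multiset E) (D : Set E) : Prop := ∀ x ∈ X, x ∈ D

/-- measurability of a weight on configurations -/
def MeasW (w : Multiset E → ℝ≥0∞) : Prop := ∀ N : ℕ, Measurable fun x : Fin N → E => w (ms x)

/-- joint measurability of a weight depending on a parameter -/
def JM {α : Type} [MeasurableSpace α] (g : α → Multiset E → ℝ≥0∞) : Prop :=
  ∀ N : ℕ, Measurable fun p : α × (Fin N → E) => g p.1 (ms p.2)

/-- the integral of `w` over `N` points in `D` (iterated integral) -/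
noncomputable def cint (D : Set E) : ℕ → (Multiset E → ℝ≥0∞) → ℝ≥0∞
  | 0, w => w 0
  | N + 1, w => ∫⁻ x in D, cint D N (fun X => w (x ::ₘ X))

/-- grand canonical sum of the weight `w` over configurations in `D` -/
noncomputable def Xi (D : Set E) (w : Multiset E → ℝ≥0∞) : ℝ≥0∞ :=
  ∑' N : ℕ, ((N.factorial : ℝ≥0∞))⁻¹ * cint D N w

/-- sum of a kernel over all ordered pairs of points of `X × Y` -/
def cross (k : E → E → ℝ) (X Y : Multiset E) : ℝ :=
  (X.map fun x => (Y.map fun y => k x y).sum).sum

/-- sum of a kernel over all ordered pairs (diagonal included) -/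
def dsum (k : E → E → ℝ) (X : Multiset E) : ℝ := cross k X X

/-- diagonal sum -/
def diag (k : E → E → ℝ) (X : Multiset E) : ℝ := (X.map fun x => k x x).sum

/-- pair energy of the kernel `k`: half the sum over ordered pairs of distinct indices -/
noncomputable def En (k : E → E → ℝ) (X : Multiset E) : ℝ := (dsum k X - diag k X) / 2

/-- Boltzmann weight at chemical potential `μ` (inverse temperature one) -/
noncomputable def Wt (k : E → E → ℝ) (μ : ℝ) (X : Multiset E) : ℝ≥0∞ :=
  ENNReal.ofReal (Real.exp (μ * (Multiset.card X : ℝ) - En k X))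

/-- the cube `[0, L]³` -/
def box (L : ℝ) : Set E := {x | ∀ i, 0 ≤ x i ∧ x i ≤ L}

/-- index of the cell of the grid of mesh `ℓ` and offset `σ` (same in all coordinates) -/
noncomputable def cellIdx (ℓ σ : ℝ) (x : E) : Fin 3 → ℤ := fun i => ⌊(x i - σ) / ℓ⌋

/-- the cell with index `n` -/
def cell (ℓ σ : ℝ) (n : Fin 3 → ℤ) : Set E := {x | cellIdx ℓ σ x = n}

open Classical in
/-- indicator kernel of lying in the same cell -/
noncomputable def same (ℓ σ : ℝ) (x y : E) : ℝ := if cellIdx ℓ σ x = cellIdx ℓ σ y then 1 else 0

open Classical in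
/-- indicator kernel of the core: distance less than one -/
noncomputable def rep (x y : E) : ℝ := if ‖x - y‖ < 1 then 1 else 0

/-- `∑_Δ n_Δ²` over the cells of mesh one half -/
noncomputable def SC (X : Multiset E) : ℝ := dsum (same (1 / 2) 0) X

/-- volume of the intersection of two balls of radius `R` -/
noncomputable def lensK (R : ℝ) (x y : E) : ℝ :=
  (volume (Metric.ball x R ∩ Metric.ball y R)).toReal

/-- volume of the ball of radius `R` -/
noncomputable def vB (R : ℝ) : ℝ := (volume (Metric.ball (0 : E) R)).toReal

/-- the Kac kernel of strength `c` and range `R`: integral over `y` equals `2 c` -/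
noncomputable def kac (c R : ℝ) (x y : E) : ℝ := 2 * c / vB R ^ 2 * lensK R x y

/-- core of height `a` minus an attraction `A` -/
noncomputable def ker (a : ℝ) (A : E → E → ℝ) (x y : E) : ℝ := a * rep x y - A x y

/-- an attraction kernel dominated by `2 κ ∑ n_Δ²` -/
structure IsAttr (A : E → E → ℝ) (κ : ℝ) : Prop where
  nonneg : ∀ x y, 0 ≤ A x y
  symm : ∀ x y, A x y = A y x
  meas : Measurable (Function.uncurry A)
  transl : ∀ v x y, A (x + v) (y + v) = A x y
  bound : ∀ X : Multiset E, dsum A X ≤ 2 * κ * SC X

/-- finite range -/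
def HasRange (A : E → E → ℝ) (h : ℝ) : Prop := ∀ x y, h ≤ ‖x - y‖ → A x y = 0

/-- kernels for which the thermodynamic limit is constructed -/
structure Adm (k : E → E → ℝ) (κ : ℝ) : Prop where
  meas : Measurable (Function.uncurry k)
  transl : ∀ v x y, k (x + v) (y + v) = k x y
  far : ∀ x y, 1 ≤ ‖x - y‖ → k x y ≤ 0
  stab : ∀ X : Multiset E, -(κ * (Multiset.card X : ℝ)) ≤ En k X

/-- logarithm of the grand canonical partition function of the cube of side `L` -/
noncomputable def lp (k : E → E → ℝ) (μ L : ℝ) : ℝ := Real.log (Xi (box L) (Wt k μ)).toReal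

/-- the pressure -/
noncomputable def press (k : E → E → ℝ) (μ : ℝ) : ℝ :=
  sSup ((fun L : ℝ => lp k μ L / (L + 1) ^ 3) '' Set.Ici 0)

end Vale.Agent.Lib.P171
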