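import Vale.Agent.Lib.P171.Bridge
import Vale.Agent.Lib.P171.Asm4

/-!
# P171, layer 5: the final theorem
-/

namespace Vale.Agent.Lib.P171

open MeasureTheory Set Filter Topology
open scoped ENNReal

open Classical in
/-- the potential: a core of height `aa` on `[0, 1)` minus the multi-scale Kac attraction -/
noncomputable def phi (R : ℕ → ℝ) (r : ℝ) : ℝ :=
  (if r < 1 then aa else 0) - Atail R 0 0 (r • (EuclideanSpace.single 0 1 : E))

theorem kac_eq_norm (c R : ℝ) (x y : E) :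
    kac c R x y = kac c R 0 (‖x - y‖ • (EuclideanSpace.single 0 1 : E)) := by
  unfold kac
  rw [lensK_eq_lens R x y]
  rfl

theorem Atail_eq_norm (R : ℕ → ℝ) (n : ℕ) (x y : E) :
    Atail R n x y = Atail R n 0 (‖x - y‖ • (EuclideanSpace.single 0 1 : E)) := by
  unfold Atail
  exact tsum_congr fun j => kac_eq_norm _ _ x y

/-- (termwise `lensK_eq_lens` and the definition of `lens`) -/
theorem ker_eq_phi (R : ℕ → ℝ) (x y : E) : ker aa (Atail R 0) x y = phi R ‖x - y‖ := by
  unfold ker phi rep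
  rw [Atail_eq_norm R 0 x y]
  congr 1
  split_ifs <;> simp

theorem measurable_Atail_radial {R : ℕ → ℝ} (hR : ∀ j, 8 ≤ R j) :
    Measurable fun r : ℝ => Atail R 0 0 (r • (EuclideanSpace.single 0 1 : E)) := by
  have hA : Measurable (Function.uncurry (Atail R 0)) := (isAttr_Atail hR 0).meas
  have hm : Measurable fun r : ℝ => ((0, r • (EuclideanSpace.single 0 1 : E)) : E × E) :=
    measurable_const.prodMk (measurable_id.smul_const _)
  have e : (fun r : ℝ => Atail R 0 0 (r • (EuclideanSpace.single 0 1 : E))) = fun r : ℝ =>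
      Function.uncurry (Atail R 0) ((0, r • (EuclideanSpace.single 0 1 : E)) : E × E) := by
    funext r
    rfl
  rw [e]
  exact hA.comp hm

theorem measurable_phi {R : ℕ → ℝ} (hR : ∀ j, 8 ≤ R j) : Measurable (phi R) := by
  unfold phi
  refine Measurable.sub ?_ (measurable_Atail_radial hR)
  exact Measurable.ite measurableSet_Iio measurable_const measurable_const

theorem phi_bounded {R : ℕ → ℝ} (hR : ∀ j, 8 ≤ R j) : ∃ M : ℝ, ∀ r, |phi R r| ≤ M := by
  refine ⟨aa + 560000 / vB 1, fun r => ?_⟩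
  have h0 := (isAttr_Atail hR 0).nonneg 0 (r • (EuclideanSpace.single 0 1 : E))
  have h1 := Atail_le hR 0 (r • (EuclideanSpace.single 0 1 : E))
  have haa : (0 : ℝ) ≤ aa := by unfold aa; norm_num
  unfold phi
  rw [abs_le]
  split_ifs <;> constructor <;> linarith

theorem phi_nonpos {R : ℕ → ℝ} (hR : ∀ j, 8 ≤ R j) {r : ℝ} (hr : 1 ≤ r) : phi R r ≤ 0 := by
  have h0 := (isAttr_Atail hR 0).nonneg 0 (r • (EuclideanSpace.single 0 1 : E))
  unfold phi
  rw [if_neg (not_lt.2 hr)]
  linarith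

theorem tempered_phi {R : ℕ → ℝ} (hR : ∀ j, 8 ≤ R j) : Tempered (phi R) := by
  refine ⟨1, 1, 1, one_pos, one_pos, one_pos, fun r hr => ?_⟩
  have h1 := phi_nonpos hR hr
  have h2 : (0 : ℝ) ≤ r ^ (-3 - 1 : ℝ) := Real.rpow_nonneg (by linarith) _
  linarith

theorem adm_final {R : ℕ → ℝ} (hR : ∀ j, 8 ≤ R j) : Adm (ker aa (Atail R 0)) 4480000 := by
  have h := isAttr_Atail hR 0
  have e : (16 * (280000 / 4 ^ 0) : ℝ) = 4480000 := by norm_num
  rw [e] at h
  exact adm_ker h (by unfold aa; norm_num)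

/-- **Main theorem.** -/
theorem final :
    ∃ φ : ℝ → ℝ, Measurable φ ∧ (∃ M : ℝ, ∀ r, |φ r| ≤ M) ∧ Stable φ ∧ Tempered φ ∧
      ∃ P : ℝ → ℝ, IsPressure φ 1 P ∧ ∃ z : ℝ, 0 < z ∧ ¬ DifferentiableAt ℝ P z := by
  obtain ⟨R, hR, μ, hμ⟩ := main_press
  have hk := adm_final hR
  have hφ := ker_eq_phi R
  exact ⟨phi R, measurable_phi hR, phi_bounded hR, stable_of_adm hk hφ, tempered_phi hR,
    fun z => press (ker aa (Atail R 0)) (Real.log z), isPressure_of_adm hk hφ,
    Real.exp μ, Real.exp_pos μ, not_differentiableAt_activity hμ⟩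

end Vale.Agent.Lib.P171
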