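import Vale.Agent.Lib.P171.PressBound

/-!
# P171, layer 3: upper bound, the mean field computation in a single cell
-/

namespace Vale.Agent.Lib.P171

open MeasureTheory Set Filter Topology
open scoped ENNReal

/-- With `n = card X`, `V = ℓ³`: by `En_sub_ker`, `En_const` the weight on the left is
`exp (c' n² / V) * Wt (ker a' A) μ' X`. `Xi_card_weight` turns `Xi` into a sum over `n`. In the `n`-th
term `exp (c' n²/V) Wt μ' = exp (-c' n²/V) Wt (μ' + 2 c' n / V)` on configurations of `n` points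
(`Wt_shift`, `cint_congr_on`, `cint_const_mul`), then `term_le_Xi`, `Xi_box_eq`, `lp_le_press`. -/
theorem Xi_cell_le {A : E → E → ℝ} {κ a' c' ℓ : ℝ} (hA : IsAttr A κ) (ha' : 2 * κ ≤ a')
    (hc' : 0 < c') (hℓ : 0 < ℓ) (μ' : ℝ) :
    Xi (box ℓ) (Wt (fun x y => ker a' A x y - 2 * c' / ℓ ^ 3) (μ' + c' / ℓ ^ 3))
      ≤ ∑' n : ℕ, ENNReal.ofReal (Real.exp ((ℓ + 1) ^ 3 *
          press (ker a' A) (μ' + 2 * c' * (n : ℝ) / ℓ ^ 3) - c' * (n : ℝ) ^ 2 / ℓ ^ 3)) := by
  have hadm : Adm (ker a' A) κ := adm_ker hA ha'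
  have hV : (0 : ℝ) < ℓ ^ 3 := by positivity
  set V : ℝ := ℓ ^ 3 with hVdef
  set f : ℕ → ℝ≥0∞ := fun n => ENNReal.ofReal (Real.exp (c' * (n : ℝ) ^ 2 / V)) with hf
  have hw : MeasW (Wt (ker a' A) μ') := measW_Wt hadm.meas μ'
  have e1 : (Wt (fun x y => ker a' A x y - 2 * c' / V) (μ' + c' / V))
      = fun X => f (Multiset.card X) * Wt (ker a' A) μ' X := by
    funext X
    have h1 : En (fun x y => ker a' A x y - 2 * c' / V) X
        = En (ker a' A) X - En (fun _ _ => 2 * c' / V) X :=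
      En_sub_ker (ker a' A) (fun _ _ => 2 * c' / V) X
    rw [hf]
    unfold Wt
    rw [h1, En_const, ← ENNReal.ofReal_mul (Real.exp_pos _).le, ← Real.exp_add]
    congr 2
    field_simp
    ring
  rw [e1, Xi_card_weight (measurableSet_box ℓ) f hw]
  refine ENNReal.tsum_le_tsum fun N => ?_
  set ν : ℝ := 2 * c' * (N : ℝ) / V with hν
  have e2 : cint (box ℓ) N (Wt (ker a' A) μ')
      = ENNReal.ofReal (Real.exp (-(ν * (N : ℝ)))) * cint (box ℓ) N (Wt (ker a' A) (μ' + ν)) := by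
    rw [← cint_const_mul (box ℓ) N _ (measW_Wt hadm.meas (μ' + ν))]
    refine cint_congr_on (measurableSet_box ℓ) fun X _ hc => ?_
    rw [Wt_shift, hc, ← mul_assoc, ← ENNReal.ofReal_mul (Real.exp_pos _).le, ← Real.exp_add,
      neg_add_cancel, Real.exp_zero, ENNReal.ofReal_one, one_mul]
  have h3 : ((N.factorial : ℝ≥0∞))⁻¹ * cint (box ℓ) N (Wt (ker a' A) (μ' + ν))
      ≤ ENNReal.ofReal (Real.exp ((ℓ + 1) ^ 3 * press (ker a' A) (μ' + ν))) := by
    refine le_trans (term_le_Xi _ _ N) ?_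
    rw [Xi_box_eq hadm (μ' + ν) hℓ.le]
    exact ENNReal.ofReal_le_ofReal (Real.exp_le_exp.2 (lp_le_press hadm (μ' + ν) hℓ.le))
  calc f N * (((N.factorial : ℝ≥0∞))⁻¹ * cint (box ℓ) N (Wt (ker a' A) μ'))
      = (f N * ENNReal.ofReal (Real.exp (-(ν * (N : ℝ)))))
        * (((N.factorial : ℝ≥0∞))⁻¹ * cint (box ℓ) N (Wt (ker a' A) (μ' + ν))) := by
        rw [e2]
        ring
    _ ≤ (f N * ENNReal.ofReal (Real.exp (-(ν * (N : ℝ)))))
        * ENNReal.ofReal (Real.exp ((ℓ + 1) ^ 3 * press (ker a' A) (μ' + ν))) := by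
        gcongr
    _ = ENNReal.ofReal (Real.exp ((ℓ + 1) ^ 3 * press (ker a' A) (μ' + ν)
          - c' * (N : ℝ) ^ 2 / V)) := by
        rw [hf]
        simp only
        rw [← ENNReal.ofReal_mul (Real.exp_pos _).le, ← Real.exp_add,
          ← ENNReal.ofReal_mul (Real.exp_pos _).le, ← Real.exp_add]
        congr 2
        rw [hν]
        field_simp
        ring

end Vale.Agent.Lib.P171
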