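import Vale.Agent.Lib.P171.Thermo3

/-!
# P171, layer 3: upper bound, from cells to the pressure
-/

namespace Vale.Agent.Lib.P171

open MeasureTheory Set Filter Topology
open scoped ENNReal

/-- `lp L ≤ log S + (⌊L/ℓ⌋₊ + 2)³ ℓ³ M ≤ log S + (L + 2ℓ)³ M`; divide by `L³`
(`lp_le_of_Xi_le`, `press_le_of_eventually`). -/
theorem press_le_of_cells {k : E → E → ℝ} {κ : ℝ} (hk : Adm k κ) {μ ℓ M : ℝ} (hℓ : 0 < ℓ)
    (hM : 0 ≤ M) (S : ℕ)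
    (h : ∀ L : ℝ, 0 ≤ L → Xi (box L) (Wt k μ)
      ≤ (S : ℝ≥0∞) * ENNReal.ofReal (Real.exp (ℓ ^ 3 * M)) ^ ((⌊L / ℓ⌋₊ + 2) ^ 3)) :
    press k μ ≤ M := by
  set A : ℝ := Real.log ((S : ℝ) + 1) with hA
  have hS : (0 : ℝ) < (S : ℝ) + 1 := by positivity
  have hlp : ∀ L : ℝ, 0 ≤ L → lp k μ L ≤ A + (L + 2 * ℓ) ^ 3 * M := by
    intro L hL
    apply lp_le_of_Xi_le
    refine (h L hL).trans ?_
    set N : ℕ := (⌊L / ℓ⌋₊ + 2) ^ 3 with hN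
    have h1 : (S : ℝ≥0∞) ≤ ENNReal.ofReal (Real.exp A) := by
      rw [hA, Real.exp_log hS, ← ENNReal.ofReal_natCast]
      exact ENNReal.ofReal_le_ofReal (by linarith)
    have h2 : ENNReal.ofReal (Real.exp (ℓ ^ 3 * M)) ^ N
        ≤ ENNReal.ofReal (Real.exp ((L + 2 * ℓ) ^ 3 * M)) := by
      rw [← ENNReal.ofReal_pow (Real.exp_pos _).le, ← Real.exp_nat_mul]
      apply ENNReal.ofReal_le_ofReal
      apply Real.exp_le_exp.mpr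
      have h3 : ((⌊L / ℓ⌋₊ : ℝ) + 2) * ℓ ≤ L + 2 * ℓ := by
        have h4 : (⌊L / ℓ⌋₊ : ℝ) ≤ L / ℓ := Nat.floor_le (by positivity)
        have h5 : (⌊L / ℓ⌋₊ : ℝ) * ℓ ≤ L := by
          rwa [le_div_iff₀ hℓ] at h4
        linarith
      have h6 : (((⌊L / ℓ⌋₊ : ℝ) + 2) * ℓ) ^ 3 ≤ (L + 2 * ℓ) ^ 3 :=
        pow_le_pow_left₀ (by positivity) h3 3
      have h7 : (N : ℝ) * (ℓ ^ 3 * M) = (((⌊L / ℓ⌋₊ : ℝ) + 2) * ℓ) ^ 3 * M := by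
        rw [hN]
        push_cast
        ring
      rw [h7]
      exact mul_le_mul_of_nonneg_right h6 hM
    calc (S : ℝ≥0∞) * ENNReal.ofReal (Real.exp (ℓ ^ 3 * M)) ^ N
        ≤ ENNReal.ofReal (Real.exp A) * ENNReal.ofReal (Real.exp ((L + 2 * ℓ) ^ 3 * M)) :=
          mul_le_mul' h1 h2
      _ = ENNReal.ofReal (Real.exp (A + (L + 2 * ℓ) ^ 3 * M)) := by
          rw [← ENNReal.ofReal_mul (Real.exp_pos _).le, ← Real.exp_add]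
  have hu : Tendsto (fun L : ℝ => A * (L⁻¹) ^ 3 + (1 + 2 * ℓ * L⁻¹) ^ 3 * M) atTop (𝓝 M) := by
    have t0 : Tendsto (fun L : ℝ => L⁻¹) atTop (𝓝 0) := tendsto_inv_atTop_zero
    have t1 : Tendsto (fun L : ℝ => A * (L⁻¹) ^ 3) atTop (𝓝 (A * 0 ^ 3)) :=
      (t0.pow 3).const_mul A
    have t2 : Tendsto (fun L : ℝ => (1 + 2 * ℓ * L⁻¹) ^ 3 * M) atTop
        (𝓝 ((1 + 2 * ℓ * 0) ^ 3 * M)) :=
      ((tendsto_const_nhds.add (t0.const_mul (2 * ℓ))).pow 3).mul_const M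
    have t3 := t1.add t2
    have e : A * 0 ^ 3 + (1 + 2 * ℓ * 0) ^ 3 * M = M := by norm_num
    rwa [e] at t3
  refine press_le_of_eventually hk hu ?_
  filter_upwards [eventually_gt_atTop (0 : ℝ)] with L hL
  have hL3 : (0 : ℝ) < L ^ 3 := by positivity
  rw [div_le_iff₀ hL3]
  refine (hlp L hL.le).trans (le_of_eq ?_)
  field_simp

end Vale.Agent.Lib.P171
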