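import Mathlib

/-!
# P171, layer 3: upper bound, the sum over occupation numbers (pure analysis)
-/

namespace Vale.Agent.Lib.P171

open Set Filter Topology
open scoped ENNReal

/-- With `ν n = 2 c' n / V`: if `ν n ≤ ν₀` the term is at most `exp (V M)` and there are at most
`ν₀ V / (2c') + 1` such `n`; otherwise the term is at most `exp (-V ν n) = exp (-2 c' n)`, a geometric
series. Finally `1 ≤ exp (V M)`. -/
theorem tsum_exp_le {F : ℝ → ℝ} {M ν₀ c' V : ℝ} (hc' : 0 < c') (hV : 0 < V) (hν₀ : 0 ≤ ν₀)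
    (hM : 0 ≤ M) (h1 : ∀ ν ∈ Icc 0 ν₀, F ν ≤ M) (h2 : ∀ ν, ν₀ ≤ ν → F ν ≤ -ν) :
    ∑' n : ℕ, ENNReal.ofReal (Real.exp (V * F (2 * c' * (n : ℝ) / V)))
      ≤ ENNReal.ofReal ((ν₀ * V / (2 * c') + 1 + 1 / (1 - Real.exp (-(2 * c')))) *
          Real.exp (V * M)) := by
  set r : ℝ := Real.exp (-(2 * c')) with hr
  have hr0 : 0 < r := Real.exp_pos _
  have hr1 : r < 1 := by
    rw [hr, Real.exp_lt_one_iff]
    linarith
  set E : ℝ := Real.exp (V * M) with hE
  have hE1 : 1 ≤ E := Real.one_le_exp (by positivity)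
  have hE0 : 0 < E := Real.exp_pos _
  set K : ℕ := ⌊ν₀ * V / (2 * c')⌋₊ with hK
  have hKle : (K : ℝ) ≤ ν₀ * V / (2 * c') := Nat.floor_le (by positivity)
  let g1 : ℕ → ℝ := fun n => if n ≤ K then E else 0
  let g2 : ℕ → ℝ := fun n => r ^ n
  have hg1 : ∀ n, 0 ≤ g1 n := by
    intro n
    simp only [g1]
    split_ifs
    · exact hE0.le
    · exact le_rfl
  have hg2 : ∀ n, 0 ≤ g2 n := fun n => pow_nonneg hr0.le n
  have hs1 : HasSum g1 (((K + 1 : ℕ) : ℝ) * E) := by
    have h : HasSum g1 (∑ n ∈ Finset.range (K + 1), g1 n) := hasSum_sum_of_ne_finset_zero (by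
      intro n hn
      simp only [Finset.mem_range, not_lt] at hn
      have : ¬ n ≤ K := by omega
      simp [g1, this])
    have h' : ∑ n ∈ Finset.range (K + 1), g1 n = ((K + 1 : ℕ) : ℝ) * E := by
      have : ∀ n ∈ Finset.range (K + 1), g1 n = E := by
        intro n hn
        simp only [Finset.mem_range] at hn
        have : n ≤ K := by omega
        simp [g1, this]
      rw [Finset.sum_congr rfl this, Finset.sum_const, Finset.card_range, nsmul_eq_mul]
    rwa [h'] at h
  have hs2 : HasSum g2 (1 - r)⁻¹ := hasSum_geometric_of_lt_one hr0.le hr1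
  have hs : HasSum (fun n => g1 n + g2 n) (((K + 1 : ℕ) : ℝ) * E + (1 - r)⁻¹) := hs1.add hs2
  have hpt : ∀ n : ℕ, Real.exp (V * F (2 * c' * (n : ℝ) / V)) ≤ g1 n + g2 n := by
    intro n
    by_cases hn : 2 * c' * (n : ℝ) / V ≤ ν₀
    · have hnK : n ≤ K := by
        apply Nat.le_floor
        rw [le_div_iff₀ (by positivity)]
        rw [div_le_iff₀ hV] at hn
        linarith
      have hF : F (2 * c' * (n : ℝ) / V) ≤ M := h1 _ ⟨by positivity, hn⟩
      have : Real.exp (V * F (2 * c' * (n : ℝ) / V)) ≤ E :=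
        Real.exp_le_exp.mpr (mul_le_mul_of_nonneg_left hF hV.le)
      have h3 : g1 n = E := by simp [g1, hnK]
      have := hg2 n
      linarith
    · have hF : F (2 * c' * (n : ℝ) / V) ≤ -(2 * c' * (n : ℝ) / V) := h2 _ (not_le.mp hn).le
      have h4 : V * F (2 * c' * (n : ℝ) / V) ≤ (n : ℝ) * (-(2 * c')) := by
        calc V * F (2 * c' * (n : ℝ) / V) ≤ V * (-(2 * c' * (n : ℝ) / V)) :=
              mul_le_mul_of_nonneg_left hF hV.le
          _ = (n : ℝ) * (-(2 * c')) := by field_simp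
      have h5 : Real.exp (V * F (2 * c' * (n : ℝ) / V)) ≤ g2 n := by
        calc Real.exp (V * F (2 * c' * (n : ℝ) / V)) ≤ Real.exp ((n : ℝ) * (-(2 * c'))) :=
              Real.exp_le_exp.mpr h4
          _ = g2 n := by simp only [g2, hr]; rw [Real.exp_nat_mul]
      have := hg1 n
      linarith
  calc ∑' n : ℕ, ENNReal.ofReal (Real.exp (V * F (2 * c' * (n : ℝ) / V)))
      ≤ ∑' n : ℕ, ENNReal.ofReal (g1 n + g2 n) :=
        ENNReal.tsum_le_tsum fun n => ENNReal.ofReal_le_ofReal (hpt n)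
    _ = ENNReal.ofReal (∑' n : ℕ, (g1 n + g2 n)) :=
        (ENNReal.ofReal_tsum_of_nonneg (fun n => add_nonneg (hg1 n) (hg2 n)) hs.summable).symm
    _ = ENNReal.ofReal (((K + 1 : ℕ) : ℝ) * E + (1 - r)⁻¹) := by rw [hs.tsum_eq]
    _ ≤ ENNReal.ofReal ((ν₀ * V / (2 * c') + 1 + 1 / (1 - r)) * E) := by
        apply ENNReal.ofReal_le_ofReal
        have h6 : 0 < (1 - r)⁻¹ := inv_pos.mpr (by linarith)
        have h7 : (1 - r)⁻¹ ≤ (1 - r)⁻¹ * E := le_mul_of_one_le_right h6.le hE1
        have h8 : ((K + 1 : ℕ) : ℝ) * E ≤ (ν₀ * V / (2 * c') + 1) * E := by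
          apply mul_le_mul_of_nonneg_right _ hE0.le
          push_cast
          linarith
        rw [one_div]
        nlinarith

/-- the constant in `tsum_exp_le` is monotone in `c'` -/
theorem sumConst_anti {c c' ν₀ V : ℝ} (hc : 0 < c) (hcc : c ≤ c') (hV : 0 < V) (hν₀ : 0 ≤ ν₀) :
    ν₀ * V / (2 * c') + 1 + 1 / (1 - Real.exp (-(2 * c')))
      ≤ ν₀ * V / (2 * c) + 1 + 1 / (1 - Real.exp (-(2 * c))) := by
  have h1 : ν₀ * V / (2 * c') ≤ ν₀ * V / (2 * c) :=
    div_le_div_of_nonneg_left (by positivity) (by positivity) (by linarith)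
  have h2 : Real.exp (-(2 * c)) < 1 := by
    rw [Real.exp_lt_one_iff]
    linarith
  have h3 : Real.exp (-(2 * c')) ≤ Real.exp (-(2 * c)) := Real.exp_le_exp.mpr (by linarith)
  have h4 : 1 / (1 - Real.exp (-(2 * c'))) ≤ 1 / (1 - Real.exp (-(2 * c))) :=
    one_div_le_one_div_of_le (by linarith) (by linarith)
  linarith

theorem one_le_sumConst {c ν₀ V : ℝ} (hc : 0 < c) (hV : 0 < V) (hν₀ : 0 ≤ ν₀) :
    1 ≤ ν₀ * V / (2 * c) + 1 + 1 / (1 - Real.exp (-(2 * c))) := by
  have h2 : Real.exp (-(2 * c)) < 1 := by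
    rw [Real.exp_lt_one_iff]
    linarith
  have h1 : 0 ≤ ν₀ * V / (2 * c) := by positivity
  have h3 : 0 ≤ 1 / (1 - Real.exp (-(2 * c))) := by
    apply div_nonneg zero_le_one
    linarith
  linarith

/-- the entropy of the occupation numbers is negligible on large cells -/
theorem tendsto_log_sumConst {c ν₀ : ℝ} (hc : 0 < c) (hν₀ : 0 ≤ ν₀) :
    Tendsto (fun ℓ : ℝ => Real.log (ν₀ * ℓ ^ 3 / (2 * c) + 1 + 1 / (1 - Real.exp (-(2 * c)))) / ℓ ^ 3)
      atTop (𝓝 0) := by
  set β : ℝ := 1 + 1 / (1 - Real.exp (-(2 * c))) with hβ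
  set α : ℝ := ν₀ / (2 * c) with hα
  have h2 : Real.exp (-(2 * c)) < 1 := by
    rw [Real.exp_lt_one_iff]
    linarith
  have hβ1 : 1 ≤ β := by
    have h3 : 0 ≤ 1 / (1 - Real.exp (-(2 * c))) := by
      apply div_nonneg zero_le_one
      linarith
    linarith
  have hα0 : 0 ≤ α := by positivity
  have key : Tendsto (fun x : ℝ => Real.log (α * x + β) / x) atTop (𝓝 0) := by
    have hup : Tendsto (fun x : ℝ => Real.log (α + β) / x + Real.log x / x) atTop (𝓝 0) := by
      have t1 : Tendsto (fun x : ℝ => Real.log (α + β) / x) atTop (𝓝 0) :=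
        tendsto_const_nhds.div_atTop tendsto_id
      have t2 : Tendsto (fun x : ℝ => Real.log x / x) atTop (𝓝 0) := by
        have := Real.tendsto_pow_log_div_mul_add_atTop 1 0 1 one_ne_zero
        simpa using this
      simpa using t1.add t2
    refine tendsto_of_tendsto_of_tendsto_of_le_of_le' tendsto_const_nhds hup ?_ ?_
    · filter_upwards [eventually_ge_atTop (1 : ℝ)] with x hx
      apply div_nonneg _ (by linarith)
      apply Real.log_nonneg
      have : 0 ≤ α * x := mul_nonneg hα0 (by linarith)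
      linarith
    · filter_upwards [eventually_ge_atTop (1 : ℝ)] with x hx
      have hx0 : 0 < x := by linarith
      rw [← add_div]
      apply div_le_div_of_nonneg_right _ hx0.le
      rw [← Real.log_mul (by positivity) hx0.ne']
      apply Real.log_le_log
      · have : 0 ≤ α * x := mul_nonneg hα0 hx0.le
        linarith
      · nlinarith
  have hcomp := key.comp (tendsto_pow_atTop (α := ℝ) (n := 3) (by norm_num))
  refine hcomp.congr ?_
  intro ℓ
  simp only [Function.comp]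
  congr 2
  rw [hα, hβ]
  ring

end Vale.Agent.Lib.P171
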