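import Vale.Agent.Lib.P171.KacUpper1
import Vale.Agent.Lib.P171.KacCell
import Vale.Agent.Lib.P171.KacSum
import Vale.Agent.Lib.P171.KacLimit
import Vale.Agent.Lib.P171.SupConv

/-!
# P171, layer 3: upper bound with explicit parameters
-/

namespace Vale.Agent.Lib.P171

open MeasureTheory Set Filter Topology
open scoped ENNReal

theorem kp_cp_ge {c ℓ R : ℝ} (hc : 0 < c) (hℓ : 0 < ℓ) (hR : 0 < R) : c ≤ cp c ℓ R := by
  unfold cp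
  have h1 : (1 : ℝ) ≤ 1 + Real.sqrt 3 * ℓ / R := by
    have : 0 ≤ Real.sqrt 3 * ℓ / R := by positivity
    linarith
  have h2 : (1 : ℝ) ≤ (1 + Real.sqrt 3 * ℓ / R) ^ 6 := one_le_pow₀ h1
  nlinarith

/-- the bound of `F` on `[0, ν₀]` -/
theorem kp_head {A : E → E → ℝ} {κ a c c' ε lam ν₀ hi μ : ℝ} (hA : IsAttr A κ)
    (hc : 0 < c) (hcc : c ≤ c') (ha : 2 * κ + 1 ≤ a) (hε0 : 0 ≤ ε) (hε : 2 * ε ≤ 1)
    (hlam : 1 ≤ lam) (hμ : μ ≤ hi) {ν : ℝ} (hν0 : 0 ≤ ν) (hν : ν ≤ ν₀) :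
    lam * press (ker (a - 2 * ε) A) (μ + ε + ν) - ν ^ 2 / (4 * c')
      ≤ T c ν₀ (press (ker a A)) μ
        + (2 * ε + 2 * (lam - 1)) * press (ker (a - 1) A) (hi + ν₀ + 1)
        + ν₀ ^ 2 / (4 * c) * (1 - c / c') := by
  have hc'0 : 0 < c' := lt_of_lt_of_le hc hcc
  have adm0 : Adm (ker a A) κ := adm_ker hA (by linarith)
  have adm1 : Adm (ker (a - 1) A) κ := adm_ker hA (by linarith)
  have hconv : ConvexOn ℝ univ (press (ker a A)) := convexOn_press adm0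
  have hratio : 0 ≤ 1 - c / c' := by
    have : c / c' ≤ 1 := (div_le_one hc'0).2 hcc
    linarith
  have hQ0 : 0 ≤ press (ker (a - 1) A) (hi + ν₀ + 1) := press_nonneg adm1 _
  have e1 : μ + ε + ν = (μ + ν) + ε := by ring
  have b1 := press_perturb hA (Λ := 1) (ε := ε) (a := a) one_pos hε0 hε (by linarith) (μ + ν)
  have b2 : press (ker (a - 1) A) (μ + ν + 1 / 2) ≤ press (ker (a - 1) A) (hi + ν₀ + 1) :=
    press_mono adm1 (by linarith)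
  have b3 : press (ker a A) (μ + ν) ≤ press (ker (a - 1) A) (hi + ν₀ + 1) :=
    le_trans (press_ker_anti hA (by linarith) (by linarith) (μ + ν))
      (press_mono adm1 (by linarith))
  have b4 := le_T hconv (c := c) (μ := μ) hν0 hν
  rw [e1]
  rw [div_one] at b1
  generalize press (ker (a - 1) A) (hi + ν₀ + 1) = Q at *
  generalize press (ker (a - 2 * ε) A) (μ + ν + ε) = P at *
  generalize press (ker a A) (μ + ν) = p at *
  generalize press (ker (a - 1) A) (μ + ν + 1 / 2) = p1 at *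
  generalize T c ν₀ (press (ker a A)) μ = T' at *
  have b5 : P ≤ p + 2 * ε * Q := by
    have : 2 * ε * p1 ≤ 2 * ε * Q := mul_le_mul_of_nonneg_left b2 (by linarith)
    linarith
  have b6 : lam * P ≤ p + 2 * ε * Q + (lam - 1) * (2 * Q) := by
    have h1 : lam * P ≤ lam * (p + 2 * ε * Q) := mul_le_mul_of_nonneg_left b5 (by linarith)
    have h0 : 2 * ε * Q ≤ 1 * Q := mul_le_mul_of_nonneg_right hε hQ0
    have h2 : p + 2 * ε * Q ≤ 2 * Q := by linarith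
    have h3 : (lam - 1) * (p + 2 * ε * Q) ≤ (lam - 1) * (2 * Q) :=
      mul_le_mul_of_nonneg_left h2 (by linarith)
    linarith
  have b7 : ν ^ 2 / (4 * c) - ν ^ 2 / (4 * c') ≤ ν₀ ^ 2 / (4 * c) * (1 - c / c') := by
    have e : ν ^ 2 / (4 * c) - ν ^ 2 / (4 * c') = ν ^ 2 / (4 * c) * (1 - c / c') := by
      field_simp
    rw [e]
    apply mul_le_mul_of_nonneg_right _ hratio
    apply div_le_div_of_nonneg_right _ (by positivity)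
    exact pow_le_pow_left₀ hν0 hν 2
  linarith

/-- the bound of `F` beyond `ν₀` -/
theorem kp_tail {A : E → E → ℝ} {κ a c c' ε lam hi μ : ℝ} (hA : IsAttr A κ)
    (hc : 0 < c) (hc'0 : 0 < c') (hc' : c' ≤ 3 / 2 * c) (ha : 2 * κ + 1 ≤ a) (hε0 : 0 ≤ ε)
    (hε : 2 * ε ≤ 1) (hlam : lam ≤ 3 / 2) (hμ : μ ≤ hi) {ν : ℝ}
    (hTail : 3 / 2 * press (ker (a - 1) A) (hi + 1 + ν) ≤ ν ^ 2 / (6 * c) - ν) :
    lam * press (ker (a - 2 * ε) A) (μ + ε + ν) - ν ^ 2 / (4 * c') ≤ -ν := by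
  have adm1 : Adm (ker (a - 1) A) κ := adm_ker hA (by linarith)
  have admε : Adm (ker (a - 2 * ε) A) κ := adm_ker hA (by linarith)
  have b1 : press (ker (a - 2 * ε) A) (μ + ε + ν) ≤ press (ker (a - 1) A) (hi + 1 + ν) :=
    le_trans (press_ker_anti hA (by linarith) (by linarith) (μ + ε + ν))
      (press_mono adm1 (by linarith))
  have b0 : 0 ≤ press (ker (a - 2 * ε) A) (μ + ε + ν) := press_nonneg admε _
  have b3 : lam * press (ker (a - 2 * ε) A) (μ + ε + ν)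
      ≤ 3 / 2 * press (ker (a - 1) A) (hi + 1 + ν) := by
    calc lam * press (ker (a - 2 * ε) A) (μ + ε + ν)
        ≤ 3 / 2 * press (ker (a - 2 * ε) A) (μ + ε + ν) :=
          mul_le_mul_of_nonneg_right hlam b0
      _ ≤ _ := mul_le_mul_of_nonneg_left b1 (by norm_num)
  have b4 : ν ^ 2 / (6 * c) ≤ ν ^ 2 / (4 * c') := by
    apply div_le_div_of_nonneg_left (by positivity) (by positivity)
    linarith
  linarith

/-- the bound `M` is nonnegative -/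
theorem kp_M_nonneg {A : E → E → ℝ} {κ a c c' ε lam ν₀ hi μ : ℝ} (hA : IsAttr A κ)
    (hc : 0 < c) (hcc : c ≤ c') (ha : 2 * κ + 1 ≤ a) (hε0 : 0 ≤ ε) (hlam : 1 ≤ lam)
    (hν₀ : 0 ≤ ν₀) :
    0 ≤ T c ν₀ (press (ker a A)) μ
        + (2 * ε + 2 * (lam - 1)) * press (ker (a - 1) A) (hi + ν₀ + 1)
        + ν₀ ^ 2 / (4 * c) * (1 - c / c') := by
  have hc'0 : 0 < c' := lt_of_lt_of_le hc hcc
  have adm0 : Adm (ker a A) κ := adm_ker hA (by linarith)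
  have adm1 : Adm (ker (a - 1) A) κ := adm_ker hA (by linarith)
  have hconv : ConvexOn ℝ univ (press (ker a A)) := convexOn_press adm0
  have hratio : 0 ≤ 1 - c / c' := by
    have : c / c' ≤ 1 := (div_le_one hc'0).2 hcc
    linarith
  have hQ0 : 0 ≤ press (ker (a - 1) A) (hi + ν₀ + 1) := press_nonneg adm1 _
  have h1 : 0 ≤ T c ν₀ (press (ker a A)) μ := by
    have h := le_T hconv (c := c) (μ := μ) (le_refl (0 : ℝ)) hν₀
    have h2 := press_nonneg adm0 (μ + 0)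
    have h3 : (0 : ℝ) ^ 2 / (4 * c) = 0 := by simp
    rw [h3] at h
    linarith
  have h2 : 0 ≤ (2 * ε + 2 * (lam - 1)) * press (ker (a - 1) A) (hi + ν₀ + 1) := by
    apply mul_nonneg _ hQ0
    linarith
  have h3 : 0 ≤ ν₀ ^ 2 / (4 * c) * (1 - c / c') := by
    apply mul_nonneg _ hratio
    positivity
  linarith

/-- the single cell, given the bounds on `F` -/
theorem kp_cell {A : E → E → ℝ} {κ a' c c' ℓ ν₀ μ' M : ℝ} (hA : IsAttr A κ) (ha' : 2 * κ ≤ a')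
    (hc : 0 < c) (hcc : c ≤ c') (hℓ : 0 < ℓ) (hν₀ : 0 ≤ ν₀) (hM : 0 ≤ M)
    (h1 : ∀ ν ∈ Icc 0 ν₀,
      (1 + 1 / ℓ) ^ 3 * press (ker a' A) (μ' + ν) - ν ^ 2 / (4 * c') ≤ M)
    (h2 : ∀ ν, ν₀ ≤ ν →
      (1 + 1 / ℓ) ^ 3 * press (ker a' A) (μ' + ν) - ν ^ 2 / (4 * c') ≤ -ν) :
    Xi (box ℓ) (Wt (fun x y => ker a' A x y - 2 * c' / ℓ ^ 3) (μ' + c' / ℓ ^ 3))
      ≤ ENNReal.ofReal (Real.exp (ℓ ^ 3 * (M +
          Real.log (ν₀ * ℓ ^ 3 / (2 * c) + 1 + 1 / (1 - Real.exp (-(2 * c)))) / ℓ ^ 3))) := by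
  have hc'0 : 0 < c' := lt_of_lt_of_le hc hcc
  have hV0 : 0 < ℓ ^ 3 := by positivity
  have hVlam : ℓ ^ 3 * (1 + 1 / ℓ) ^ 3 = (ℓ + 1) ^ 3 := by
    rw [← mul_pow]
    congr 1
    field_simp
  have hK1 := one_le_sumConst hc hV0 hν₀
  have hK0 : 0 < ν₀ * ℓ ^ 3 / (2 * c) + 1 + 1 / (1 - Real.exp (-(2 * c))) := by linarith
  refine le_trans (Xi_cell_le hA ha' hc'0 hℓ μ') ?_
  have e : ∀ n : ℕ, (ℓ + 1) ^ 3 * press (ker a' A) (μ' + 2 * c' * (n : ℝ) / ℓ ^ 3)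
      - c' * (n : ℝ) ^ 2 / ℓ ^ 3
      = ℓ ^ 3 * (fun ν => (1 + 1 / ℓ) ^ 3 * press (ker a' A) (μ' + ν) - ν ^ 2 / (4 * c'))
          (2 * c' * (n : ℝ) / ℓ ^ 3) := by
    intro n
    show _ = ℓ ^ 3 * ((1 + 1 / ℓ) ^ 3 * press (ker a' A) (μ' + 2 * c' * (n : ℝ) / ℓ ^ 3)
      - (2 * c' * (n : ℝ) / ℓ ^ 3) ^ 2 / (4 * c'))
    rw [mul_sub, ← mul_assoc, hVlam]
    congr 1
    field_simp
    ring
  simp_rw [e]
  refine le_trans (tsum_exp_le hc'0 hV0 hν₀ hM h1 h2) ?_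
  apply ENNReal.ofReal_le_ofReal
  have h3 := sumConst_anti hc hcc hV0 hν₀
  generalize ν₀ * ℓ ^ 3 / (2 * c) + 1 + 1 / (1 - Real.exp (-(2 * c))) = K at *
  have h4 : Real.exp (ℓ ^ 3 * (M + Real.log K / ℓ ^ 3)) = K * Real.exp (ℓ ^ 3 * M) := by
    have : ℓ ^ 3 * (M + Real.log K / ℓ ^ 3) = Real.log K + ℓ ^ 3 * M := by
      field_simp
      ring
    rw [this, Real.exp_add, Real.exp_log hK0]
  rw [h4]
  exact mul_le_mul_of_nonneg_right h3 (Real.exp_pos _).le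

/-- Abbreviations: `ε = 3κ/S`, `c' = cp c ℓ R ≥ c`, `V = ℓ³`, `lam = (1 + 1/ℓ)³`, `p = press (ker a A)`,
`p₁ = press (ker (a-1) A)`, `pε = press (ker (a-2ε) A)`, `Q = p₁ (hi + ν₀ + 1)`,
`F ν = lam * pε (μ + ε + ν) - ν²/(4c')`.
* `Xi_box_kac_le` and `Xi_cell_le` (with `a' = a - 2ε`, `μ' = μ + ε`): the single cell sum is
  `∑' n, exp (V F (2 c' n / V))` (`V lam = (ℓ+1)³`, `V (2c'n/V)²/(4c') = c' n²/V`).
* For `ν ∈ [0, ν₀]`: `pε (μ+ν+ε) ≤ p (μ+ν) + 2ε Q` (`press_perturb`, `Λ = 1`, monotonicity),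
  `lam (p + 2εQ) ≤ p + 2εQ + (lam - 1) 2Q` (`p ≤ p₁ ≤ Q`, `2ε ≤ 1`),
  `-ν²/(4c') ≤ -ν²/(4c) + ν₀²/(4c) (1 - c/c')`, and `p (μ+ν) - ν²/(4c) ≤ T c ν₀ p μ` (`le_T`).
  So `F ν ≤ M := T c ν₀ p μ + (2ε + 2(lam-1)) Q + ν₀²/(4c)(1 - c/c')`, and `M ≥ 0`.
* For `ν ≥ ν₀`: `F ν ≤ 3/2 p₁ (hi+1+ν) - ν²/(6c) ≤ -ν`.
* `tsum_exp_le`, `sumConst_anti`: the single cell sum is at most `K exp (V M) = exp (V (M + log K / V))`.
* `press_le_of_cells`. -/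
theorem kac_upper_param {A : E → E → ℝ} {κ h q ℓ a c R ν₀ lo hi : ℝ} {S : ℕ} (hA : IsAttr A κ)
    (hr : HasRange A h) (hh : 0 < h) (hq : 2 * h < q) (hS : 0 < S) (hℓq : (S : ℝ) * q ≤ ℓ)
    (hc : 0 < c) (hR : 8 ≤ R) (ha : 2 * (κ + 16 * c) + 1 ≤ a) (hε : 2 * (3 * κ / S) ≤ 1)
    (hℓ1 : (1 + 1 / ℓ) ^ 3 ≤ 3 / 2) (hc' : cp c ℓ R ≤ 3 / 2 * c) (hν₀ : 0 ≤ ν₀)
    (hTail : ∀ ν, ν₀ ≤ ν → 3 / 2 * press (ker (a - 1) A) (hi + 1 + ν) ≤ ν ^ 2 / (6 * c) - ν)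
    {μ : ℝ} (hμ : μ ∈ Icc lo hi) :
    press (ker a (fun x y => A x y + kac c R x y)) μ
      ≤ T c ν₀ (press (ker a A)) μ
        + (2 * (3 * κ / S) + 2 * ((1 + 1 / ℓ) ^ 3 - 1)) * press (ker (a - 1) A) (hi + ν₀ + 1)
        + ν₀ ^ 2 / (4 * c) * (1 - c / cp c ℓ R)
        + Real.log (ν₀ * ℓ ^ 3 / (2 * c) + 1 + 1 / (1 - Real.exp (-(2 * c)))) / ℓ ^ 3 := by
  have hκ : 0 ≤ κ := hA.kappa_nonneg
  have hS' : (0 : ℝ) < (S : ℝ) := by exact_mod_cast hS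
  have hq0 : 0 < q := by linarith
  have hℓ : 0 < ℓ := lt_of_lt_of_le (mul_pos hS' hq0) hℓq
  have hR0 : 0 < R := by linarith
  have hε0 : 0 ≤ 3 * κ / S := by positivity
  have hcc : c ≤ cp c ℓ R := kp_cp_ge hc hℓ hR0
  have hc'0 : 0 < cp c ℓ R := lt_of_lt_of_le hc hcc
  have hV0 : 0 < ℓ ^ 3 := by positivity
  have hlam1 : 1 ≤ (1 + 1 / ℓ) ^ 3 := by
    have : (1 : ℝ) ≤ 1 + 1 / ℓ := by
      have : 0 ≤ 1 / ℓ := by positivity
      linarith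
    exact one_le_pow₀ this
  have ha1 : 2 * κ + 1 ≤ a := by linarith
  have admK : Adm (ker a (fun x y => A x y + kac c R x y)) (κ + 16 * c) :=
    adm_ker (hA.add (isAttr_kac hc.le hR)) (by linarith)
  have hM0 := kp_M_nonneg (μ := μ) (hi := hi) hA hc hcc ha1 hε0 hlam1 hν₀
  have hcell := kp_cell (μ' := μ + 3 * κ / S) hA (a' := a - 2 * (3 * κ / S)) (by linarith) hc hcc
    hℓ hν₀ hM0
    (fun ν hν => kp_head hA hc hcc ha1 hε0 hε hlam1 hμ.2 hν.1 hν.2)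
    (fun ν hν => kp_tail hA hc hc'0 hc' ha1 hε0 hε hℓ1 hμ.2 (hTail ν hν))
  have hK1 := one_le_sumConst hc hV0 hν₀
  have hM' : 0 ≤ T c ν₀ (press (ker a A)) μ
        + (2 * (3 * κ / S) + 2 * ((1 + 1 / ℓ) ^ 3 - 1)) * press (ker (a - 1) A) (hi + ν₀ + 1)
        + ν₀ ^ 2 / (4 * c) * (1 - c / cp c ℓ R)
        + Real.log (ν₀ * ℓ ^ 3 / (2 * c) + 1 + 1 / (1 - Real.exp (-(2 * c)))) / ℓ ^ 3 := by
    have := div_nonneg (Real.log_nonneg hK1) hV0.le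
    linarith
  refine press_le_of_cells admK (μ := μ) hℓ hM' S (fun L hL => ?_)
  have h6 : 6 * κ / S ≤ a := by
    have : 6 * κ / S = 2 * (3 * κ / S) := by ring
    rw [this]
    linarith
  refine le_trans (Xi_box_kac_le hA hr hh hq hS hℓq h6 hc.le hR0 μ hL) ?_
  gcongr

end Vale.Agent.Lib.P171
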