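import Vale.Agent.Lib.P171.Stab

/-!
# P171, layer 1: decoupling of a finite range attraction across the cells of a shifted grid
-/

namespace Vale.Agent.Lib.P171

open MeasureTheory Set
open scoped ENNReal

/-- the point `x` is close to a wall of the grid of mesh `ℓ` and offset `σ` -/
def nearWall (ℓ σ h : ℝ) (x : E) : Prop := ∃ i : Fin 3, ∃ m : ℤ, |x i - (σ + m * ℓ)| < h

theorem cross_sum_ker {ι : Type} (s : Finset ι) (k : ι → E → E → ℝ) (X Y : Multiset E) :
    ∑ t ∈ s, cross (k t) X Y = cross (fun x y => ∑ t ∈ s, k t x y) X Y := by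
  classical
  induction s using Finset.induction_on with
  | empty => simp [cross_zero_ker]
  | insert a s ha ih =>
    rw [Finset.sum_insert ha, ih, ← cross_add_ker]
    apply cross_congr
    intro x _ y _
    rw [Finset.sum_insert ha]

/-- two points at distance `< h` in different cells are both near a wall -/
theorem nearWall_of_ne {ℓ σ h : ℝ} (hℓ : 0 < ℓ) {x y : E} (hxy : ‖x - y‖ < h)
    (hne : cellIdx ℓ σ x ≠ cellIdx ℓ σ y) : nearWall ℓ σ h x ∧ nearWall ℓ σ h y := by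
  have key : ∀ u v : E, ‖u - v‖ < h → ∀ i : Fin 3, cellIdx ℓ σ u i < cellIdx ℓ σ v i →
      nearWall ℓ σ h u ∧ nearWall ℓ σ h v := by
    intro u v huv i hi
    have h1 : |u i - v i| < h := lt_of_le_of_lt (abs_coord_le_norm (u - v) i) huv
    unfold cellIdx at hi
    set m : ℤ := ⌊(v i - σ) / ℓ⌋ with hm
    have h2 : (u i - σ) / ℓ < (m : ℝ) := Int.floor_lt.1 hi
    have h3 : (m : ℝ) ≤ (v i - σ) / ℓ := Int.floor_le _
    rw [div_lt_iff₀ hℓ] at h2
    rw [le_div_iff₀ hℓ] at h3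
    rw [abs_lt] at h1
    refine ⟨⟨i, m, ?_⟩, ⟨i, m, ?_⟩⟩
    · rw [abs_lt]
      constructor <;> linarith
    · rw [abs_lt]
      constructor <;> linarith
  obtain ⟨i, hi⟩ := Function.ne_iff.1 hne
  rcases lt_or_gt_of_ne hi with h1 | h1
  · exact key x y hxy i h1
  · have := key y x (by rwa [norm_sub_rev]) i h1
    exact ⟨this.2, this.1⟩

/-- the walls of different shifts are far apart -/
theorem shift_unique {h q ℓ : ℝ} (hq : 2 * h < q) {S : ℕ} (hℓ : (S : ℝ) * q ≤ ℓ)
    {t : ℝ} {τ τ' : ℕ} (hτ : τ < S) (hτ' : τ' < S) {m m' : ℤ}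
    (h1 : |t - ((τ : ℝ) * q + m * ℓ)| < h) (h2 : |t - ((τ' : ℝ) * q + m' * ℓ)| < h) : τ = τ' := by
  have hq0 : 0 < q := by
    have : 0 ≤ |t - ((τ : ℝ) * q + m * ℓ)| := abs_nonneg _
    linarith
  rw [abs_lt] at h1 h2
  have hS : ((τ : ℝ) + 1) ≤ S := by exact_mod_cast hτ
  have hS' : ((τ' : ℝ) + 1) ≤ S := by exact_mod_cast hτ'
  have hτ0 : (0 : ℝ) ≤ τ := Nat.cast_nonneg _
  have hτ0' : (0 : ℝ) ≤ τ' := Nat.cast_nonneg _
  have hℓ0 : 0 ≤ ℓ := le_trans (by positivity) hℓ
  rcases lt_trichotomy m m' with hm | hm | hm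
  · exfalso
    have h3 : (m : ℝ) + 1 ≤ m' := by exact_mod_cast hm
    have h4 : ((m : ℝ) + 1) * ℓ ≤ m' * ℓ := mul_le_mul_of_nonneg_right h3 hℓ0
    have h5 : ((τ : ℝ) + 1) * q ≤ S * q := mul_le_mul_of_nonneg_right hS hq0.le
    have h6 : 0 ≤ (τ' : ℝ) * q := by positivity
    nlinarith
  · subst hm
    by_contra hne
    rcases lt_or_gt_of_ne hne with h3 | h3
    · have h4 : (τ : ℝ) + 1 ≤ τ' := by exact_mod_cast h3
      have h5 : ((τ : ℝ) + 1) * q ≤ τ' * q := mul_le_mul_of_nonneg_right h4 hq0.le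
      nlinarith
    · have h4 : (τ' : ℝ) + 1 ≤ τ := by exact_mod_cast h3
      have h5 : ((τ' : ℝ) + 1) * q ≤ τ * q := mul_le_mul_of_nonneg_right h4 hq0.le
      nlinarith
  · exfalso
    have h3 : (m' : ℝ) + 1 ≤ m := by exact_mod_cast hm
    have h4 : ((m' : ℝ) + 1) * ℓ ≤ m * ℓ := mul_le_mul_of_nonneg_right h3 hℓ0
    have h5 : ((τ' : ℝ) + 1) * q ≤ S * q := mul_le_mul_of_nonneg_right hS' hq0.le
    have h6 : 0 ≤ (τ : ℝ) * q := by positivity
    nlinarith

open Classical in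
/-- each point is near the walls of at most three shifts -/
theorem sum_nearWall_le {h q ℓ : ℝ} (hq : 2 * h < q) {S : ℕ} (hℓ : (S : ℝ) * q ≤ ℓ) (x : E) :
    ∑ τ ∈ Finset.range S, (if nearWall ℓ ((τ : ℝ) * q) h x then (1 : ℝ) else 0) ≤ 3 := by
  have h1 : ∀ τ ∈ Finset.range S, (if nearWall ℓ ((τ : ℝ) * q) h x then (1 : ℝ) else 0) ≤
      ∑ i : Fin 3, (if ∃ m : ℤ, |x i - ((τ : ℝ) * q + m * ℓ)| < h then (1 : ℝ) else 0) := by
    intro τ _
    split_ifs with hn
    · obtain ⟨i, hi⟩ := hn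
      have h2 : (if ∃ m : ℤ, |x i - ((τ : ℝ) * q + m * ℓ)| < h then (1 : ℝ) else 0) = 1 := if_pos hi
      have h3 := Finset.single_le_sum (f := fun i : Fin 3 =>
        (if ∃ m : ℤ, |x i - ((τ : ℝ) * q + m * ℓ)| < h then (1 : ℝ) else 0)) (s := Finset.univ)
        (by
          intro j _
          dsimp only
          split_ifs <;> norm_num) (Finset.mem_univ i)
      dsimp only at h3
      rw [h2] at h3
      exact h3
    · apply Finset.sum_nonneg
      intro j _
      split_ifs <;> norm_num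
  refine le_trans (Finset.sum_le_sum h1) ?_
  rw [Finset.sum_comm]
  have h3 : ∀ i : Fin 3, ∑ τ ∈ Finset.range S,
      (if ∃ m : ℤ, |x i - ((τ : ℝ) * q + m * ℓ)| < h then (1 : ℝ) else 0) ≤ 1 := by
    intro i
    rw [← Finset.sum_filter, Finset.sum_const, nsmul_eq_mul, mul_one]
    have : (Finset.filter (fun τ : ℕ => ∃ m : ℤ, |x i - ((τ : ℝ) * q + m * ℓ)| < h)
        (Finset.range S)).card ≤ 1 := by
      rw [Finset.card_le_one]
      intro a ha b hb
      rw [Finset.mem_filter, Finset.mem_range] at ha hb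
      obtain ⟨m, hm⟩ := ha.2
      obtain ⟨m', hm'⟩ := hb.2
      exact shift_unique hq hℓ ha.1 hb.1 hm hm'
    exact_mod_cast this
  calc ∑ i : Fin 3, ∑ τ ∈ Finset.range S,
      (if ∃ m : ℤ, |x i - ((τ : ℝ) * q + m * ℓ)| < h then (1 : ℝ) else 0)
      ≤ ∑ _i : Fin 3, (1 : ℝ) := Finset.sum_le_sum fun i _ => h3 i
    _ = 3 := by simp

open Classical in
/-- **Pigeonhole over the shifts of the grid.** For `τ < S` let
`N τ = {x | ∃ i, ∃ m : ℤ, |x i - (τ q + m ℓ)| < h}` (points close to a wall of the grid with offset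
`τ q`). (1) If `A x y ≠ 0` and `x, y` lie in different cells of the grid `(ℓ, τ q)` then `‖x - y‖ < h`,
some coordinate is separated by a wall, so `x, y ∈ N τ`. Hence
`dsum A X - dsum (A * same) X ≤ dsum A (X.filter (· ∈ N τ)) ≤ 2 κ SC (X.filter (· ∈ N τ))`.
(2) The walls `τ q + m ℓ` (`τ < S`, `m ∈ ℤ`) are pairwise at distance `≥ q > 2 h` (as `S q ≤ ℓ`), so each
point lies in `N τ` for at most three values of `τ` (one for each coordinate).
(3) `SC (X.filter p) = ∑_{x,y} same x y 1_p(x) 1_p(y) ≤ ∑_{x,y} same x y 1_p(x)`, so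
`∑_τ SC (X.filter (· ∈ N τ)) ≤ 3 SC X`. (4) The minimum over `τ` is at most the average. -/
theorem exists_shift {A : E → E → ℝ} {κ h q ℓ : ℝ} (hA : IsAttr A κ) (hr : HasRange A h)
    (hh : 0 < h) (hq : 2 * h < q) {S : ℕ} (hS : 0 < S) (hℓ : (S : ℝ) * q ≤ ℓ) (X : Multiset E) :
    ∃ τ ∈ Finset.range S,
      dsum A X - dsum (fun x y => A x y * same ℓ ((τ : ℝ) * q) x y) X ≤ 6 * κ / S * SC X := by
  have hS' : (0 : ℝ) < S := by exact_mod_cast hS
  have hq0 : 0 < q := by linarith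
  have hℓ0 : 0 < ℓ := lt_of_lt_of_le (by positivity) hℓ
  have hκ : 0 ≤ κ := hA.kappa_nonneg
  -- step 1 and 2
  have step1 : ∀ τ : ℕ, dsum A X - dsum (fun x y => A x y * same ℓ ((τ : ℝ) * q) x y) X
      ≤ 2 * κ * SC (X.filter (nearWall ℓ ((τ : ℝ) * q) h)) := by
    intro τ
    refine le_trans ?_ (hA.bound _)
    rw [dsum_filter]
    unfold dsum
    rw [← cross_sub_ker]
    apply cross_mono
    intro x _ y _
    by_cases hs : cellIdx ℓ ((τ : ℝ) * q) x = cellIdx ℓ ((τ : ℝ) * q) y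
    · have : same ℓ ((τ : ℝ) * q) x y = 1 := by
        unfold same
        rw [if_pos hs]
      rw [this, mul_one, sub_self]
      split_ifs
      · exact hA.nonneg x y
      · exact le_refl _
    · have : same ℓ ((τ : ℝ) * q) x y = 0 := by
        unfold same
        rw [if_neg hs]
      rw [this, mul_zero, sub_zero]
      by_cases hd : h ≤ ‖x - y‖
      · rw [hr x y hd]
        split_ifs <;> exact le_refl _
      · rw [if_pos (nearWall_of_ne hℓ0 (not_le.1 hd) hs)]
  -- step 3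
  have step3 : ∑ τ ∈ Finset.range S, SC (X.filter (nearWall ℓ ((τ : ℝ) * q) h)) ≤ 3 * SC X := by
    have h1 : ∀ τ ∈ Finset.range S, SC (X.filter (nearWall ℓ ((τ : ℝ) * q) h)) ≤
        cross (fun x y => (if nearWall ℓ ((τ : ℝ) * q) h x then (1 : ℝ) else 0) *
          same (1 / 2) 0 x y) X X := by
      intro τ _
      unfold SC
      rw [dsum_filter]
      apply cross_mono
      intro x _ y _
      have := same_nonneg (1 / 2) 0 x y
      by_cases h1 : nearWall ℓ ((τ : ℝ) * q) h x <;> by_cases h2 : nearWall ℓ ((τ : ℝ) * q) h y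
      · rw [if_pos ⟨h1, h2⟩, if_pos h1, one_mul]
      · rw [if_neg (fun hc => h2 hc.2), if_pos h1, one_mul]
        exact this
      · rw [if_neg (fun hc => h1 hc.1), if_neg h1, zero_mul]
      · rw [if_neg (fun hc => h1 hc.1), if_neg h1, zero_mul]
    refine le_trans (Finset.sum_le_sum h1) ?_
    rw [cross_sum_ker]
    unfold SC dsum
    rw [← cross_smul_ker]
    apply cross_mono
    intro x _ y _
    rw [← Finset.sum_mul]
    exact mul_le_mul_of_nonneg_right (sum_nearWall_le hq hℓ x) (same_nonneg _ _ _ _)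
  -- step 4
  have step4 : ∃ τ ∈ Finset.range S,
      SC (X.filter (nearWall ℓ ((τ : ℝ) * q) h)) ≤ 3 * SC X / S := by
    apply Finset.exists_le_of_sum_le (Finset.nonempty_range_iff.2 hS.ne')
    rw [Finset.sum_const, Finset.card_range, nsmul_eq_mul]
    rw [mul_div_cancel₀ _ hS'.ne']
    exact step3
  obtain ⟨τ, hτ, h4⟩ := step4
  refine ⟨τ, hτ, le_trans (step1 τ) ?_⟩
  calc 2 * κ * SC (X.filter (nearWall ℓ ((τ : ℝ) * q) h)) ≤ 2 * κ * (3 * SC X / S) :=
        mul_le_mul_of_nonneg_left h4 (by positivity)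
    _ = 6 * κ / S * SC X := by ring

/-- multiplying a kernel by `same` does not change its diagonal -/
theorem diag_mul_same (k : E → E → ℝ) (ℓ σ : ℝ) (X : Multiset E) :
    diag (fun x y => k x y * same ℓ σ x y) X = diag k X := by
  unfold diag
  simp only [same_self, mul_one]

/-- With `ε = 3 κ / S`:
`En (ker a A) X - En ((ker (a - 2ε) A) * same) X
  = (a/2 - ε)(dsum rep - dsum (rep * same)) + ε dsum rep - ε N - (dsum A - dsum (A * same))/2
  ≥ ε SC X - ε N - ε SC X`. -/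
theorem exists_shift_En {A : E → E → ℝ} {κ h q ℓ a : ℝ} (hA : IsAttr A κ) (hr : HasRange A h)
    (hh : 0 < h) (hq : 2 * h < q) {S : ℕ} (hS : 0 < S) (hℓ : (S : ℝ) * q ≤ ℓ)
    (ha : 6 * κ / S ≤ a) (X : Multiset E) :
    ∃ τ ∈ Finset.range S,
      En (fun x y => ker (a - 2 * (3 * κ / S)) A x y * same ℓ ((τ : ℝ) * q) x y) X
        - 3 * κ / S * (Multiset.card X : ℝ) ≤ En (ker a A) X := by
  obtain ⟨τ, hτ, hle⟩ := exists_shift hA hr hh hq hS hℓ X
  refine ⟨τ, hτ, ?_⟩
  have hSpos : (0 : ℝ) < S := by exact_mod_cast hS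
  have hκ : 0 ≤ κ := hA.kappa_nonneg
  set ε : ℝ := 3 * κ / S with hε
  have hε0 : 0 ≤ ε := by positivity
  have h2ε : 6 * κ / S = 2 * ε := by rw [hε]; ring
  rw [h2ε] at hle ha
  set s : E → E → ℝ := same ℓ ((τ : ℝ) * q) with hs
  have hker : (fun x y => ker (a - 2 * ε) A x y * s x y)
      = fun x y => (a - 2 * ε) * (rep x y * s x y) - A x y * s x y := by
    funext x y
    unfold ker
    ring
  rw [hker, En_sub_ker, En_smul_ker, En_ker]
  have h1 : En A X - En (fun x y => A x y * s x y) X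
      = (dsum A X - dsum (fun x y => A x y * s x y) X) / 2 := by
    unfold En
    rw [hs, diag_mul_same]
    ring
  have h2 : En (fun x y => rep x y * s x y) X ≤ En rep X := by
    apply En_mono
    intro x _ y _
    exact mul_le_of_le_one_right (rep_nonneg x y) (same_le_one _ _ x y)
  have h3 := SC_le_dsum_rep X
  have h4 := dsum_rep_eq X
  have h5 : 0 ≤ (a - 2 * ε) * (En rep X - En (fun x y => rep x y * s x y) X) :=
    mul_nonneg (by linarith) (by linarith)
  have h6 : ε * SC X ≤ ε * (2 * En rep X + (Multiset.card X : ℝ)) := by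
    apply mul_le_mul_of_nonneg_left _ hε0
    linarith
  nlinarith

end Vale.Agent.Lib.P171
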