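import Vale.Agent.Lib.P171.PressBound
import Vale.Agent.Lib.P171.LensUpper
import Vale.Agent.Lib.P171.Pigeon

/-!
# P171, layer 3: upper bound, reduction to a single cell
-/

namespace Vale.Agent.Lib.P171

open MeasureTheory Set Filter Topology
open scoped ENNReal

/-- the effective mean field strength on cells of side `ℓ` -/
noncomputable def cp (c ℓ R : ℝ) : ℝ := c * (1 + Real.sqrt 3 * ℓ / R) ^ 6

/-- Pointwise bound. `En (ker a (A + kac)) X = En (ker a A) X - En kac X`; `exists_shift_En` for the first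
term, `En_kac_le` (with `σ = τ q`) and `dsum_same_eq` for the second:
`cp/ℓ³ * dsum same X = En (2 cp/ℓ³ * same) X + cp/ℓ³ * N`. -/
theorem Wt_kac_le {A : E → E → ℝ} {κ h q ℓ a c R : ℝ} (hA : IsAttr A κ) (hr : HasRange A h)
    (hh : 0 < h) (hq : 2 * h < q) {S : ℕ} (hS : 0 < S) (hℓ : (S : ℝ) * q ≤ ℓ)
    (ha : 6 * κ / S ≤ a) (hc : 0 ≤ c) (hR : 0 < R) (μ : ℝ) (X : Multiset E) :
    ∃ τ ∈ Finset.range S,
      Wt (ker a (fun x y => A x y + kac c R x y)) μ X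
        ≤ Wt (fun x y => (ker (a - 2 * (3 * κ / S)) A x y - 2 * cp c ℓ R / ℓ ^ 3)
              * same ℓ ((τ : ℝ) * q) x y) (μ + 3 * κ / S + cp c ℓ R / ℓ ^ 3) X := by
  obtain ⟨τ, hτ, hle⟩ := exists_shift_En hA hr hh hq hS hℓ ha X
  refine ⟨τ, hτ, Wt_le_Wt ?_⟩
  have hSpos : (0 : ℝ) < S := by exact_mod_cast hS
  have hℓ0 : 0 < ℓ := lt_of_lt_of_le (mul_pos hSpos (by linarith)) hℓ
  have h1 : ker a (fun x y => A x y + kac c R x y)
      = fun x y => ker a A x y - kac c R x y := by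
    funext x y
    unfold ker
    ring
  have h2 : (fun x y => (ker (a - 2 * (3 * κ / S)) A x y - 2 * cp c ℓ R / ℓ ^ 3)
        * same ℓ ((τ : ℝ) * q) x y)
      = fun x y => ker (a - 2 * (3 * κ / S)) A x y * same ℓ ((τ : ℝ) * q) x y
          - (2 * cp c ℓ R / ℓ ^ 3) * same ℓ ((τ : ℝ) * q) x y := by
    funext x y
    ring
  rw [h1, h2, En_sub_ker, En_sub_ker, En_smul_ker]
  have h3 := En_kac_le hc hR hℓ0 ((τ : ℝ) * q) X
  rw [dsum_same_eq] at h3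
  have h4 : c * (1 + Real.sqrt 3 * ℓ / R) ^ 6 = cp c ℓ R := rfl
  rw [h4] at h3
  have h5 : cp c ℓ R / ℓ ^ 3 * (2 * En (same ℓ ((τ : ℝ) * q)) X + (Multiset.card X : ℝ))
      = 2 * cp c ℓ R / ℓ ^ 3 * En (same ℓ ((τ : ℝ) * q)) X
        + cp c ℓ R / ℓ ^ 3 * (Multiset.card X : ℝ) := by ring
  rw [h5] at h3
  have h6 : (μ + 3 * κ / S + cp c ℓ R / ℓ ^ 3) * (Multiset.card X : ℝ)
      = μ * (Multiset.card X : ℝ) + 3 * κ / S * (Multiset.card X : ℝ)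
        + cp c ℓ R / ℓ ^ 3 * (Multiset.card X : ℝ) := by ring
  rw [h6]
  linarith

/-- (`Wt_kac_le`: the weight is at most the sum over `τ` of the decoupled weights; `Xi_mono_on`,
`Xi_finset_sum`, `Xi_box_same_le` for each `τ`) -/
theorem Xi_box_kac_le {A : E → E → ℝ} {κ h q ℓ a c R : ℝ} (hA : IsAttr A κ) (hr : HasRange A h)
    (hh : 0 < h) (hq : 2 * h < q) {S : ℕ} (hS : 0 < S) (hℓ : (S : ℝ) * q ≤ ℓ)
    (ha : 6 * κ / S ≤ a) (hc : 0 ≤ c) (hR : 0 < R) (μ : ℝ) {L : ℝ} (hL : 0 ≤ L) :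
    Xi (box L) (Wt (ker a (fun x y => A x y + kac c R x y)) μ)
      ≤ (S : ℝ≥0∞) * Xi (box ℓ) (Wt (fun x y => ker (a - 2 * (3 * κ / S)) A x y
            - 2 * cp c ℓ R / ℓ ^ 3) (μ + 3 * κ / S + cp c ℓ R / ℓ ^ 3))
          ^ ((⌊L / ℓ⌋₊ + 2) ^ 3) := by
  have hSpos : (0 : ℝ) < S := by exact_mod_cast hS
  have hℓ0 : 0 < ℓ := lt_of_lt_of_le (mul_pos hSpos (by linarith)) hℓ
  set k : E → E → ℝ := fun x y => ker (a - 2 * (3 * κ / S)) A x y - 2 * cp c ℓ R / ℓ ^ 3 with hk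
  set μ' : ℝ := μ + 3 * κ / S + cp c ℓ R / ℓ ^ 3 with hμ'
  have hkm : Measurable (Function.uncurry k) :=
    (measurable_ker hA.meas _).sub measurable_const
  have hkt : ∀ v x y, k (x + v) (y + v) = k x y := by
    intro v x y
    simp only [hk, ker, rep_transl, hA.transl]
  have hm : ∀ τ : ℕ, MeasW (Wt (fun x y => k x y * same ℓ ((τ : ℝ) * q) x y) μ') := by
    intro τ
    have hmm : Measurable (Function.uncurry fun x y => k x y * same ℓ ((τ : ℝ) * q) x y) :=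
      hkm.mul (measurable_same ℓ ((τ : ℝ) * q))
    exact measW_Wt hmm μ'
  have h1 : Xi (box L) (Wt (ker a (fun x y => A x y + kac c R x y)) μ)
      ≤ Xi (box L) (fun X => ∑ τ ∈ Finset.range S,
          Wt (fun x y => k x y * same ℓ ((τ : ℝ) * q) x y) μ' X) := by
    refine Xi_mono_on (measurableSet_box L) fun X _ => ?_
    obtain ⟨τ, hτ, hle⟩ := Wt_kac_le hA hr hh hq hS hℓ ha hc hR μ X
    exact hle.trans (Finset.single_le_sum
      (f := fun τ : ℕ => Wt (fun x y => k x y * same ℓ ((τ : ℝ) * q) x y) μ' X)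
      (fun _ _ => zero_le) hτ)
  rw [Xi_finset_sum (box L) (Finset.range S) (fun τ _ => hm τ)] at h1
  refine h1.trans ?_
  calc ∑ τ ∈ Finset.range S, Xi (box L) (Wt (fun x y => k x y * same ℓ ((τ : ℝ) * q) x y) μ')
      ≤ ∑ _τ ∈ Finset.range S, Xi (box ℓ) (Wt k μ') ^ ((⌊L / ℓ⌋₊ + 2) ^ 3) :=
        Finset.sum_le_sum fun τ _ => Xi_box_same_le hkm hkt hℓ0 _ μ' hL
    _ = (S : ℝ≥0∞) * Xi (box ℓ) (Wt k μ') ^ ((⌊L / ℓ⌋₊ + 2) ^ 3) := by
        rw [Finset.sum_const, Finset.card_range, nsmul_eq_mul]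

end Vale.Agent.Lib.P171
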