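import Vale.Agent.Lib.P171.SupConv

/-!
# P171, layer 4: a steep convex function develops an exact corner under `T`
-/

namespace Vale.Agent.Lib.P171

open Set Filter Topology

/-- a maximiser landing left of `x₁` gives the left half of the corner -/
theorem kink_left {g : ℝ → ℝ} (hg : ConvexOn ℝ univ g) {c ν₀ s₁ s₂ x₁ x₂ μ ν : ℝ}
    (hsteep : Steep g x₁ x₂ s₁ s₂) (h0 : 0 ≤ ν) (h1 : ν ≤ ν₀)
    (hmax : T c ν₀ g μ = g (μ + ν) - ν ^ 2 / (4 * c)) (hle : μ + ν ≤ x₁) :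
    ∀ h, 0 ≤ h → T c ν₀ g μ - s₁ * h ≤ T c ν₀ g (μ - h) := by
  intro h hh
  have h2 := le_T (c := c) (μ := μ - h) hg h0 h1
  have h3 := hsteep.1 (μ - h + ν) (μ + ν) (by linarith) hle
  have h4 : μ + ν - (μ - h + ν) = h := by ring
  rw [h4] at h3
  linarith

/-- a maximiser landing right of `x₂` gives the right half of the corner -/
theorem kink_right {g : ℝ → ℝ} (hg : ConvexOn ℝ univ g) {c ν₀ s₁ s₂ x₁ x₂ μ ν : ℝ}
    (hsteep : Steep g x₁ x₂ s₁ s₂) (h0 : 0 ≤ ν) (h1 : ν ≤ ν₀)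
    (hmax : T c ν₀ g μ = g (μ + ν) - ν ^ 2 / (4 * c)) (hle : x₂ ≤ μ + ν) :
    ∀ h, 0 ≤ h → T c ν₀ g μ + s₂ * h ≤ T c ν₀ g (μ + h) := by
  intro h hh
  have h2 := le_T (c := c) (μ := μ + h) hg h0 h1
  have h3 := hsteep.2 (μ + ν) (μ + h + ν) hle (by linarith)
  have h4 : μ + h + ν - (μ + ν) = h := by ring
  rw [h4] at h3
  linarith

/-- middle exclusion, first case: jump to the right of the window -/
theorem kink_mid_right {g : ℝ → ℝ} (hg : ConvexOn ℝ univ g) (hmono : Monotone g)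
    {c ν₀ S s₁ s₂ x₁ x₂ μ ν : ℝ} (hc : 0 < c) (hs1 : 0 ≤ s₁) (hs : s₁ < s₂) (hx : x₁ ≤ x₂)
    (hs2S : s₂ ≤ S)
    (hsteep : Steep g x₁ x₂ s₁ s₂)
    (hW : (x₂ - x₁) * (4 * (S + (s₂ - s₁))) ≤ c * (s₂ - s₁) ^ 2)
    (hν : 4 * c * S ≤ ν₀)
    (hmax : T c ν₀ g μ = g (μ + ν) - ν ^ 2 / (4 * c))
    (hl : x₁ ≤ μ + ν) (hr : μ + ν ≤ x₂) (hp : c * (s₂ - s₁) ≤ 2 * c * s₂ - ν) :
    0 ≤ 2 * c * s₂ ∧ 2 * c * s₂ ≤ ν₀ ∧
      T c ν₀ g μ = g (μ + 2 * c * s₂) - (2 * c * s₂) ^ 2 / (4 * c) ∧ x₂ ≤ μ + 2 * c * s₂ := by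
  have hδ : 0 < s₂ - s₁ := by linarith
  have hs2 : 0 < s₂ := by linarith
  have hSpos : 0 < S := by linarith
  have hWn : 0 ≤ x₂ - x₁ := by linarith
  have hcS : 0 < c * S := mul_pos hc hSpos
  have hWS : 4 * (S * (x₂ - x₁)) ≤ c * (s₂ - s₁) ^ 2 := by nlinarith [mul_nonneg hWn hδ.le]
  have hWδ : 4 * (x₂ - x₁) ≤ c * (s₂ - s₁) := by
    have h1 : (4 * (x₂ - x₁)) * (s₂ - s₁) ≤ (c * (s₂ - s₁)) * (s₂ - s₁) := by
      nlinarith [mul_nonneg hWn hSpos.le]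
    exact le_of_mul_le_mul_right h1 hδ
  have h0' : 0 ≤ 2 * c * s₂ := by positivity
  have h1' : 2 * c * s₂ ≤ ν₀ := by nlinarith [mul_le_mul_of_nonneg_left hs2S hc.le]
  have hy : x₂ ≤ μ + 2 * c * s₂ := by linarith
  refine ⟨h0', h1', ?_, hy⟩
  apply le_antisymm _ (le_T hg h0' h1')
  rw [hmax]
  have hg1 : g (μ + ν) ≤ g x₂ := hmono hr
  have hg2 := hsteep.2 x₂ (μ + 2 * c * s₂) le_rfl hy
  have e2 : (2 * c * s₂) ^ 2 / (4 * c) = c * s₂ ^ 2 := by field_simp; ring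
  rw [e2]
  have hq : ν ^ 2 / (4 * c) = c * s₂ ^ 2 - s₂ * (2 * c * s₂ - ν) + (2 * c * s₂ - ν) ^ 2 / (4 * c) := by
    field_simp; ring
  rw [hq]
  have hq2 : c * (s₂ - s₁) ^ 2 / 4 ≤ (2 * c * s₂ - ν) ^ 2 / (4 * c) := by
    rw [le_div_iff₀ (by positivity)]
    have : (c * (s₂ - s₁)) ^ 2 ≤ (2 * c * s₂ - ν) ^ 2 := by
      apply pow_le_pow_left₀ (by positivity) hp
    nlinarith
  have hsW : s₂ * (x₂ - (μ + ν)) ≤ S * (x₂ - x₁) := by
    apply mul_le_mul hs2S (by linarith) (by linarith) hSpos.le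
  nlinarith

/-- middle exclusion, second case: jump to the left of the window -/
theorem kink_mid_left {g : ℝ → ℝ} (hg : ConvexOn ℝ univ g)
    {c ν₀ S s₁ s₂ x₁ x₂ μ ν : ℝ} (hc : 0 < c) (hs1 : 0 ≤ s₁) (hs : s₁ < s₂) (hx : x₁ ≤ x₂)
    (hs2S : s₂ ≤ S)
    (hS : ∀ x y, x ≤ y → y ≤ x₂ + ν₀ → g y - g x ≤ S * (y - x))
    (hsteep : Steep g x₁ x₂ s₁ s₂)
    (hW : (x₂ - x₁) * (4 * (S + (s₂ - s₁))) ≤ c * (s₂ - s₁) ^ 2)
    (hν0 : 0 < ν₀) (h1 : ν ≤ ν₀)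
    (hmax : T c ν₀ g μ = g (μ + ν) - ν ^ 2 / (4 * c))
    (hl : x₁ ≤ μ + ν) (hr : μ + ν ≤ x₂) (hp : c * (s₂ - s₁) ≤ ν - 2 * c * s₁) :
    0 ≤ 2 * c * s₁ ∧ 2 * c * s₁ ≤ ν₀ ∧
      T c ν₀ g μ = g (μ + 2 * c * s₁) - (2 * c * s₁) ^ 2 / (4 * c) ∧ μ + 2 * c * s₁ ≤ x₁ := by
  have hδ : 0 < s₂ - s₁ := by linarith
  have hs2 : 0 < s₂ := by linarith
  have hSpos : 0 < S := by linarith
  have hWn : 0 ≤ x₂ - x₁ := by linarith
  have hWS : 4 * (S * (x₂ - x₁)) ≤ c * (s₂ - s₁) ^ 2 := by nlinarith [mul_nonneg hWn hδ.le]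
  have hWδ : 4 * (x₂ - x₁) ≤ c * (s₂ - s₁) := by
    have h1 : (4 * (x₂ - x₁)) * (s₂ - s₁) ≤ (c * (s₂ - s₁)) * (s₂ - s₁) := by
      nlinarith [mul_nonneg hWn hSpos.le]
    exact le_of_mul_le_mul_right h1 hδ
  have hcδ : 0 < c * (s₂ - s₁) := mul_pos hc hδ
  have h0' : 0 ≤ 2 * c * s₁ := by positivity
  have h1' : 2 * c * s₁ ≤ ν₀ := by linarith
  have hy : μ + 2 * c * s₁ ≤ x₁ := by linarith
  refine ⟨h0', h1', ?_, hy⟩
  apply le_antisymm _ (le_T hg h0' h1')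
  rw [hmax]
  have hg1 := hS x₁ (μ + ν) hl (by linarith)
  have hg2 := hsteep.1 (μ + 2 * c * s₁) x₁ hy le_rfl
  have e2 : (2 * c * s₁) ^ 2 / (4 * c) = c * s₁ ^ 2 := by field_simp; ring
  rw [e2]
  have hq : ν ^ 2 / (4 * c) = c * s₁ ^ 2 + s₁ * (ν - 2 * c * s₁) + (ν - 2 * c * s₁) ^ 2 / (4 * c) := by
    field_simp; ring
  rw [hq]
  have hq2 : c * (s₂ - s₁) ^ 2 / 4 ≤ (ν - 2 * c * s₁) ^ 2 / (4 * c) := by
    rw [le_div_iff₀ (by positivity)]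
    have : (c * (s₂ - s₁)) ^ 2 ≤ (ν - 2 * c * s₁) ^ 2 := by
      apply pow_le_pow_left₀ (by positivity) hp
    nlinarith
  have hsW : S * (μ + ν - x₁) ≤ S * (x₂ - x₁) := by
    apply mul_le_mul_of_nonneg_left (by linarith) hSpos.le
  have hs1W : 0 ≤ s₁ * (μ + ν - x₁) := mul_nonneg hs1 (by linarith)
  nlinarith

/-- **Kink lemma.** Let `g` be convex and nondecreasing with slopes `≤ S` up to `x₂ + ν₀`, slopes
`≤ s₁` left of `x₁` and `≥ s₂` right of `x₂`. If the window `x₂ - x₁` is small compared with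
`c (s₂ - s₁)²`, then `T c ν₀ g` has an exact corner with the same slopes. -/
theorem kink_T {g : ℝ → ℝ} (hg : ConvexOn ℝ univ g) (hmono : Monotone g)
    {c ν₀ S s₁ s₂ x₁ x₂ : ℝ} (hc : 0 < c) (hs1 : 0 ≤ s₁) (hs : s₁ < s₂) (hx : x₁ ≤ x₂)
    (hS : ∀ x y, x ≤ y → y ≤ x₂ + ν₀ → g y - g x ≤ S * (y - x))
    (hsteep : Steep g x₁ x₂ s₁ s₂)
    (hW : (x₂ - x₁) * (4 * (S + (s₂ - s₁))) ≤ c * (s₂ - s₁) ^ 2)
    (hν : 4 * c * S ≤ ν₀) (hν0 : 0 < ν₀) :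
    ∃ m, x₂ - 4 * c * S ≤ m ∧ m ≤ x₁ ∧ Kink (T c ν₀ g) m s₁ s₂ := by
  have hδ : 0 < s₂ - s₁ := by linarith
  have hs2 : 0 < s₂ := by linarith
  have hs2S : s₂ ≤ S := by
    have h1 := hsteep.2 x₂ (x₂ + ν₀) le_rfl (by linarith)
    have h2 := hS x₂ (x₂ + ν₀) (by linarith) le_rfl
    have h3 : x₂ + ν₀ - x₂ = ν₀ := by ring
    rw [h3] at h1 h2
    exact le_of_mul_le_mul_right (h1.trans h2) hν0
  have hSpos : 0 < S := by linarith
  have hWn : 0 ≤ x₂ - x₁ := by linarith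
  have hcS : 0 < c * S := mul_pos hc hSpos
  have hWδ : 4 * (x₂ - x₁) ≤ c * (s₂ - s₁) := by
    have h1 : (4 * (x₂ - x₁)) * (s₂ - s₁) ≤ (c * (s₂ - s₁)) * (s₂ - s₁) := by
      nlinarith [mul_nonneg hWn hSpos.le]
    exact le_of_mul_le_mul_right h1 hδ
  have hcδS : c * (s₂ - s₁) ≤ c * S := mul_le_mul_of_nonneg_left (by linarith) hc.le
  have hcs1 : 0 ≤ c * s₁ := mul_nonneg hc.le hs1
  set G := T c ν₀ g with hG
  have hGc : Continuous G := continuous_of_convexOn (convexOn_T hg hν0.le)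
  set A : Set ℝ := {μ | ∀ h, 0 ≤ h → G μ - s₁ * h ≤ G (μ - h)} with hA
  set B : Set ℝ := {μ | ∀ h, 0 ≤ h → G μ + s₂ * h ≤ G (μ + h)} with hB
  have hAcl : IsClosed A := by
    rw [hA]
    simp only [Set.ofPred_forall]
    exact isClosed_iInter fun h => isClosed_iInter fun _ =>
      isClosed_le (by fun_prop) (by fun_prop)
  have hBcl : IsClosed B := by
    rw [hB]
    simp only [Set.ofPred_forall]
    exact isClosed_iInter fun h => isClosed_iInter fun _ =>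
      isClosed_le (by fun_prop) (by fun_prop)
  -- every point is in `A` or `B`
  have hcover : ∀ μ, μ ∈ A ∨ μ ∈ B := by
    intro μ
    obtain ⟨ν, h0, h1, hmax⟩ := exists_T_eq (c := c) hg hν0.le μ
    rcases le_total (μ + ν) x₁ with hl | hl
    · exact Or.inl (kink_left hg hsteep h0 h1 hmax hl)
    rcases le_total x₂ (μ + ν) with hr | hr
    · exact Or.inr (kink_right hg hsteep h0 h1 hmax hr)
    rcases le_total (c * (s₂ - s₁)) (2 * c * s₂ - ν) with hp | hp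
    · obtain ⟨a, b, e, f⟩ := kink_mid_right hg hmono hc hs1 hs hx hs2S hsteep hW hν hmax hl hr hp
      exact Or.inr (kink_right hg hsteep a b e f)
    · obtain ⟨a, b, e, f⟩ := kink_mid_left hg hc hs1 hs hx hs2S hS hsteep hW hν0 h1 hmax hl hr
        (by nlinarith)
      exact Or.inl (kink_left hg hsteep a b e f)
  have hx1B : x₁ ∈ B := by
    obtain ⟨ν, h0, h1, hmax⟩ := exists_T_eq (c := c) hg hν0.le x₁
    rcases le_total x₂ (x₁ + ν) with hr | hr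
    · exact kink_right hg hsteep h0 h1 hmax hr
    · obtain ⟨a, b, e, f⟩ := kink_mid_right hg hmono hc hs1 hs hx hs2S hsteep hW hν hmax
        (by linarith) hr (by nlinarith)
      exact kink_right hg hsteep a b e f
  have hne : x₂ - 4 * c * S ≤ x₁ := by nlinarith
  have hx2A : x₂ - 4 * c * S ∈ A := by
    -- a maximiser landing right of `x₂` can be replaced by the zero shift
    have key : ∀ ν, 0 ≤ ν → ν ≤ ν₀ →
        T c ν₀ g (x₂ - 4 * c * S) = g (x₂ - 4 * c * S + ν) - ν ^ 2 / (4 * c) →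
        x₂ ≤ x₂ - 4 * c * S + ν → x₂ - 4 * c * S ∈ A := by
      intro ν h0 h1 hmax hr
      have hz : T c ν₀ g (x₂ - 4 * c * S) =
          g (x₂ - 4 * c * S + 0) - (0 : ℝ) ^ 2 / (4 * c) := by
        apply le_antisymm _ (le_T hg le_rfl hν0.le)
        rw [hmax]
        have h2 := hS (x₂ - 4 * c * S) (x₂ - 4 * c * S + ν) (by linarith) (by linarith)
        have h3 : x₂ - 4 * c * S + ν - (x₂ - 4 * c * S) = ν := by ring
        rw [h3] at h2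
        have h4 : S * ν ≤ ν ^ 2 / (4 * c) := by
          rw [le_div_iff₀ (by positivity)]
          nlinarith
        simp only [add_zero]
        norm_num
        linarith
      exact kink_left hg hsteep le_rfl hν0.le hz (by linarith)
    obtain ⟨ν, h0, h1, hmax⟩ := exists_T_eq (c := c) hg hν0.le (x₂ - 4 * c * S)
    rcases le_total (x₂ - 4 * c * S + ν) x₁ with hl | hl
    · exact kink_left hg hsteep h0 h1 hmax hl
    rcases le_total x₂ (x₂ - 4 * c * S + ν) with hr | hr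
    · exact key ν h0 h1 hmax hr
    rcases le_total (c * (s₂ - s₁)) (2 * c * s₂ - ν) with hp | hp
    · obtain ⟨a, b, e, f⟩ := kink_mid_right hg hmono hc hs1 hs hx hs2S hsteep hW hν hmax hl hr hp
      exact key _ a b e f
    · obtain ⟨a, b, e, f⟩ := kink_mid_left hg hc hs1 hs hx hs2S hS hsteep hW hν0 h1 hmax hl hr
        (by nlinarith)
      exact kink_left hg hsteep a b e f
  obtain ⟨m, hm, hmA, hmB⟩ := isPreconnected_closed_iff.1 (isPreconnected_Icc (a := x₂ - 4 * c * S) (b := x₁))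
    A B hAcl hBcl (fun μ _ => hcover μ) ⟨_, left_mem_Icc.2 hne, hx2A⟩ ⟨_, right_mem_Icc.2 hne, hx1B⟩
  exact ⟨m, hm.1, hm.2, fun h hh => ⟨hmB h hh, hmA h hh⟩⟩

end Vale.Agent.Lib.P171
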