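import Vale.Agent.Lib.P171.Geom

/-!
# P171, layer 1: the lens kernel (volume of the intersection of two balls)
-/

namespace Vale.Agent.Lib.P171

open MeasureTheory Set
open scoped ENNReal

/-- the lens volume as a function of the distance of the centres -/
noncomputable def lens (R r : ℝ) : ℝ := lensK R 0 (r • (EuclideanSpace.single 0 1 : E))

theorem lensK_nonneg (R : ℝ) (x y : E) : 0 ≤ lensK R x y :=
  ENNReal.toReal_nonneg

theorem lensK_symm (R : ℝ) (x y : E) : lensK R x y = lensK R y x := by
  unfold lensK
  rw [Set.inter_comm]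

theorem lensK_transl (R : ℝ) (v x y : E) : lensK R (x + v) (y + v) = lensK R x y := by
  unfold lensK
  have h : Metric.ball (x + v) R ∩ Metric.ball (y + v) R
      = (fun z => z + -v) ⁻¹' (Metric.ball x R ∩ Metric.ball y R) := by
    ext z
    have e1 : z - (x + v) = z + -v - x := by abel
    have e2 : z - (y + v) = z + -v - y := by abel
    simp only [Set.mem_inter_iff, Metric.mem_ball, dist_eq_norm, Set.mem_preimage, e1, e2]
  rw [h, measure_preimage_add_right]

theorem lensK_le (R : ℝ) (x y : E) : lensK R x y ≤ vB R := by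
  rw [← volume_ball_toReal x R]
  exact ENNReal.toReal_mono measure_ball_lt_top.ne (measure_mono Set.inter_subset_left)

theorem lensK_self (R : ℝ) (x : E) : lensK R x x = vB R := by
  unfold lensK
  rw [Set.inter_self, volume_ball_toReal]

theorem lensK_eq_zero {R : ℝ} {x y : E} (h : 2 * R ≤ ‖x - y‖) : lensK R x y = 0 := by
  unfold lensK
  have hd : Disjoint (Metric.ball x R) (Metric.ball y R) := by
    apply Metric.ball_disjoint_ball
    rw [dist_eq_norm]
    linarith
  rw [Set.disjoint_iff_inter_eq_empty.1 hd]
  simp

/-- (the set `{((x, y), ξ) | ‖ξ - x‖ < R ∧ ‖ξ - y‖ < R}` is open; `measurable_measure_prodMk_left`) -/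
theorem measurable_lensK (R : ℝ) : Measurable (Function.uncurry (lensK R)) := by
  have c1 : Continuous fun p : (E × E) × E => dist p.2 p.1.1 :=
    continuous_snd.dist (continuous_fst.comp continuous_fst)
  have c2 : Continuous fun p : (E × E) × E => dist p.2 p.1.2 :=
    continuous_snd.dist (continuous_snd.comp continuous_fst)
  have hopen : IsOpen {p : (E × E) × E | dist p.2 p.1.1 < R ∧ dist p.2 p.1.2 < R} :=
    (isOpen_lt c1 continuous_const).inter (isOpen_lt c2 continuous_const)
  have h1 := measurable_measure_prodMk_left (ν := (volume : Measure E)) hopen.measurableSet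
  have h2 : Function.uncurry (lensK R) = fun p : E × E =>
      (volume (Prod.mk p ⁻¹' {p : (E × E) × E | dist p.2 p.1.1 < R ∧ dist p.2 p.1.2 < R})).toReal := by
    funext p
    rfl
  rw [h2]
  exact h1.ennreal_toReal

theorem measurable_lens (R : ℝ) : Measurable (lens R) := by
  have hm : Measurable fun r : ℝ => ((0, r • (EuclideanSpace.single 0 1 : E)) : E × E) :=
    measurable_const.prodMk (measurable_id.smul_const _)
  have e : lens R = fun r : ℝ =>
      Function.uncurry (lensK R) ((0, r • (EuclideanSpace.single 0 1 : E)) : E × E) := by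
    funext r
    rfl
  rw [e]
  exact (measurable_lensK R).comp hm

/-- rotation invariance: translate `x` to the origin, then use the reflection exchanging `y - x`
and `‖y - x‖ e₀` (`Submodule.reflection_sub`), a linear isometry, hence measure preserving
(`LinearIsometryEquiv.measurePreserving`) and mapping balls to balls -/
theorem lensK_eq_lens (R : ℝ) (x y : E) : lensK R x y = lens R ‖x - y‖ := by
  have h0 : lensK R x y = lensK R 0 (y - x) := by
    have := lensK_transl R (-x) x y
    rw [add_neg_cancel, ← sub_eq_add_neg] at this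
    exact this.symm
  rw [h0]
  unfold lens
  set u : E := y - x with hu
  set w : E := ‖x - y‖ • (EuclideanSpace.single 0 1 : E) with hw
  have hnorm : ‖u‖ = ‖w‖ := by
    rw [hw, norm_smul, norm_norm, hu, norm_sub_rev]
    simp
  set ρ : E ≃ₗᵢ[ℝ] E := Submodule.reflection (Submodule.span ℝ {u - w})ᗮ with hρ
  have hρu : ρ u = w := Submodule.reflection_sub hnorm
  have hsymm : ρ.symm w = u := by
    rw [← hρu, LinearIsometryEquiv.symm_apply_apply]
  unfold lensK
  have hmp := ρ.measurePreserving
  have hms : MeasurableSet (Metric.ball (0 : E) R ∩ Metric.ball w R) :=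
    Metric.isOpen_ball.measurableSet.inter Metric.isOpen_ball.measurableSet
  rw [← hmp.measure_preimage hms.nullMeasurableSet, Set.preimage_inter,
    LinearIsometryEquiv.preimage_ball, LinearIsometryEquiv.preimage_ball, hsymm, map_zero]

/-- `lensK R x y = ∫ 1_{B(ξ,R)}(x) 1_{B(ξ,R)}(y) dξ` restricted to any measurable set containing one
of the balls -/
theorem lensK_eq_integral {R : ℝ} {D : Set E} (hD : MeasurableSet D) {x y : E}
    (hx : Metric.ball x R ⊆ D) :
    lensK R x y = ∫ ξ in D, (Metric.ball x R).indicator (fun _ => (1 : ℝ)) ξ *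
      (Metric.ball y R).indicator (fun _ => (1 : ℝ)) ξ := by
  have hms : MeasurableSet (Metric.ball x R ∩ Metric.ball y R) :=
    Metric.isOpen_ball.measurableSet.inter Metric.isOpen_ball.measurableSet
  have e : (fun ξ => (Metric.ball x R).indicator (fun _ => (1 : ℝ)) ξ *
      (Metric.ball y R).indicator (fun _ => (1 : ℝ)) ξ)
      = (Metric.ball x R ∩ Metric.ball y R).indicator (fun _ => (1 : ℝ)) := by
    funext ξ
    rw [← Set.inter_indicator_mul]
    simp
  rw [e, setIntegral_indicator hms]
  have hsub : D ∩ (Metric.ball x R ∩ Metric.ball y R) = Metric.ball x R ∩ Metric.ball y R :=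
    Set.inter_eq_right.2 (Set.inter_subset_left.trans hx)
  rw [hsub, setIntegral_const]
  simp [lensK, Measure.real]

theorem kac_nonneg {c : ℝ} (hc : 0 ≤ c) (R : ℝ) (x y : E) : 0 ≤ kac c R x y :=
  mul_nonneg (div_nonneg (by positivity) (sq_nonneg _)) (lensK_nonneg R x y)

theorem kac_symm (c R : ℝ) (x y : E) : kac c R x y = kac c R y x := by
  unfold kac
  rw [lensK_symm]

theorem kac_transl (c R : ℝ) (v x y : E) : kac c R (x + v) (y + v) = kac c R x y := by
  unfold kac
  rw [lensK_transl]

theorem measurable_kac (c R : ℝ) : Measurable (Function.uncurry (kac c R)) :=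
  (measurable_lensK R).const_mul (2 * c / vB R ^ 2)

theorem kac_self {R : ℝ} (hR : 0 < R) (c : ℝ) (x : E) : kac c R x x = 2 * c / vB R := by
  unfold kac
  rw [lensK_self]
  have := (vB_pos hR).ne'
  field_simp

theorem kac_le {c R : ℝ} (hc : 0 ≤ c) (hR : 0 < R) (x y : E) : kac c R x y ≤ 2 * c / vB R := by
  rw [← kac_self hR c x]
  unfold kac
  rw [lensK_self]
  exact mul_le_mul_of_nonneg_left (lensK_le R x y) (div_nonneg (by positivity) (sq_nonneg _))

theorem hasRange_kac (c R : ℝ) : HasRange (kac c R) (2 * R) := by
  intro x y h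
  unfold kac
  rw [lensK_eq_zero h, mul_zero]

end Vale.Agent.Lib.P171
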