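import Vale.Agent.Lib.P171.Final

/-!
# P171: the potential has a radially decreasing integrable majorant
-/

namespace Vale.Agent.Lib.P171

open MeasureTheory Set Filter Topology
open scoped ENNReal

open Classical in
/-- one term of the majorant -/
noncomputable def psiT (R : ℕ → ℝ) (j : ℕ) (r : ℝ) : ℝ :=
  if r < 2 * R j then 2 * cs j / vB (R j) else 0

open Classical in
/-- the decreasing majorant of `|phi R|` -/
noncomputable def psi (R : ℕ → ℝ) (r : ℝ) : ℝ :=
  (if r < 1 then aa else 0) + ∑' j : ℕ, psiT R j r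

theorem psiT_nonneg {R : ℕ → ℝ} (hR : ∀ j, 8 ≤ R j) (j : ℕ) (r : ℝ) : 0 ≤ psiT R j r := by
  unfold psiT
  have h1 := cs_pos j
  have h2 : 0 < vB (R j) := vB_pos (by linarith [hR j])
  split_ifs
  · positivity
  · exact le_rfl

theorem psiT_le {R : ℕ → ℝ} (hR : ∀ j, 8 ≤ R j) (j : ℕ) (r : ℝ) :
    psiT R j r ≤ 2 * cs j / vB 1 := by
  have hRj := hR j
  have hR0 : 0 < R j := by linarith
  have hv : 0 < vB 1 := vB_pos one_pos
  have h1 : vB 1 ≤ vB (R j) := by
    rw [vB_eq hR0.le]
    have : (1 : ℝ) ≤ R j ^ 3 := one_le_pow₀ (by linarith)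
    nlinarith
  have hc := cs_pos j
  unfold psiT
  split_ifs
  · exact div_le_div_of_nonneg_left (by positivity) hv h1
  · positivity

theorem summable_psiT {R : ℕ → ℝ} (hR : ∀ j, 8 ≤ R j) (r : ℝ) :
    Summable fun j : ℕ => psiT R j r := by
  refine Summable.of_nonneg_of_le (fun j => psiT_nonneg hR j r) (fun j => psiT_le hR j r) ?_
  have h := ((hasSum_cs_tail 0).summable.mul_left 2).div_const (vB 1)
  simpa using h

theorem psiT_antitone {R : ℕ → ℝ} (hR : ∀ j, 8 ≤ R j) (j : ℕ) : Antitone (psiT R j) := by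
  intro r s hrs
  have h0 := psiT_nonneg hR j r
  unfold psiT at h0 ⊢
  by_cases hs : s < 2 * R j
  · rw [if_pos hs, if_pos (lt_of_le_of_lt hrs hs)]
  · rw [if_neg hs]
    exact h0

theorem psi_antitone {R : ℕ → ℝ} (hR : ∀ j, 8 ≤ R j) : Antitone (psi R) := by
  intro r s hrs
  unfold psi
  have haa : (0 : ℝ) ≤ aa := by unfold aa; norm_num
  have h1 : (if s < 1 then aa else 0) ≤ (if r < 1 then aa else 0) := by
    by_cases hs : s < 1
    · rw [if_pos hs, if_pos (lt_of_le_of_lt hrs hs)]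
    · rw [if_neg hs]
      split_ifs
      · exact haa
      · exact le_rfl
  have h2 : ∑' j : ℕ, psiT R j s ≤ ∑' j : ℕ, psiT R j r :=
    (summable_psiT hR s).tsum_le_tsum (fun j => psiT_antitone hR j hrs) (summable_psiT hR r)
  linarith

theorem kac_le_psiT {R : ℕ → ℝ} (hR : ∀ j, 8 ≤ R j) (j : ℕ) (r : ℝ) :
    kac (cs j) (R j) 0 (r • (EuclideanSpace.single 0 1 : E)) ≤ psiT R j r := by
  have hR0 : 0 < R j := by linarith [hR j]
  unfold psiT
  split_ifs with h
  · exact kac_le (cs_pos j).le hR0 _ _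
  · apply le_of_eq
    apply hasRange_kac
    have h1 : 2 * R j ≤ r := not_lt.1 h
    have h2 : ‖(0 : E) - r • (EuclideanSpace.single 0 1 : E)‖ = |r| := by
      rw [zero_sub, norm_neg, norm_smul]
      simp
    rw [h2]
    exact h1.trans (le_abs_self r)

theorem abs_phi_le_psi {R : ℕ → ℝ} (hR : ∀ j, 8 ≤ R j) (r : ℝ) : |phi R r| ≤ psi R r := by
  have h0 := (isAttr_Atail hR 0).nonneg 0 (r • (EuclideanSpace.single 0 1 : E))
  have hs := summable_kac hR 0 0 (r • (EuclideanSpace.single 0 1 : E))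
  have h1 : Atail R 0 0 (r • (EuclideanSpace.single 0 1 : E)) ≤ ∑' j : ℕ, psiT R j r := by
    unfold Atail
    refine hs.tsum_le_tsum (fun j => ?_) (summable_psiT hR r)
    simpa using kac_le_psiT hR (0 + j) r
  have haa : (0 : ℝ) ≤ aa := by unfold aa; norm_num
  unfold phi psi
  rw [abs_le]
  split_ifs <;> constructor <;> linarith

theorem psi_nonneg {R : ℕ → ℝ} (hR : ∀ j, 8 ≤ R j) (r : ℝ) : 0 ≤ psi R r :=
  (abs_nonneg _).trans (abs_phi_le_psi hR r)

theorem lintegral_psiT {R : ℕ → ℝ} (hR : ∀ j, 8 ≤ R j) (j : ℕ) :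
    ∫⁻ x : E, ENNReal.ofReal (psiT R j ‖x‖) = ENNReal.ofReal (16 * cs j) := by
  have hR0 : 0 < R j := by linarith [hR j]
  have hv : 0 < vB (R j) := vB_pos hR0
  have hc := cs_pos j
  have e : (fun x : E => ENNReal.ofReal (psiT R j ‖x‖))
      = (Metric.ball (0 : E) (2 * R j)).indicator
          (fun _ => ENNReal.ofReal (2 * cs j / vB (R j))) := by
    funext x
    unfold psiT
    by_cases h : ‖x‖ < 2 * R j
    · rw [if_pos h, Set.indicator_of_mem (by simpa using h)]
    · rw [if_neg h, Set.indicator_of_notMem (by simpa using h)]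
      simp
  rw [e, lintegral_indicator_const Metric.isOpen_ball.measurableSet, volume_ball_eq,
    ← ENNReal.ofReal_mul (by positivity)]
  congr 1
  rw [vB_eq (by positivity : (0 : ℝ) ≤ 2 * R j), vB_eq hR0.le]
  have h1 : 0 < vB 1 := vB_pos one_pos
  field_simp
  ring

theorem measurable_psiT (R : ℕ → ℝ) (j : ℕ) : Measurable (psiT R j) := by
  unfold psiT
  exact Measurable.ite measurableSet_Iio measurable_const measurable_const

theorem integrable_psi {R : ℕ → ℝ} (hR : ∀ j, 8 ≤ R j) :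
    Integrable (fun x : E => psi R ‖x‖) := by
  have haa : (0 : ℝ) ≤ aa := by unfold aa; norm_num
  have hm : Measurable (psi R) := (psi_antitone hR).measurable
  refine ⟨(hm.comp measurable_norm).aestronglyMeasurable, ?_⟩
  rw [hasFiniteIntegral_iff_ofReal (Filter.Eventually.of_forall fun x => psi_nonneg hR ‖x‖)]
  have e : ∀ x : E, ENNReal.ofReal (psi R ‖x‖)
      = (Metric.ball (0 : E) 1).indicator (fun _ => ENNReal.ofReal aa) x
        + ∑' j : ℕ, ENNReal.ofReal (psiT R j ‖x‖) := by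
    intro x
    unfold psi
    rw [ENNReal.ofReal_add (by split_ifs <;> simp [haa])
      (tsum_nonneg fun j => psiT_nonneg hR j ‖x‖),
      ENNReal.ofReal_tsum_of_nonneg (fun j => psiT_nonneg hR j ‖x‖) (summable_psiT hR ‖x‖)]
    congr 1
    by_cases h : ‖x‖ < 1
    · rw [if_pos h, Set.indicator_of_mem (by simpa using h)]
    · rw [if_neg h, Set.indicator_of_notMem (by simpa using h)]
      simp
  simp_rw [e]
  rw [lintegral_add_left (measurable_const.indicator Metric.isOpen_ball.measurableSet),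
    lintegral_indicator_const Metric.isOpen_ball.measurableSet,
    lintegral_tsum (f := fun (j : ℕ) (x : E) => ENNReal.ofReal (psiT R j ‖x‖)) (fun j =>
      (((measurable_psiT R j).comp measurable_norm).ennreal_ofReal).aemeasurable)]
  simp_rw [lintegral_psiT hR]
  have hs : Summable fun j : ℕ => 16 * cs j := by
    have h := (hasSum_cs_tail 0).summable.mul_left 16
    simpa using h
  rw [← ENNReal.ofReal_tsum_of_nonneg (fun j => by have := cs_pos j; positivity) hs,
    volume_ball_eq]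
  exact ENNReal.add_lt_top.2 ⟨ENNReal.mul_lt_top ENNReal.ofReal_lt_top ENNReal.ofReal_lt_top,
    ENNReal.ofReal_lt_top⟩

/-- **Main theorem, with regularity.** -/
theorem final_regular :
    ∃ φ : ℝ → ℝ, Measurable φ ∧ Stable φ ∧ Tempered φ ∧
      (∃ ψ : ℝ → ℝ, Antitone ψ ∧ (∀ r, |φ r| ≤ ψ r) ∧
        Integrable (fun x : EuclideanSpace ℝ (Fin 3) => ψ ‖x‖)) ∧
      ∃ P : ℝ → ℝ, IsPressure φ 1 P ∧ ∃ z : ℝ, 0 < z ∧ ¬ DifferentiableAt ℝ P z := by
  obtain ⟨R, hR, μ, hμ⟩ := main_press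
  have hk := adm_final hR
  have hφ := ker_eq_phi R
  exact ⟨phi R, measurable_phi hR, stable_of_adm hk hφ, tempered_phi hR,
    ⟨psi R, psi_antitone hR, abs_phi_le_psi hR, integrable_psi hR⟩,
    fun z => press (ker aa (Atail R 0)) (Real.log z), isPressure_of_adm hk hφ,
    Real.exp μ, Real.exp_pos μ, not_differentiableAt_activity hμ⟩

end Vale.Agent.Lib.P171
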