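import Mathlib

/-!
# P171: the objects of the problem statement
-/

namespace Vale.Agent.Lib.P171

open Filter Topology

/-- the energy `U_N (x_1, …, x_N) = ∑_{i < j} φ (|x_i - x_j|)` -/
noncomputable def pairEnergy (φ : ℝ → ℝ) {N : ℕ} (x : Fin N → EuclideanSpace ℝ (Fin 3)) : ℝ :=
  ∑ i, ∑ j ∈ Finset.univ.filter (fun j => i < j), φ ‖x i - x j‖

/-- the cube `Λ_L = [0, L]³` -/
def cube (L : ℝ) : Set (EuclideanSpace ℝ (Fin 3)) := {x | ∀ i, 0 ≤ x i ∧ x i ≤ L}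

/-- the canonical partition function `Z_{L,N}(β) = (1/N!) ∫_{Λ_L^N} exp (-β U_N)` -/
noncomputable def canZ (φ : ℝ → ℝ) (β L : ℝ) (N : ℕ) : ℝ :=
  ((N.factorial : ℝ))⁻¹ *
    ∫ x in Set.pi Set.univ (fun _ : Fin N => cube L), Real.exp (-β * pairEnergy φ x)

/-- stability: `U_N ≥ -B N` -/
def Stable (φ : ℝ → ℝ) : Prop :=
  ∃ B : ℝ, ∀ (N : ℕ) (x : Fin N → EuclideanSpace ℝ (Fin 3)), -(B * (N : ℝ)) ≤ pairEnergy φ x

/-- temperedness: `φ r ≤ C r^(-3-ε)` for `r ≥ R₀` -/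
def Tempered (φ : ℝ → ℝ) : Prop :=
  ∃ C ε R₀ : ℝ, 0 < C ∧ 0 < ε ∧ 0 < R₀ ∧ ∀ r : ℝ, R₀ ≤ r → φ r ≤ C * r ^ (-3 - ε)

/-- `P z = Π(β, z) = lim_{L → ∞} L⁻³ log ∑_N z^N Z_{L,N}(β)` for all `z > 0`, the series being
convergent and the integrals well defined -/
def IsPressure (φ : ℝ → ℝ) (β : ℝ) (P : ℝ → ℝ) : Prop :=
  (∀ (L : ℝ) (N : ℕ), 0 ≤ L → MeasureTheory.IntegrableOn
      (fun x : Fin N → EuclideanSpace ℝ (Fin 3) => Real.exp (-β * pairEnergy φ x))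
      (Set.pi Set.univ (fun _ : Fin N => cube L))) ∧
  (∀ z L : ℝ, 0 < z → 0 ≤ L → Summable fun N : ℕ => z ^ N * canZ φ β L N) ∧
  ∀ z : ℝ, 0 < z →
    Tendsto (fun L : ℝ => Real.log (∑' N : ℕ, z ^ N * canZ φ β L N) / L ^ 3) atTop (𝓝 (P z))

end Vale.Agent.Lib.P171
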