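import Vale.Agent.Lib.P171.WtBasic
import Vale.Agent.Lib.P171.Geom
import Vale.Agent.Lib.P171.CfgExp
import Vale.Agent.Lib.P171.CfgHolder
import Vale.Agent.Lib.P171.CfgLinear

/-!
# P171, layer 2: finite volume partition functions
-/

namespace Vale.Agent.Lib.P171

open MeasureTheory Set
open scoped ENNReal

/-- (`le_Xi`, `Wt_zero`) -/
theorem one_le_Xi (D : Set E) (k : E → E → ℝ) (μ : ℝ) : 1 ≤ Xi D (Wt k μ) :=
  calc (1 : ℝ≥0∞) = Wt k μ 0 := (Wt_zero k μ).symm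
    _ ≤ Wt k μ 0 + ∫⁻ x in D, Wt k μ {x} := le_self_add
    _ ≤ Xi D (Wt k μ) := le_Xi D _

/-- (`Wt k μ X ≤ exp ((μ + κ) N)`, `Xi_mono_on`, `Xi_exp_card`, `volume_box`) -/
theorem Xi_box_le {k : E → E → ℝ} {κ : ℝ} (hk : Adm k κ) (μ : ℝ) {L : ℝ} (hL : 0 ≤ L) :
    Xi (box L) (Wt k μ) ≤ ENNReal.ofReal (Real.exp (Real.exp (μ + κ) * L ^ 3)) := by
  have hvol : volume (box L) ≠ ∞ := by
    rw [volume_box hL]
    exact ENNReal.ofReal_ne_top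
  have h1 : Xi (box L) (Wt k μ) ≤
      Xi (box L) (fun X => ENNReal.ofReal (Real.exp ((μ + κ) * (Multiset.card X : ℝ)))) := by
    refine Xi_mono_on (measurableSet_box L) fun X _ => ?_
    refine ENNReal.ofReal_le_ofReal (Real.exp_le_exp.2 ?_)
    have := hk.stab X
    linarith
  rw [Xi_exp_card (box L) hvol, volume_box hL, ENNReal.toReal_ofReal (by positivity)] at h1
  exact h1

theorem Xi_box_ne_top {k : E → E → ℝ} {κ : ℝ} (hk : Adm k κ) (μ : ℝ) {L : ℝ} (hL : 0 ≤ L) :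
    Xi (box L) (Wt k μ) ≠ ∞ :=
  ne_top_of_le_ne_top ENNReal.ofReal_ne_top (Xi_box_le hk μ hL)

theorem one_le_Xi_toReal {k : E → E → ℝ} {κ : ℝ} (hk : Adm k κ) (μ : ℝ) {L : ℝ} (hL : 0 ≤ L) :
    1 ≤ (Xi (box L) (Wt k μ)).toReal := by
  have := ENNReal.toReal_mono (Xi_box_ne_top hk μ hL) (one_le_Xi (box L) k μ)
  simpa using this

/-- `Xi = exp lp` -/
theorem Xi_box_eq {k : E → E → ℝ} {κ : ℝ} (hk : Adm k κ) (μ : ℝ) {L : ℝ} (hL : 0 ≤ L) :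
    Xi (box L) (Wt k μ) = ENNReal.ofReal (Real.exp (lp k μ L)) := by
  unfold lp
  rw [Real.exp_log (lt_of_lt_of_le one_pos (one_le_Xi_toReal hk μ hL)),
    ENNReal.ofReal_toReal (Xi_box_ne_top hk μ hL)]

theorem lp_nonneg {k : E → E → ℝ} {κ : ℝ} (hk : Adm k κ) (μ : ℝ) {L : ℝ} (hL : 0 ≤ L) :
    0 ≤ lp k μ L :=
  Real.log_nonneg (one_le_Xi_toReal hk μ hL)

/-- an upper bound on `Xi` gives an upper bound on `lp` -/
theorem lp_le_of_Xi_le {k : E → E → ℝ} {μ L t : ℝ}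
    (h : Xi (box L) (Wt k μ) ≤ ENNReal.ofReal (Real.exp t)) : lp k μ L ≤ t := by
  have hne : Xi (box L) (Wt k μ) ≠ ∞ := ne_top_of_le_ne_top ENNReal.ofReal_ne_top h
  have h1 : 1 ≤ (Xi (box L) (Wt k μ)).toReal := by
    have := ENNReal.toReal_mono hne (one_le_Xi (box L) k μ)
    simpa using this
  have h2 : (Xi (box L) (Wt k μ)).toReal ≤ Real.exp t :=
    ENNReal.toReal_le_of_le_ofReal (Real.exp_pos t).le h
  unfold lp
  exact (Real.log_le_iff_le_exp (lt_of_lt_of_le one_pos h1)).2 h2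

theorem lp_le {k : E → E → ℝ} {κ : ℝ} (hk : Adm k κ) (μ : ℝ) {L : ℝ} (hL : 0 ≤ L) :
    lp k μ L ≤ Real.exp (μ + κ) * L ^ 3 :=
  lp_le_of_Xi_le (Xi_box_le hk μ hL)

/-- a lower bound on `Xi` gives a lower bound on `lp` -/
theorem le_lp_of_le_Xi {k : E → E → ℝ} {κ : ℝ} (hk : Adm k κ) {μ L t : ℝ} (hL : 0 ≤ L)
    (h : ENNReal.ofReal (Real.exp t) ≤ Xi (box L) (Wt k μ)) : t ≤ lp k μ L := by
  have h2 : Real.exp t ≤ (Xi (box L) (Wt k μ)).toReal :=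
    (ENNReal.ofReal_le_iff_le_toReal (Xi_box_ne_top hk μ hL)).1 h
  unfold lp
  exact (Real.le_log_iff_exp_le (lt_of_lt_of_le one_pos (one_le_Xi_toReal hk μ hL))).2 h2

theorem lp_mono_L {k : E → E → ℝ} {κ : ℝ} (hk : Adm k κ) (μ : ℝ) {L L' : ℝ} (hL : 0 ≤ L)
    (h : L ≤ L') : lp k μ L ≤ lp k μ L' := by
  unfold lp
  refine Real.log_le_log (lt_of_lt_of_le one_pos (one_le_Xi_toReal hk μ hL)) ?_
  exact ENNReal.toReal_mono (Xi_box_ne_top hk μ (hL.trans h)) (Xi_mono_set (box_mono h) _)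

/-- comparison of two systems through their weights -/
theorem lp_le_lp {k k' : E → E → ℝ} {κ κ' : ℝ} (hk : Adm k κ) (hk' : Adm k' κ') {μ μ' : ℝ}
    (h : ∀ X, Wt k μ X ≤ Wt k' μ' X) {L : ℝ} (hL : 0 ≤ L) : lp k μ L ≤ lp k' μ' L := by
  unfold lp
  refine Real.log_le_log (lt_of_lt_of_le one_pos (one_le_Xi_toReal hk μ hL)) ?_
  exact ENNReal.toReal_mono (Xi_box_ne_top hk' μ' hL)
    (Xi_mono_on (measurableSet_box L) fun X _ => h X)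

/-- log-convexity (`Wt_holder`, `Xi_holder`) -/
theorem lp_convex {k₁ k₂ : E → E → ℝ} {κ₁ κ₂ : ℝ} (h₁ : Adm k₁ κ₁) (h₂ : Adm k₂ κ₂) (μ₁ μ₂ : ℝ)
    {s t : ℝ} (hs : 0 ≤ s) (ht : 0 ≤ t) (hst : s + t = 1) {L : ℝ} (hL : 0 ≤ L) :
    lp (fun x y => s * k₁ x y + t * k₂ x y) (s * μ₁ + t * μ₂) L
      ≤ s * lp k₁ μ₁ L + t * lp k₂ μ₂ L := by
  apply lp_le_of_Xi_le
  have e : Wt (fun x y => s * k₁ x y + t * k₂ x y) (s * μ₁ + t * μ₂)
      = fun X => Wt k₁ μ₁ X ^ s * Wt k₂ μ₂ X ^ t := by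
    funext X
    exact Wt_holder k₁ k₂ μ₁ μ₂ s t X
  rw [e]
  refine (Xi_holder (measW_Wt h₁.meas μ₁) (measW_Wt h₂.meas μ₂) hs ht hst (box L)).trans
    (le_of_eq ?_)
  rw [Xi_box_eq h₁ μ₁ hL, Xi_box_eq h₂ μ₂ hL, ENNReal.ofReal_rpow_of_pos (Real.exp_pos _),
    ENNReal.ofReal_rpow_of_pos (Real.exp_pos _), ← Real.exp_mul, ← Real.exp_mul,
    ← ENNReal.ofReal_mul (Real.exp_pos _).le, ← Real.exp_add]
  congr 2
  ring

/-- convex combinations of admissible kernels are admissible -/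
theorem Adm.combo {k₁ k₂ : E → E → ℝ} {κ₁ κ₂ : ℝ} (h₁ : Adm k₁ κ₁) (h₂ : Adm k₂ κ₂)
    {s t : ℝ} (hs : 0 ≤ s) (ht : 0 ≤ t) :
    Adm (fun x y => s * k₁ x y + t * k₂ x y) (s * κ₁ + t * κ₂) := by
  refine ⟨?_, ?_, ?_, ?_⟩
  · exact (h₁.meas.const_mul s).add (h₂.meas.const_mul t)
  · intro v x y
    simp only [h₁.transl, h₂.transl]
  · intro x y hxy
    have a1 := mul_nonneg hs (neg_nonneg.2 (h₁.far x y hxy))
    have a2 := mul_nonneg ht (neg_nonneg.2 (h₂.far x y hxy))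
    linarith
  · intro X
    rw [En_add_ker (fun x y => s * k₁ x y) (fun x y => t * k₂ x y), En_smul_ker, En_smul_ker]
    have a1 := mul_le_mul_of_nonneg_left (h₁.stab X) hs
    have a2 := mul_le_mul_of_nonneg_left (h₂.stab X) ht
    linarith

end Vale.Agent.Lib.P171
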