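import Vale.Agent.Lib.P171.Thermo1
import Vale.Agent.Lib.P171.CfgProd
import Vale.Agent.Lib.P171.CfgTrans

/-!
# P171, layer 2: superadditivity over separated cubes
-/

namespace Vale.Agent.Lib.P171

open MeasureTheory Set
open scoped ENNReal

/-- the translate of `box L` with index `m` in the array of separated cubes -/
def sbox (L : ℝ) {n : ℕ} (m : Fin 3 → Fin n) : Set E :=
  (fun x => x + vec (fun i => (L + 1) * ((m i : ℕ) : ℝ))) '' box L

theorem mem_sbox {L : ℝ} {n : ℕ} {m : Fin 3 → Fin n} {x : E} (hx : x ∈ sbox L m) (i : Fin 3) :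
    (L + 1) * ((m i : ℕ) : ℝ) ≤ x i ∧ x i ≤ (L + 1) * ((m i : ℕ) : ℝ) + L := by
  obtain ⟨z, hz, rfl⟩ := hx
  have h1 := hz i
  have h2 : (z + vec (fun i => (L + 1) * ((m i : ℕ) : ℝ))) i = z i + (L + 1) * ((m i : ℕ) : ℝ) := by
    simp
  rw [h2]
  constructor <;> linarith [h1.1, h1.2]

theorem measurableSet_sbox (L : ℝ) {n : ℕ} (m : Fin 3 → Fin n) : MeasurableSet (sbox L m) :=
  (measurableEmbedding_addRight _).measurableSet_image.2 (measurableSet_box L)

theorem sbox_sep {L : ℝ} (hL : 0 ≤ L) {n : ℕ} {m m' : Fin 3 → Fin n} (hne : m ≠ m') {x y : E}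
    (hx : x ∈ sbox L m) (hy : y ∈ sbox L m') : 1 ≤ ‖x - y‖ := by
  obtain ⟨i, hi⟩ := Function.ne_iff.1 hne
  have h1 := mem_sbox hx i
  have h2 := mem_sbox hy i
  have h3 : |(x - y) i| ≤ ‖x - y‖ := abs_coord_le_norm (x - y) i
  have h4 : (x - y) i = x i - y i := by simp
  rw [h4] at h3
  refine le_trans ?_ h3
  have hi' : (m i : ℕ) ≠ (m' i : ℕ) := fun h => hi (Fin.ext h)
  rcases lt_or_gt_of_ne hi' with h5 | h5
  · have h6 : ((m i : ℕ) : ℝ) + 1 ≤ ((m' i : ℕ) : ℝ) := by exact_mod_cast h5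
    have h7 : (L + 1) * (((m i : ℕ) : ℝ) + 1) ≤ (L + 1) * ((m' i : ℕ) : ℝ) :=
      mul_le_mul_of_nonneg_left h6 (by linarith)
    rw [le_abs]
    right
    linarith [h1.2, h2.1]
  · have h6 : ((m' i : ℕ) : ℝ) + 1 ≤ ((m i : ℕ) : ℝ) := by exact_mod_cast h5
    have h7 : (L + 1) * (((m' i : ℕ) : ℝ) + 1) ≤ (L + 1) * ((m i : ℕ) : ℝ) :=
      mul_le_mul_of_nonneg_left h6 (by linarith)
    rw [le_abs]
    left
    linarith [h1.1, h2.2]

theorem sbox_subset {L : ℝ} (hL : 0 ≤ L) {n : ℕ} (m : Fin 3 → Fin n) :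
    sbox L m ⊆ box ((n : ℝ) * (L + 1)) := by
  intro x hx i
  have h1 := mem_sbox hx i
  have h2 : ((m i : ℕ) : ℝ) + 1 ≤ (n : ℝ) := by exact_mod_cast (m i).2
  have h3 : (0 : ℝ) ≤ ((m i : ℕ) : ℝ) := Nat.cast_nonneg _
  have h4 : (L + 1) * (((m i : ℕ) : ℝ) + 1) ≤ (L + 1) * (n : ℝ) :=
    mul_le_mul_of_nonneg_left h2 (by linarith)
  have h5 : 0 ≤ (L + 1) * ((m i : ℕ) : ℝ) := mul_nonneg (by linarith) h3
  constructor
  · linarith [h1.1]
  · linarith [h1.2]

/-- The `n³` translates of `box L` by the vectors `(L + 1) m`, `m ∈ {0, …, n-1}³`, lie in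
`box (n (L + 1))`, are pairwise at distance `≥ 1` (some coordinate differs by at least one,
`abs_coord_le_norm`), so the kernel is `≤ 0` between them (`Adm.far`, `Wt_add_ge`). Use
`Xi_biUnion_ge` with `ι = Fin 3 → Fin n` (or `Fintype.piFinset`), `Xi_translate` with `Wt_map_add`,
and `Xi_mono_set`. -/
theorem Xi_box_super {k : E → E → ℝ} {κ : ℝ} (hk : Adm k κ) (μ : ℝ) {L : ℝ} (hL : 0 ≤ L) (n : ℕ) :
    Xi (box L) (Wt k μ) ^ (n ^ 3) ≤ Xi (box ((n : ℝ) * (L + 1))) (Wt k μ) := by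
  classical
  have h1 : ∏ m ∈ (Finset.univ : Finset (Fin 3 → Fin n)), Xi (sbox L m) (Wt k μ)
      = Xi (box L) (Wt k μ) ^ (n ^ 3) := by
    have : ∀ m ∈ (Finset.univ : Finset (Fin 3 → Fin n)),
        Xi (sbox L m) (Wt k μ) = Xi (box L) (Wt k μ) := by
      intro m _
      exact Xi_translate _ _ (fun X => Wt_map_add hk.transl μ _ X)
    rw [Finset.prod_congr rfl this, Finset.prod_const, Finset.card_univ]
    simp
  rw [← h1]
  have h2 := Xi_biUnion_ge (Finset.univ : Finset (Fin 3 → Fin n)) (fun m => sbox L m)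
    (fun m _ => measurableSet_sbox L m)
    (by
      intro m _ m' _ hne
      rw [Function.onFun, Set.disjoint_left]
      intro x hx hx'
      have := sbox_sep hL hne hx hx'
      rw [sub_self, norm_zero] at this
      linarith)
    (measW_Wt hk.meas μ) (Wt_zero k μ)
    (by
      intro m _ X Y hX hY
      apply Wt_add_ge
      intro x hx y hy
      have hx' := hX x hx
      have hy' := hY y hy
      simp only [mem_iUnion, Finset.mem_erase, Finset.mem_univ, and_true] at hy'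
      obtain ⟨m', hne, hy''⟩ := hy'
      have hs : 1 ≤ ‖x - y‖ := sbox_sep hL (Ne.symm hne) hx' hy''
      exact ⟨hk.far x y hs, hk.far y x (by rwa [norm_sub_rev])⟩)
  refine le_trans h2 (Xi_mono_set ?_ _)
  intro x hx
  simp only [mem_iUnion, Finset.mem_univ] at hx
  obtain ⟨m, _, hm⟩ := hx
  exact sbox_subset hL m hm

theorem lp_super {k : E → E → ℝ} {κ : ℝ} (hk : Adm k κ) (μ : ℝ) {L : ℝ} (hL : 0 ≤ L) (n : ℕ) :
    (n : ℝ) ^ 3 * lp k μ L ≤ lp k μ ((n : ℝ) * (L + 1)) := by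
  have hL' : 0 ≤ (n : ℝ) * (L + 1) := by positivity
  apply le_lp_of_le_Xi hk hL'
  refine le_trans (le_of_eq ?_) (Xi_box_super hk μ hL n)
  rw [Xi_box_eq hk μ hL, ← ENNReal.ofReal_pow (Real.exp_pos _).le, ← Real.exp_nat_mul]
  push_cast
  rfl

end Vale.Agent.Lib.P171
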