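import Vale.Agent.Lib.P171.EnBasic
import Vale.Agent.Lib.P171.CfgMeas

/-!
# P171, layer 1: elementary properties of the Boltzmann weights
-/

namespace Vale.Agent.Lib.P171

open MeasureTheory Set
open scoped ENNReal

/-- (`dsum_ms`, `diag_ms`, `card_ms`; finite sums of measurable functions) -/
theorem measW_Wt {k : E → E → ℝ} (hk : Measurable (Function.uncurry k)) (μ : ℝ) :
    MeasW (Wt k μ) := by
  intro N
  have hkk : ∀ i j : Fin N, Measurable fun x : Fin N → E => k (x i) (x j) := by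
    intro i j
    have hm : Measurable fun x : Fin N → E => ((x i, x j) : E × E) :=
      (measurable_pi_apply i).prodMk (measurable_pi_apply j)
    exact hk.comp hm
  simp only [Wt, card_ms, En, dsum_ms, diag_ms]
  refine ENNReal.measurable_ofReal.comp (Real.measurable_exp.comp (measurable_const.sub ?_))
  refine Measurable.div_const (Measurable.sub ?_ ?_) 2
  · exact Finset.measurable_fun_sum _ fun i _ => Finset.measurable_fun_sum _ fun j _ => hkk i j
  · exact Finset.measurable_fun_sum _ fun i _ => hkk i i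

theorem Wt_zero (k : E → E → ℝ) (μ : ℝ) : Wt k μ 0 = 1 := by
  simp [Wt, En_zero]

theorem Wt_singleton (k : E → E → ℝ) (μ : ℝ) (a : E) :
    Wt k μ {a} = ENNReal.ofReal (Real.exp μ) := by
  simp [Wt, En_singleton]

theorem Wt_ne_top (k : E → E → ℝ) (μ : ℝ) (X : Multiset E) : Wt k μ X ≠ ∞ :=
  ENNReal.ofReal_ne_top

theorem Wt_map_add {k : E → E → ℝ} (hk : ∀ v x y, k (x + v) (y + v) = k x y) (μ : ℝ) (v : E)
    (X : Multiset E) : Wt k μ (X.map fun x => x + v) = Wt k μ X := by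
  unfold Wt
  rw [En_map_add hk, Multiset.card_map]

theorem Wt_le_Wt {k k' : E → E → ℝ} {μ μ' : ℝ} {X : Multiset E}
    (h : μ * (Multiset.card X : ℝ) - En k X ≤ μ' * (Multiset.card X : ℝ) - En k' X) :
    Wt k μ X ≤ Wt k' μ' X :=
  ENNReal.ofReal_le_ofReal (Real.exp_le_exp.2 h)

theorem Wt_add_ge {k : E → E → ℝ} {μ : ℝ} {X Y : Multiset E}
    (h : ∀ x ∈ X, ∀ y ∈ Y, k x y ≤ 0 ∧ k y x ≤ 0) : Wt k μ X * Wt k μ Y ≤ Wt k μ (X + Y) := by
  unfold Wt
  rw [← ENNReal.ofReal_mul (Real.exp_pos _).le, ← Real.exp_add]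
  refine ENNReal.ofReal_le_ofReal (Real.exp_le_exp.2 ?_)
  have h1 : cross k X Y ≤ 0 := cross_nonpos fun x hx y hy => (h x hx y hy).1
  have h2 : cross k Y X ≤ 0 := cross_nonpos fun y hy x hx => (h x hx y hy).2
  rw [En_add, Multiset.card_add]
  push_cast
  linarith

theorem Wt_add_eq {k : E → E → ℝ} {μ : ℝ} {X Y : Multiset E}
    (h : ∀ x ∈ X, ∀ y ∈ Y, k x y = 0 ∧ k y x = 0) : Wt k μ (X + Y) = Wt k μ X * Wt k μ Y := by
  unfold Wt
  rw [← ENNReal.ofReal_mul (Real.exp_pos _).le, ← Real.exp_add]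
  have h1 : cross k X Y = 0 := cross_eq_zero fun x hx y hy => (h x hx y hy).1
  have h2 : cross k Y X = 0 := cross_eq_zero fun y hy x hx => (h x hx y hy).2
  rw [En_add, Multiset.card_add, h1, h2]
  congr 2
  push_cast
  ring

theorem Wt_shift (k : E → E → ℝ) (μ ν : ℝ) (X : Multiset E) :
    Wt k (μ + ν) X = ENNReal.ofReal (Real.exp (ν * (Multiset.card X : ℝ))) * Wt k μ X := by
  unfold Wt
  rw [← ENNReal.ofReal_mul (Real.exp_pos _).le, ← Real.exp_add]
  congr 2
  ring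

theorem Wt_holder (k₁ k₂ : E → E → ℝ) (μ₁ μ₂ s t : ℝ) (X : Multiset E) :
    Wt (fun x y => s * k₁ x y + t * k₂ x y) (s * μ₁ + t * μ₂) X
      = Wt k₁ μ₁ X ^ s * Wt k₂ μ₂ X ^ t := by
  unfold Wt
  rw [ENNReal.ofReal_rpow_of_pos (Real.exp_pos _), ENNReal.ofReal_rpow_of_pos (Real.exp_pos _),
    ← Real.exp_mul, ← Real.exp_mul, ← ENNReal.ofReal_mul (Real.exp_pos _).le, ← Real.exp_add,
    En_add_ker (fun x y => s * k₁ x y) (fun x y => t * k₂ x y), En_smul_ker, En_smul_ker]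
  congr 2
  ring

end Vale.Agent.Lib.P171
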